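import Mathlib

/-! P267 / H734: smooth parametric integrals over `[0,1]` (open sets of parameters). -/

namespace Vale.Agent.P267.H734

open scoped ContDiff Topology
open Set Filter MeasureTheory

set_option linter.unusedSectionVars false

noncomputable section

variable {P : Type} [NormedAddCommGroup P] [NormedSpace ℝ P]
  {V : Type} [NormedAddCommGroup V] [NormedSpace ℝ V]

/-- a continuous function near `{p} × [0,1]` is bounded near `{p} × [0,1]` -/
theorem exists_bound_near {W : Set (P × ℝ)} {f : P × ℝ → V} (hW : IsOpen W)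
    (hf : ContinuousOn f W) {p : P} (hp : ∀ t ∈ Icc (0 : ℝ) 1, (p, t) ∈ W) :
    ∃ C : ℝ, ∀ᶠ q in 𝓝 p, ∀ t ∈ Icc (0 : ℝ) 1, (q, t) ∈ W ∧ ‖f (q, t)‖ ≤ C := by
  have h1 : ∀ t ∈ Icc (0 : ℝ) 1, ∃ C : ℝ, ∀ᶠ z : P × ℝ in 𝓝 (p, t), z ∈ W ∧ ‖f z‖ ≤ C := by
    intro t ht
    have h2 : ContinuousAt f (p, t) := hf.continuousAt (hW.mem_nhds (hp t ht))
    exact ⟨‖f (p, t)‖ + 1, (hW.eventually_mem (hp t ht)).and
      (h2.norm.eventually_le_const (lt_add_one _))⟩
  choose! C hC using h1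
  refine isCompact_Icc.induction_on
    (p := fun s => ∃ C0 : ℝ, ∀ᶠ q in 𝓝 p, ∀ t ∈ s, (q, t) ∈ W ∧ ‖f (q, t)‖ ≤ C0)
    ⟨0, by simp⟩ ?_ ?_ ?_
  · rintro s t hst ⟨c, hc⟩
    exact ⟨c, hc.mono fun q hq y hy => hq y (hst hy)⟩
  · rintro s t ⟨c, hc⟩ ⟨d, hd⟩
    refine ⟨max c d, ?_⟩
    filter_upwards [hc, hd] with q h1 h2 y hy
    rcases hy with hy | hy
    · exact ⟨(h1 y hy).1, (h1 y hy).2.trans (le_max_left _ _)⟩
    · exact ⟨(h2 y hy).1, (h2 y hy).2.trans (le_max_right _ _)⟩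
  · intro t ht
    have h4 := hC t ht
    rw [nhds_prod_eq] at h4
    obtain ⟨pa, hpa, pb, hpb, hab⟩ := Filter.eventually_prod_iff.1 h4
    refine ⟨{z | pb z}, mem_nhdsWithin_of_mem_nhds hpb, C t, ?_⟩
    filter_upwards [hpa] with q hq z hz
    exact hab hq hz

/-- the segment sections of a function continuous on `W` are integrable -/
theorem intervalIntegrable_section {W : Set (P × ℝ)} {f : P × ℝ → V}
    (hf : ContinuousOn f W) {p : P} (hp : ∀ t ∈ Icc (0 : ℝ) 1, (p, t) ∈ W) :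
    IntervalIntegrable (fun t => f (p, t)) volume 0 1 := by
  refine ContinuousOn.intervalIntegrable ?_
  rw [uIcc_of_le zero_le_one]
  exact hf.comp (f := fun t : ℝ => ((p, t) : P × ℝ)) (by fun_prop) fun t ht => hp t ht

theorem continuousAt_integral {W : Set (P × ℝ)} {f : P × ℝ → V} (hW : IsOpen W)
    (hf : ContinuousOn f W) {p : P} (hp : ∀ t ∈ Icc (0 : ℝ) 1, (p, t) ∈ W) :
    ContinuousAt (fun q => ∫ t in (0 : ℝ)..1, f (q, t)) p := by
  obtain ⟨C, hC⟩ := exists_bound_near hW hf hp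
  refine intervalIntegral.continuousAt_of_dominated_interval (bound := fun _ => C) ?_ ?_ ?_ ?_
  · filter_upwards [hC] with q hq
    have := intervalIntegrable_section hf (p := q) fun t ht => (hq t ht).1
    have h2 := this.aestronglyMeasurable
    rwa [uIoc_of_le zero_le_one]
  · filter_upwards [hC] with q hq
    refine Eventually.of_forall fun t ht => ?_
    rw [uIoc_of_le zero_le_one] at ht
    exact (hq t ⟨ht.1.le, ht.2⟩).2
  · exact intervalIntegrable_const
  · refine Eventually.of_forall fun t ht => ?_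
    rw [uIoc_of_le zero_le_one] at ht
    have h1 : ContinuousAt f (p, t) := hf.continuousAt (hW.mem_nhds (hp t ⟨ht.1.le, ht.2⟩))
    exact ContinuousAt.comp (f := fun q : P => ((q, t) : P × ℝ)) h1 (by fun_prop)

/-- differentiation under the integral sign -/
theorem hasFDerivAt_integral {W : Set (P × ℝ)} {f : P × ℝ → V} (hW : IsOpen W)
    (hf : ContDiffOn ℝ 1 f W) {p : P} (hp : ∀ t ∈ Icc (0 : ℝ) 1, (p, t) ∈ W) :
    HasFDerivAt (fun q => ∫ t in (0 : ℝ)..1, f (q, t))
      (∫ t in (0 : ℝ)..1, (fderiv ℝ f (p, t)).comp (ContinuousLinearMap.inl ℝ P ℝ)) p := by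
  set f' : P × ℝ → (P →L[ℝ] V) := fun q =>
    (fderiv ℝ f q).comp (ContinuousLinearMap.inl ℝ P ℝ) with hf'
  have hc' : ContinuousOn f' W := by
    have h1 : ContinuousOn (fderiv ℝ f) W := hf.continuousOn_fderiv_of_isOpen hW le_rfl
    exact h1.clm_comp continuousOn_const
  obtain ⟨C, hC⟩ := exists_bound_near hW hc' hp
  obtain ⟨s, hs, hsC⟩ := Filter.eventually_iff_exists_mem.1 hC
  refine (intervalIntegral.hasFDerivAt_integral_of_dominated_of_fderiv_le (𝕜 := ℝ)
    (bound := fun _ => C) (F' := fun q t => f' (q, t)) hs ?_ ?_ ?_ ?_ ?_ ?_)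
  · filter_upwards [hC] with q hq
    have := intervalIntegrable_section hf.continuousOn (p := q) fun t ht => (hq t ht).1
    have h2 := this.aestronglyMeasurable
    rwa [uIoc_of_le zero_le_one]
  · exact intervalIntegrable_section hf.continuousOn hp
  · have := intervalIntegrable_section hc' hp
    have h2 := this.aestronglyMeasurable
    rwa [uIoc_of_le zero_le_one]
  · refine Eventually.of_forall fun t ht q hq => ?_
    rw [uIoc_of_le zero_le_one] at ht
    exact (hsC q hq t ⟨ht.1.le, ht.2⟩).2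
  · exact intervalIntegrable_const
  · refine Eventually.of_forall fun t ht q hq => ?_
    rw [uIoc_of_le zero_le_one] at ht
    have hqt : (q, t) ∈ W := (hsC q hq t ⟨ht.1.le, ht.2⟩).1
    have h1 : HasFDerivAt f (fderiv ℝ f (q, t)) (q, t) :=
      ((hf.contDiffAt (hW.mem_nhds hqt)).differentiableAt one_ne_zero).hasFDerivAt
    exact HasFDerivAt.comp q h1 (hasFDerivAt_prodMk_left q t)

theorem contDiffOn_integral_nat {W : Set (P × ℝ)} (hW : IsOpen W) {U : Set P} (hU : IsOpen U)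
    (hUW : ∀ p ∈ U, ∀ t ∈ Icc (0 : ℝ) 1, (p, t) ∈ W) (n : ℕ) :
    ∀ {V : Type} [NormedAddCommGroup V] [NormedSpace ℝ V] {f : P × ℝ → V},
      ContDiffOn ℝ n f W → ContDiffOn ℝ n (fun p => ∫ t in (0 : ℝ)..1, f (p, t)) U := by
  induction n with
  | zero =>
    intro V _ _ f hf
    simp only [CharP.cast_eq_zero, contDiffOn_zero] at hf ⊢
    exact fun p hp => (continuousAt_integral hW hf (hUW p hp)).continuousWithinAt
  | succ n ih =>
    intro V _ _ f hf
    have hf1 : ContDiffOn ℝ 1 f W := hf.of_le (by norm_cast; omega)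
    have hcast : ((n + 1 : ℕ) : WithTop ℕ∞) = (n : WithTop ℕ∞) + 1 := by norm_cast
    rw [hcast, contDiffOn_succ_iff_fderiv_of_isOpen hU]
    refine ⟨fun p hp => (hasFDerivAt_integral hW hf1
      (hUW p hp)).differentiableAt.differentiableWithinAt, by simp, ?_⟩
    have h1 : ContDiffOn ℝ n
        (fun q : P × ℝ => (fderiv ℝ f q).comp (ContinuousLinearMap.inl ℝ P ℝ)) W := by
      have h2 : ContDiffOn ℝ n (fderiv ℝ f) W := hf.fderiv_of_isOpen hW (by norm_cast)
      exact h2.clm_comp contDiffOn_const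
    refine (ih h1).congr fun p hp => ?_
    exact (hasFDerivAt_integral hW hf1 (hUW p hp)).fderiv

theorem contDiffOn_integral {W : Set (P × ℝ)} (hW : IsOpen W) {U : Set P} (hU : IsOpen U)
    (hUW : ∀ p ∈ U, ∀ t ∈ Icc (0 : ℝ) 1, (p, t) ∈ W) {f : P × ℝ → V}
    (hf : ContDiffOn ℝ ∞ f W) : ContDiffOn ℝ ∞ (fun p => ∫ t in (0 : ℝ)..1, f (p, t)) U := by
  rw [contDiffOn_infty]
  intro n
  exact contDiffOn_integral_nat hW hU hUW n (hf.of_le (by exact_mod_cast le_top))

end

end Vale.Agent.P267.H734
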