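import Vale.Agent.P267.H734.Coord

/-! P267 / H734: from the `(z,s)` model to the data `KData` in the coordinates `(z,w)`. -/

set_option linter.unusedSectionVars false
set_option linter.unusedVariables false

namespace Vale.Agent.P267.H734

open scoped ContDiff Topology
open Set Filter H315

noncomputable section

variable {W : Type} [NormedAddCommGroup W] [NormedSpace ℂ W]

/-- `D_v` commutes with `∂̄_u` -/
theorem fderiv_dbv_eq {F : VV → W} {x : VV} (h : ContDiffAt ℝ ∞ F x) (u v : VV) :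
    fderiv ℝ (fun y => dbv u F y) x v = dbv u (fun y => fderiv ℝ F y v) x := by
  have h2 : ContDiffAt ℝ 2 F x := h.of_le (WithTop.coe_le_coe.2 le_top)
  have hs : IsSymmSndFDerivAt ℝ F x := h2.isSymmSndFDerivAt (by simp)
  have h1 : DifferentiableAt ℝ (fderiv ℝ F) x :=
    (h2.fderiv_right (m := 1) (by norm_num)).differentiableAt (by norm_num)
  have h3 : ∀ w : VV, fderiv ℝ (fun y => fderiv ℝ F y v) x w = fderiv ℝ (fderiv ℝ F) x w v := by
    intro w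
    have := h1.hasFDerivAt.clm_apply (hasFDerivAt_const v x)
    rw [this.fderiv]
    simp
  rw [fderiv_dbv h2]
  unfold dbv
  rw [h3, h3, hs.eq v u, hs.eq v]

/-- components -/
theorem SH.pi {P E : Type} [NormedAddCommGroup P] [NormedSpace ℝ P]
    [NormedAddCommGroup E] [NormedSpace ℂ E] {F : P × E → Fin 2 → ℂ} {x : P × E} (h : SH F x)
    (i : Fin 2) : SH (fun y => F y i) x :=
  h.clm (ContinuousLinearMap.proj (R := ℂ) (φ := fun _ => ℂ) i)

theorem dbv_pi {F : VV → V} {x : VV} (h : DifferentiableAt ℝ F x) (u : VV) (i : Fin 2) :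
    dbv u (fun y => F y i) x = dbv u F x i :=
  dbv_clm (ContinuousLinearMap.proj (R := ℂ) (φ := fun _ => ℂ) i) h

theorem fderiv_pi2 {F : VV → V} {x : VV} (h : DifferentiableAt ℝ F x) (u : VV) (i : Fin 2) :
    fderiv ℝ (fun y => F y i) x u = fderiv ℝ F x u i := by
  have h1 : HasFDerivAt (fun y => F y i)
      ((ContinuousLinearMap.proj (R := ℝ) (φ := fun _ : Fin 2 => ℂ) i).comp (fderiv ℝ F x)) x :=
    (ContinuousLinearMap.proj (R := ℝ) (φ := fun _ : Fin 2 => ℂ) i).hasFDerivAt.comp x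
      h.hasFDerivAt
  rw [h1.fderiv]
  rfl

variable {A : Type} [NormedRing A] [NormedAlgebra ℂ A]

/-- `∂(a_k)_i / ∂s_c` -/
def Ja (a : Fin 2 → VV → V) (k i c : Fin 2) (y : VV) : ℂ := fderiv ℝ (a k) y (0, ee c) i

/-- the divergence of `a_k` -/
def dv (a : Fin 2 → VV → V) (k : Fin 2) (y : VV) : ℂ := Ja a k 0 0 y + Ja a k 1 1 y

/-- `g_k` in the `(z,s)` model -/
def gg (a : Fin 2 → VV → V) (ε : Fin 2 → VV → A) (k : Fin 2) (y : VV) : A :=
  dv a k y • (1 : A) + ε k y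

variable (A) in
/-- the functions `α, Γ, κ, Φ` of the `(z,s)` model -/
structure TData where
  al : Fin 2 → Fin 2 → Fin 2 → VV → ℂ
  Ga : Fin 2 → Fin 2 → VV → A
  ka : Fin 2 → VV → ℂ
  Ph : VV → A

/-- the relations in the `(z,s)` model -/
structure TRel (D : TData A) (Ω : Set VV) (a : Fin 2 → VV → V) (ε : Fin 2 → VV → A) : Prop where
  sh_al : ∀ y ∈ Ω, ∀ k i c, SH (D.al k i c) y
  sh_Ga : ∀ y ∈ Ω, ∀ k i, SH (D.Ga k i) y
  sh_ka : ∀ y ∈ Ω, ∀ i, SH (D.ka i) y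
  sh_Ph : ∀ y ∈ Ω, SH D.Ph y
  t1 : ∀ y ∈ Ω, ∀ k i, a k y i = ∑ c, D.al k i c y * y.2 c
  t2 : ∀ y ∈ Ω, ∀ k, gg a ε k y = (D.al k 0 0 y + D.al k 1 1 y) • (1 : A) +
    (y.2 0 • D.Ga k 0 y + y.2 1 • D.Ga k 1 y)
  t3 : ∀ y ∈ Ω, ∀ i c, DD (a 0) (ee 0) (D.al 1 i c) y - DD (a 1) (ee 1) (D.al 0 i c) y -
    ∑ e, (D.al 0 i e y * D.al 1 e c y - D.al 1 i e y * D.al 0 e c y) =
      - D.ka i y * (![- y.2 1, y.2 0] : Fin 2 → ℂ) c
  t4 : ∀ y ∈ Ω, ∀ i : Fin 2,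
    - wd (Pi.single i 1) (fun c => DD (a 0) (ee 0) (D.Ga 1 c) y + D.Ga 1 c y * gg a ε 0 y
        - DD (a 1) (ee 1) (D.Ga 0 c) y - D.Ga 0 c y * gg a ε 1 y)
      + wd (fun c => D.al 0 i c y) (fun c => D.Ga 1 c y)
      - wd (fun c => D.al 1 i c y) (fun c => D.Ga 0 c y) - D.ka i y • (1 : A) = y.2 i • D.Ph y

/-- the entries of `∂_w s` -/
def Ms (s : VV → V) (i c : Fin 2) (x : VV) : ℂ := fderiv ℝ s x (0, ee c) i

/-- `det ∂_w s` -/
def jac (s : VV → V) (x : VV) : ℂ := Ms s 0 0 x * Ms s 1 1 x - Ms s 0 1 x * Ms s 1 0 x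

/-- the data in the coordinates `(z,w)` -/
def kd (Ω : Set V) (s : VV → V) (τ : VV → A) (T : TData A) (b : Fin 2 → VV → ℂ) : KData A where
  s i x := s x i
  al j i c x := (![T.al 0 i c (Xi s x), T.al 1 i c (Xi s x), 0, 0] : Fin 4 → ℂ) j
  m x := jac s x • τ x
  g j x := (![gg (aa Ω s τ) (ep1 Ω s τ) 0 (Xi s x), gg (aa Ω s τ) (ep1 Ω s τ) 1 (Xi s x), 0, 0] :
    Fin 4 → A) j
  Ga j i x := (![T.Ga 0 i (Xi s x), T.Ga 1 i (Xi s x), 0, 0] : Fin 4 → A) j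
  ka i x := T.ka i (Xi s x)
  Ph x := T.Ph (Xi s x)
  b := b

namespace Inp

variable {Ω : Set V} {s : VV → V} {τ : VV → A} [CompleteSpace A]

theorem sh_Ms {x : VV} (hx : SH s x) (i c : Fin 2) : SH (Ms s i c) x :=
  (hx.fderiv_apply (0, ee c)).pi i

theorem sh_jac {x : VV} (hx : SH s x) : SH (jac s) x :=
  ((sh_Ms hx 0 0).mul (sh_Ms hx 1 1)).sub ((sh_Ms hx 0 1).mul (sh_Ms hx 1 0))

theorem sh_m {x : VV} (hx : x ∈ dO Ω s τ) : SH (fun x => jac s x • τ x) x :=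
  (sh_jac (dO_sh_s hx)).smul' (dO_sh_t hx)

theorem sh_Ja (h : Inp Ω s τ) (k i c : Fin 2) {y : VV} (hy : y ∈ dW1 Ω s τ) :
    SH (Ja (aa Ω s τ) k i c) y := ((h.sh_aa k hy).fderiv_apply (0, ee c)).pi i

theorem sh_gg (h : Inp Ω s τ) (k : Fin 2) {y : VV} (hy : y ∈ dW1 Ω s τ) :
    SH (gg (aa Ω s τ) (ep1 Ω s τ) k) y :=
  (SH.smul' ((h.sh_Ja k 0 0 hy).add (h.sh_Ja k 1 1 hy)) (SH.const 1 y)).add (h.sh_ep1 k hy)

/-- `∂̄_k ∂_w s = (D_s a_k) ∂_w s` -/
theorem db_Ms (h : Inp Ω s τ) (k i c : Fin 2) {x : VV} (hx : x ∈ dU Ω s τ) :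
    dbv (ee k, 0) (Ms s i c) x = Ja (aa Ω s τ) k i 0 (Xi s x) * Ms s 0 c x +
      Ja (aa Ω s τ) k i 1 (Xi s x) * Ms s 1 c x := by
  have hsx := dO_sh_s (h.dU_sub hx)
  have h1 : dbv (ee k, 0) (Ms s i c) x = dbv (ee k, 0) (fun y => fderiv ℝ s y (0, ee c)) x i :=
    dbv_pi (hsx.fderiv_apply (0, ee c)).differentiableAt _ _
  rw [h1, ← fderiv_dbv_eq hsx.contDiffAt]
  have h2 : fderiv ℝ (fun y => dbv (ee k, 0) s y) x =
      fderiv ℝ (fun y => aa Ω s τ k (Xi s y)) x := by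
    refine Filter.EventuallyEq.fderiv_eq ?_
    filter_upwards [h.isOpen_dU.mem_nhds hx] with z hz using (h.aa_Xi k hz).symm
  have h3 := h.sh_aa k (h.Xi_mem hx)
  rw [h2, fderiv_comp_Xi hsx.differentiableAt h3.differentiableAt, h3.hol.two]
  simp only [Pi.add_apply, Pi.smul_apply, smul_eq_mul, Ja, Ms]
  ring

theorem db_jac (h : Inp Ω s τ) (k : Fin 2) {x : VV} (hx : x ∈ dU Ω s τ) :
    dbv (ee k, 0) (jac s) x = dv (aa Ω s τ) k (Xi s x) * jac s x := by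
  have hsx := dO_sh_s (h.dU_sub hx)
  have d : ∀ i c, DifferentiableAt ℝ (Ms s i c) x := fun i c => (sh_Ms hsx i c).differentiableAt
  have h1 : dbv (ee k, 0) (jac s) x = dbv (ee k, 0) (fun x => Ms s 0 0 x * Ms s 1 1 x) x -
      dbv (ee k, 0) (fun x => Ms s 0 1 x * Ms s 1 0 x) x :=
    dbv_sub ((d 0 0).mul (d 1 1)) ((d 0 1).mul (d 1 0))
  rw [h1, dbv_mul (d 0 0) (d 1 1), dbv_mul (d 0 1) (d 1 0), h.db_Ms _ _ _ hx, h.db_Ms _ _ _ hx,
    h.db_Ms _ _ _ hx, h.db_Ms _ _ _ hx]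
  unfold dv jac
  ring

/-- `∂̄_k m = g_k m` -/
theorem db_m (h : Inp Ω s τ) (k : Fin 2) {x : VV} (hx : x ∈ dU Ω s τ) :
    dbv (ee k, 0) (fun x => jac s x • τ x) x =
      gg (aa Ω s τ) (ep1 Ω s τ) k (Xi s x) * (jac s x • τ x) := by
  have hO := h.dU_sub hx
  rw [dbv_smul (sh_jac (dO_sh_s hO)).differentiableAt (dO_sh_t hO).differentiableAt,
    h.db_jac k hx, dbt hO k, gg, h.ep1_Xi k hx, add_mul, smul_mul_assoc, one_mul, smul_smul,
    mul_smul_comm]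

/-- the matrix `∂_w s` on the diagonal -/
theorem Ms_diag (h : Inp Ω s τ) {z : V} (hz : z ∈ Ω) (i c : Fin 2) :
    Ms s i c (z, z) = (ee c : V) i := by
  unfold Ms
  rw [h.s1 z hz]

theorem jac_diag (h : Inp Ω s τ) {z : V} (hz : z ∈ Ω) : jac s (z, z) = 1 := by
  unfold jac
  rw [h.Ms_diag hz, h.Ms_diag hz, h.Ms_diag hz, h.Ms_diag hz]
  simp [ee]

theorem Xi_diag (h : Inp Ω s τ) {z : V} (hz : z ∈ Ω) : Xi s (z, z) = (z, 0) := by
  simp [Xi, h.s0 z hz]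

/-- a function which is constant on the diagonal has no `z̄`-derivative there -/
theorem dbv_diag {F : VV → W} {Ω : Set V} (hΩ : IsOpen Ω) {z : V} (hz : z ∈ Ω)
    (hF : SH F (z, z)) {c : W} (hc : ∀ y ∈ Ω, F (y, y) = c) (v : V) : dbv (v, 0) F (z, z) = 0 := by
  have h1 : HasFDerivAt (fun y : V => F (y, y)) ((fderiv ℝ F (z, z)).comp
      ((ContinuousLinearMap.id ℝ V).prod (ContinuousLinearMap.id ℝ V))) z :=
    HasFDerivAt.comp (f := fun y : V => (y, y)) z hF.differentiableAt.hasFDerivAt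
      ((hasFDerivAt_id z).prodMk (hasFDerivAt_id z))
  have h2 : (fun y : V => F (y, y)) =ᶠ[𝓝 z] fun _ => c := by
    filter_upwards [hΩ.mem_nhds hz] with y hy using hc y hy
  have h3 := (h1.congr_of_eventuallyEq h2.symm).unique (hasFDerivAt_const c z)
  have h4 : ∀ v : V, fderiv ℝ F (z, z) (v, 0) = - fderiv ℝ F (z, z) (0, v) := by
    intro v
    have h4 := congrArg (fun l : V →L[ℝ] W => l v) h3
    simp only [ContinuousLinearMap.comp_apply, ContinuousLinearMap.prod_apply,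
      ContinuousLinearMap.coe_id', id_eq, _root_.zero_apply] at h4
    have h5 : ((v, v) : VV) = (v, 0) + (0, v) := by simp
    rw [h5, map_add] at h4
    exact eq_neg_of_add_eq_zero_left h4
  unfold dbv
  have h5 : (Complex.I • ((v, 0) : VV)) = (Complex.I • v, 0) := by simp
  rw [h5, h4, h4, hF.hol v, smul_neg, smul_smul, Complex.I_mul_I]
  simp

/-- `D_s a_k = 0` on the zero section -/
theorem Ja_zero (h : Inp Ω s τ) (k i c : Fin 2) {z : V} (hz : z ∈ Ω) :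
    Ja (aa Ω s τ) k i c (z, 0) = 0 := by
  have hx := h.mem_dU hz
  have hsx := h.sh_s z hz
  have h1 : dbv (ee k, 0) (Ms s i c) (z, z) = 0 :=
    dbv_diag h.isOpen hz (sh_Ms hsx i c) (fun y hy => h.Ms_diag hy i c) _
  have h2 := h.db_Ms k i c hx
  rw [h1, h.Xi_diag hz, h.Ms_diag hz, h.Ms_diag hz] at h2
  fin_cases c <;> simpa [ee] using h2.symm

variable {T : TData A} {b : Fin 2 → VV → ℂ}

theorem four {C : Fin 4 → Prop} (h0 : C 0) (h1 : C 1) (h2 : ∀ j : Fin 4, 2 ≤ j → C j) :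
    ∀ j, C j := by
  intro j
  fin_cases j
  · exact h0
  · exact h1
  · exact h2 _ (by decide)
  · exact h2 _ (by decide)

omit [CompleteSpace A] in
theorem kd_al2 (j : Fin 4) (hj : 2 ≤ j) (i c : Fin 2) (x : VV) :
    (kd Ω s τ T b).al j i c x = 0 := by
  fin_cases j
  · exact absurd hj (by decide)
  · exact absurd hj (by decide)
  · rfl
  · rfl

omit [CompleteSpace A] in
theorem kd_g2 (j : Fin 4) (hj : 2 ≤ j) (x : VV) : (kd Ω s τ T b).g j x = 0 := by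
  fin_cases j
  · exact absurd hj (by decide)
  · exact absurd hj (by decide)
  · rfl
  · rfl

omit [CompleteSpace A] in
theorem kd_Ga2 (j : Fin 4) (hj : 2 ≤ j) (i : Fin 2) (x : VV) :
    (kd Ω s τ T b).Ga j i x = 0 := by
  fin_cases j
  · exact absurd hj (by decide)
  · exact absurd hj (by decide)
  · rfl
  · rfl

theorem db_snd {F : VV → W} {x : VV} (h : HolW F x) {k : Fin 4} (hk : 2 ≤ k) : db k F x = 0 := by
  fin_cases k
  · exact absurd hk (by decide)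
  · exact absurd hk (by decide)
  · exact h.dbv_snd _
  · exact h.dbv_snd _

/-- pull backs are smooth and holomorphic in `w` -/
theorem sh_al' (h : Inp Ω s τ) (hT : TRel T (dW1 Ω s τ) (aa Ω s τ) (ep1 Ω s τ)) {x : VV}
    (hx : x ∈ dU Ω s τ) (j : Fin 4) (i c : Fin 2) : SH ((kd Ω s τ T b).al j i c) x := by
  revert j
  refine four ?_ ?_ ?_
  · exact h.sh_Xi hx (hT.sh_al _ (h.Xi_mem hx) 0 i c)
  · exact h.sh_Xi hx (hT.sh_al _ (h.Xi_mem hx) 1 i c)
  · intro j hj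
    have : (kd Ω s τ T b).al j i c = fun _ => 0 := funext fun x => kd_al2 j hj i c x
    rw [this]
    exact SH.const 0 x

theorem sh_g' (h : Inp Ω s τ) {x : VV} (hx : x ∈ dU Ω s τ) (j : Fin 4) :
    SH ((kd Ω s τ T b).g j) x := by
  revert j
  refine four ?_ ?_ ?_
  · exact h.sh_Xi hx (h.sh_gg 0 (h.Xi_mem hx))
  · exact h.sh_Xi hx (h.sh_gg 1 (h.Xi_mem hx))
  · intro j hj
    have : (kd Ω s τ T b).g j = fun _ => 0 := funext fun x => kd_g2 j hj x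
    rw [this]
    exact SH.const 0 x

theorem sh_Ga' (h : Inp Ω s τ) (hT : TRel T (dW1 Ω s τ) (aa Ω s τ) (ep1 Ω s τ)) {x : VV}
    (hx : x ∈ dU Ω s τ) (j : Fin 4) (i : Fin 2) : SH ((kd Ω s τ T b).Ga j i) x := by
  revert j
  refine four ?_ ?_ ?_
  · exact h.sh_Xi hx (hT.sh_Ga _ (h.Xi_mem hx) 0 i)
  · exact h.sh_Xi hx (hT.sh_Ga _ (h.Xi_mem hx) 1 i)
  · intro j hj
    have : (kd Ω s τ T b).Ga j i = fun _ => 0 := funext fun x => kd_Ga2 j hj i x
    rw [this]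
    exact SH.const 0 x

theorem sh_ka' (h : Inp Ω s τ) (hT : TRel T (dW1 Ω s τ) (aa Ω s τ) (ep1 Ω s τ)) {x : VV}
    (hx : x ∈ dU Ω s τ) (i : Fin 2) : SH ((kd Ω s τ T b).ka i) x :=
  h.sh_Xi hx (hT.sh_ka _ (h.Xi_mem hx) i)

theorem sh_Ph' (h : Inp Ω s τ) (hT : TRel T (dW1 Ω s τ) (aa Ω s τ) (ep1 Ω s τ)) {x : VV}
    (hx : x ∈ dU Ω s τ) : SH ((kd Ω s τ T b).Ph) x :=
  h.sh_Xi hx (hT.sh_Ph _ (h.Xi_mem hx))

/-- **the relations in the coordinates `(z,w)`** -/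
theorem rel (h : Inp Ω s τ) (hT : TRel T (dW1 Ω s τ) (aa Ω s τ) (ep1 Ω s τ))
    (hb : ∀ i, ContDiffOn ℝ ∞ (b i) (dU Ω s τ)) : (kd Ω s τ T b).Rel (dU Ω s τ) where
  smooth_s := fun i x hx => ((dO_sh_s (h.dU_sub hx)).pi i).contDiffAt.contDiffWithinAt
  smooth_al := fun j i c x hx => (h.sh_al' hT hx j i c).contDiffAt.contDiffWithinAt
  smooth_m := fun x hx => (sh_m (h.dU_sub hx)).contDiffAt.contDiffWithinAt
  smooth_g := fun j x hx => (h.sh_g' hx j).contDiffAt.contDiffWithinAt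
  smooth_Ga := fun j i x hx => (h.sh_Ga' hT hx j i).contDiffAt.contDiffWithinAt
  smooth_ka := fun i x hx => (h.sh_ka' hT hx i).contDiffAt.contDiffWithinAt
  smooth_Ph := fun x hx => (h.sh_Ph' hT hx).contDiffAt.contDiffWithinAt
  smooth_b := hb
  ds := by
    intro x hx j i
    have hsx := dO_sh_s (h.dU_sub hx)
    revert j
    have key : ∀ k : Fin 2, dbv (ee k, 0) (fun x => s x i) x =
        ∑ c, T.al k i c (Xi s x) * s x c := by
      intro k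
      rw [dbv_pi hsx.differentiableAt, ← h.aa_Xi k hx, hT.t1 _ (h.Xi_mem hx)]
      rfl
    refine four (key 0) (key 1) ?_
    intro j hj
    have h1 : db j ((kd Ω s τ T b).s i) x = 0 := db_snd (hsx.pi i).hol hj
    rw [h1]
    simp only [kd_al2 j hj, zero_mul, Finset.sum_const_zero]
  dm := by
    intro x hx j
    revert j
    refine four (h.db_m 0 hx) (h.db_m 1 hx) ?_
    intro j hj
    have h1 : db j ((kd Ω s τ T b).m) x = 0 := db_snd (sh_m (h.dU_sub hx)).hol hj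
    rw [h1, kd_g2 j hj, zero_mul]
  al2 := fun x hx j hj i c => kd_al2 j hj i c x
  g2 := fun x hx j hj => kd_g2 j hj x
  Ga2 := fun x hx j hj i => kd_Ga2 j hj i x
  hol_al := fun x hx k hk j i c => db_snd (h.sh_al' hT hx j i c).hol hk
  hol_g := fun x hx k hk j => db_snd (h.sh_g' hx j).hol hk
  hol_Ga := fun x hx k hk j i => db_snd (h.sh_Ga' hT hx j i).hol hk
  hol_ka := fun x hx k hk i => db_snd (h.sh_ka' hT hx i).hol hk
  hol_Ph := fun x hx k hk => db_snd (h.sh_Ph' hT hx).hol hk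
  ga := by
    intro x hx j
    revert j
    refine four (hT.t2 _ (h.Xi_mem hx) 0) (hT.t2 _ (h.Xi_mem hx) 1) ?_
    intro j hj
    simp only [kd_g2 j hj, kd_al2 j hj, kd_Ga2 j hj, add_zero, zero_smul, smul_zero]
  curv := by
    intro x hx i c
    have hm := h.Xi_mem hx
    have h1 := hT.t3 _ hm i c
    rw [← h.chain hx (hT.sh_al _ hm 1 i c) 0, ← h.chain hx (hT.sh_al _ hm 0 i c) 1] at h1
    exact h1
  star := by
    intro x hx i
    have hm := h.Xi_mem hx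
    have h1 := hT.t4 _ hm i
    have e0 : ∀ c, DD (aa Ω s τ 0) (ee 0) (T.Ga 1 c) (Xi s x) =
        dbv (ee 0, 0) (fun y => T.Ga 1 c (Xi s y)) x :=
      fun c => (h.chain hx (hT.sh_Ga _ hm 1 c) 0).symm
    have e1 : ∀ c, DD (aa Ω s τ 1) (ee 1) (T.Ga 0 c) (Xi s x) =
        dbv (ee 1, 0) (fun y => T.Ga 0 c (Xi s y)) x :=
      fun c => (h.chain hx (hT.sh_Ga _ hm 0 c) 1).symm
    simp only [e0, e1] at h1
    exact h1

end Inp

end

end Vale.Agent.P267.H734
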