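import Vale.Agent.P267.H734.Inv
import Vale.Agent.P267.H315.KerAlg

/-! P267 / H734: the `(z,s)` coordinates near the diagonal: chain rule, the derivations `D_k`,
flatness of `a_k` and `ε_k`. -/

set_option linter.unusedSectionVars false
set_option linter.unusedVariables false

namespace Vale.Agent.P267.H734

open scoped ContDiff Topology
open Set Filter H315

noncomputable section

variable {W : Type} [NormedAddCommGroup W] [NormedSpace ℂ W]

/-! ### `∂̄` and holomorphy in the second variable -/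

theorem HolW.dbv_snd {F : VV → W} {x : VV} (h : HolW F x) (v : V) : dbv (0, v) F x = 0 := by
  unfold dbv
  have h1 : (Complex.I • ((0, v) : VV)) = (0, Complex.I • v) := by simp
  rw [h1, h v, smul_smul, Complex.I_mul_I]
  simp

theorem SH.dbar {F : VV → W} {x : VV} (h : SH F x) (u : VV) : SH (fun y => dbv u F y) x := by
  have h1 : SH (fun y => (1 / 2 : ℂ) • (fderiv ℝ F y u + Complex.I •
      fderiv ℝ F y (Complex.I • u))) x :=
    (SH.const _ x).smul' ((h.fderiv_apply u).add ((SH.const _ x).smul' (h.fderiv_apply _)))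
  exact h1

theorem SH.comm {F : VV → W} {x : VV} (h : SH F x) (u v : VV) :
    dbv u (fun y => dbv v F y) x = dbv v (fun y => dbv u F y) x :=
  dbv_comm (h.contDiffAt.of_le (WithTop.coe_le_coe.2 le_top)) _ _

/-- composition with a holomorphic map of the value -/
theorem SH.postcomp {P E W' : Type} [NormedAddCommGroup P] [NormedSpace ℝ P]
    [NormedAddCommGroup E] [NormedSpace ℂ E] [NormedAddCommGroup W'] [NormedSpace ℂ W']
    {F : P × E → W} {G : W → W'} {x : P × E} (hF : SH F x)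
    (hG : ∀ᶠ w in 𝓝 (F x), ContDiffAt ℂ ∞ G w) : SH (fun y => G (F y)) x := by
  filter_upwards [hF, hF.contDiffAt.continuousAt.eventually hG] with y h1 h2
  refine ⟨(h2.restrict_scalars ℝ).comp y h1.1, fun v => ?_⟩
  have e1 := (h1.1.differentiableAt (by simp)).hasFDerivAt
  have e2 : HasFDerivAt G ((fderiv ℂ G (F y)).restrictScalars ℝ) (F y) :=
    (h2.differentiableAt (by simp)).hasFDerivAt.restrictScalars ℝ
  have e3 : fderiv ℝ (fun y => G (F y)) y =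
      ((fderiv ℂ G (F y)).restrictScalars ℝ).comp (fderiv ℝ F y) := (e2.comp y e1).fderiv
  rw [e3]
  simp only [ContinuousLinearMap.comp_apply, ContinuousLinearMap.coe_restrictScalars', h1.2 v,
    map_smul]

/-! ### the chain rule -/

/-- the map `(z,w) ↦ (z, s(z,w))` -/
def Xi (s : VV → V) (x : VV) : VV := (x.1, s x)

/-- the derivation `F ↦ ∂̄_v F + D_s F · a` -/
def DD (a : VV → V) (v : V) (F : VV → W) (y : VV) : W := dbv (v, 0) F y + fderiv ℝ F y (0, a y)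

section chain

variable {s : VV → V} {F : VV → W} {x : VV}

theorem hasFDerivAt_comp_Xi (hs : DifferentiableAt ℝ s x) (hF : DifferentiableAt ℝ F (Xi s x)) :
    HasFDerivAt (fun y => F (Xi s y)) ((fderiv ℝ F (Xi s x)).comp
      ((ContinuousLinearMap.fst ℝ V V).prod (fderiv ℝ s x))) x :=
  HasFDerivAt.comp (f := Xi s) x hF.hasFDerivAt (hasFDerivAt_fst.prodMk hs.hasFDerivAt)

theorem fderiv_comp_Xi (hs : DifferentiableAt ℝ s x) (hF : DifferentiableAt ℝ F (Xi s x))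
    (u v : V) : fderiv ℝ (fun y => F (Xi s y)) x (u, v) =
      fderiv ℝ F (Xi s x) (u, fderiv ℝ s x (u, v)) := by
  rw [(hasFDerivAt_comp_Xi hs hF).fderiv]
  rfl

/-- the chain rule for `∂/∂z̄` -/
theorem dbv_comp_fst (hs : DifferentiableAt ℝ s x) (hF : DifferentiableAt ℝ F (Xi s x))
    (hH : HolW F (Xi s x)) (v : V) :
    dbv (v, 0) (fun y => F (Xi s y)) x =
      dbv (v, 0) F (Xi s x) + fderiv ℝ F (Xi s x) (0, dbv (v, 0) s x) := by
  have h1 : (Complex.I • ((v, 0) : VV)) = (Complex.I • v, 0) := by simp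
  unfold dbv
  rw [h1, fderiv_comp_Xi hs hF, fderiv_comp_Xi hs hF, hH.smul]
  set L := fderiv ℝ F (Xi s x) with hL
  have h2 : ∀ u y : V, L (u, y) = L (u, 0) + L (0, y) := by
    intro u y
    rw [← map_add]
    simp
  have h3 : ∀ y y' : V, L (0, y + y') = L (0, y) + L (0, y') := by
    intro y y'
    rw [← map_add]
    simp
  rw [h2, h2 (Complex.I • v), h3, hL, hH.smul Complex.I]
  module

/-- holomorphy in `w` -/
theorem holW_comp (hs : DifferentiableAt ℝ s x) (hF : DifferentiableAt ℝ F (Xi s x))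
    (hH : HolW F (Xi s x)) (hsH : HolW s x) : HolW (fun y => F (Xi s y)) x := by
  intro v
  rw [fderiv_comp_Xi hs hF, fderiv_comp_Xi hs hF, hsH v]
  exact hH _

theorem SH.comp_Xi (hs : SH s x) (hF : SH F (Xi s x)) : SH (fun y => F (Xi s y)) x :=
  SH.comp (a := fun p => p) (g := s) hF (Eventually.of_forall fun _ => contDiffAt_id) hs

end chain

/-! ### the hypotheses -/

variable {A : Type} [NormedRing A] [NormedAlgebra ℂ A]

/-- the data `s`, `τ` over the open set `Ω` of a chart -/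
structure Inp (Ω : Set V) (s : VV → V) (τ : VV → A) : Prop where
  isOpen : IsOpen Ω
  sh_s : ∀ z ∈ Ω, SH s (z, z)
  s0 : ∀ z ∈ Ω, s (z, z) = 0
  s1 : ∀ z ∈ Ω, ∀ v, fderiv ℝ s (z, z) (0, v) = v
  sh_t : ∀ z ∈ Ω, SH τ (z, z)
  t0 : ∀ z ∈ Ω, τ (z, z) = 1

/-- an open neighbourhood of the diagonal over `Ω` on which everything is defined -/
def dO (Ω : Set V) (s : VV → V) (τ : VV → A) : Set VV :=
  secDom {x | x.1 ∈ Ω ∧ SH τ x ∧ IsUnit (τ x)} s

/-- `w = w(z,s)` -/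
def ee1 (Ω : Set V) (s : VV → V) (τ : VV → A) : VV → V := inv id s (dO Ω s τ)

/-- the domain of the `(z,s)` model -/
def dW1 (Ω : Set V) (s : VV → V) (τ : VV → A) : Set VV := half id (dO Ω s τ)

/-- the domain in the coordinates `(z,w)` -/
def dU (Ω : Set V) (s : VV → V) (τ : VV → A) : Set VV := dom id s (dO Ω s τ)

/-- `a_k(z,s) = ∂̄_k s` -/
def aa (Ω : Set V) (s : VV → V) (τ : VV → A) (k : Fin 2) (y : VV) : V :=
  dbv (ee k, 0) s (y.1, ee1 Ω s τ y)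

/-- `ε_k(z,s) = ∂̄_k τ · τ⁻¹` -/
def ep1 (Ω : Set V) (s : VV → V) (τ : VV → A) (k : Fin 2) (y : VV) : A :=
  dbv (ee k, 0) τ (y.1, ee1 Ω s τ y) * Ring.inverse (τ (y.1, ee1 Ω s τ y))

namespace Inp

variable {Ω : Set V} {s : VV → V} {τ : VV → A} [CompleteSpace A]

theorem isSec (h : Inp Ω s τ) : IsSec id s (dO Ω s τ) := by
  refine isSec_secDom (V := Ω) (fun p _ => contDiffAt_id) ?_ (fun x hx => hx.1) h.s0
  rw [isOpen_iff_mem_nhds]
  rintro x ⟨h1, h2, h3⟩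
  have h4 : ∀ᶠ y in 𝓝 x, y.1 ∈ Ω := (continuousAt_fst (p := x)).eventually (h.isOpen.mem_nhds h1)
  have h5 : ∀ᶠ y in 𝓝 x, IsUnit (τ y) := h2.contDiffAt.continuousAt.eventually
    (Units.isOpen.mem_nhds h3)
  filter_upwards [h4, h2.eventually, h5] with y h6 h7 h8 using ⟨h6, h7, h8⟩

theorem mem_dO (h : Inp Ω s τ) {z : V} (hz : z ∈ Ω) : (z, z) ∈ dO Ω s τ := by
  refine mem_secDom (c := id) ?_ (h.sh_s z hz) (h.s1 z hz)
  exact ⟨hz, h.sh_t z hz, by simp [h.t0 z hz]⟩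

theorem star (h : Inp Ω s τ) : Star (fun _ : V => (0 : V)) (dW1 Ω s τ) := IsSec.star_half

theorem isOpen_dU (h : Inp Ω s τ) : IsOpen (dU Ω s τ) := h.isSec.isOpen_dom

theorem mem_dU (h : Inp Ω s τ) {z : V} (hz : z ∈ Ω) : (z, z) ∈ dU Ω s τ :=
  h.isSec.mem_dom (p := z) (h.mem_dO hz)

theorem mem_dW1 (h : Inp Ω s τ) {z : V} (hz : z ∈ Ω) : (z, (0 : V)) ∈ dW1 Ω s τ :=
  h.isSec.mem_half (p := z) (h.mem_dO hz)

theorem dU_sub (h : Inp Ω s τ) {x : VV} (hx : x ∈ dU Ω s τ) : x ∈ dO Ω s τ := tub_subset hx.1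

theorem dO_sh_s {x : VV} (hx : x ∈ dO Ω s τ) : SH s x := hx.2.1

theorem dO_sh_t {x : VV} (hx : x ∈ dO Ω s τ) : SH τ x := hx.1.2.1

theorem dO_unit {x : VV} (hx : x ∈ dO Ω s τ) : IsUnit (τ x) := hx.1.2.2

theorem dO_fst {x : VV} (hx : x ∈ dO Ω s τ) : x.1 ∈ Ω := hx.1.1

theorem Xi_mem (h : Inp Ω s τ) {x : VV} (hx : x ∈ dU Ω s τ) : Xi s x ∈ dW1 Ω s τ := hx.2

theorem ee1_Xi (h : Inp Ω s τ) {x : VV} (hx : x ∈ dU Ω s τ) : ee1 Ω s τ (Xi s x) = x.2 :=
  h.isSec.inv_eq hx.1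

theorem pair_Xi (h : Inp Ω s τ) {x : VV} (hx : x ∈ dU Ω s τ) :
    ((Xi s x).1, ee1 Ω s τ (Xi s x)) = x := by
  rw [h.ee1_Xi hx]; rfl

theorem s_ee1 (h : Inp Ω s τ) {y : VV} (hy : y ∈ dW1 Ω s τ) : s (y.1, ee1 Ω s τ y) = y.2 :=
  (h.isSec.inv_spec hy).2.1

theorem ee1_mem (h : Inp Ω s τ) {y : VV} (hy : y ∈ dW1 Ω s τ) : (y.1, ee1 Ω s τ y) ∈ dU Ω s τ :=
  h.isSec.inv_mem_dom hy

theorem Xi_ee1 (h : Inp Ω s τ) {y : VV} (hy : y ∈ dW1 Ω s τ) :
    Xi s (y.1, ee1 Ω s τ y) = y := Prod.ext rfl (h.s_ee1 hy)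

theorem sh_ee1 (h : Inp Ω s τ) {y : VV} (hy : y ∈ dW1 Ω s τ) : SH (ee1 Ω s τ) y := by
  filter_upwards [h.star.isOpen.mem_nhds hy] with z hz using h.isSec.inv_sh z hz

theorem dW1_fst (h : Inp Ω s τ) {y : VV} (hy : y ∈ dW1 Ω s τ) : y.1 ∈ Ω := by
  have h1 := dO_fst (h.dU_sub (h.ee1_mem hy))
  exact h1

/-- pull back to the `(z,s)` model -/
theorem sh_pull (h : Inp Ω s τ) {F : VV → W} {y : VV} (hy : y ∈ dW1 Ω s τ)
    (hF : SH F (y.1, ee1 Ω s τ y)) : SH (fun y => F (y.1, ee1 Ω s τ y)) y :=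
  SH.comp (a := fun p => p) hF (Eventually.of_forall fun _ => contDiffAt_id) (h.sh_ee1 hy)

theorem sh_inverse {x : VV} (hx : SH τ x) (hu : IsUnit (τ x)) :
    SH (fun y => Ring.inverse (τ y)) x := by
  refine SH.postcomp (G := Ring.inverse) hx ?_
  filter_upwards [Units.isOpen.mem_nhds hu] with a ha
  obtain ⟨u, rfl⟩ := ha
  exact contDiffAt_ringInverse ℂ u

theorem sh_aa (h : Inp Ω s τ) (k : Fin 2) {y : VV} (hy : y ∈ dW1 Ω s τ) :
    SH (aa Ω s τ k) y :=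
  h.sh_pull hy ((dO_sh_s (h.dU_sub (h.ee1_mem hy))).dbar _)

/-- `∂̄_k τ · τ⁻¹` in the coordinates `(z,w)` -/
def gt (τ : VV → A) (k : Fin 2) (x : VV) : A := dbv (ee k, 0) τ x * Ring.inverse (τ x)

theorem sh_gt {x : VV} (hx : x ∈ dO Ω s τ) (k : Fin 2) : SH (gt τ k) x :=
  SH.mul ((dO_sh_t hx).dbar _) (sh_inverse (dO_sh_t hx) (dO_unit hx))

theorem sh_ep1 (h : Inp Ω s τ) (k : Fin 2) {y : VV} (hy : y ∈ dW1 Ω s τ) :
    SH (ep1 Ω s τ k) y :=
  h.sh_pull (F := gt τ k) hy (sh_gt (h.dU_sub (h.ee1_mem hy)) k)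

theorem aa_Xi (h : Inp Ω s τ) (k : Fin 2) {x : VV} (hx : x ∈ dU Ω s τ) :
    aa Ω s τ k (Xi s x) = dbv (ee k, 0) s x := by
  unfold aa
  rw [h.pair_Xi hx]

theorem ep1_Xi (h : Inp Ω s τ) (k : Fin 2) {x : VV} (hx : x ∈ dU Ω s τ) :
    ep1 Ω s τ k (Xi s x) = gt τ k x := by
  unfold ep1 gt
  rw [h.pair_Xi hx]

theorem sh_Xi (h : Inp Ω s τ) {F : VV → W} {x : VV} (hx : x ∈ dU Ω s τ) (hF : SH F (Xi s x)) :
    SH (fun y => F (Xi s y)) x := SH.comp_Xi (dO_sh_s (h.dU_sub hx)) hF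

/-- **chain rule** -/
theorem chain (h : Inp Ω s τ) {F : VV → W} {x : VV} (hx : x ∈ dU Ω s τ) (hF : SH F (Xi s x))
    (k : Fin 2) : dbv (ee k, 0) (fun y => F (Xi s y)) x = DD (aa Ω s τ k) (ee k) F (Xi s x) := by
  rw [dbv_comp_fst (dO_sh_s (h.dU_sub hx)).differentiableAt hF.differentiableAt hF.hol,
    DD, h.aa_Xi k hx]

theorem sh_DD (h : Inp Ω s τ) {F : VV → W} {y : VV} (hy : y ∈ dW1 Ω s τ) (hF : SH F y)
    (k : Fin 2) : SH (DD (aa Ω s τ k) (ee k) F) y := by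
  have h1 : SH (fun y => dbv (ee k, 0) F y + ((aa Ω s τ k y 0) • fderiv ℝ F y (0, ee 0) +
      (aa Ω s τ k y 1) • fderiv ℝ F y (0, ee 1))) y := by
    refine (hF.dbar _).add (SH.add ?_ ?_)
    · exact SH.smul' ((h.sh_aa k hy).clm (ContinuousLinearMap.proj (R := ℂ) (φ := fun _ => ℂ) 0))
        (hF.fderiv_apply _)
    · exact SH.smul' ((h.sh_aa k hy).clm (ContinuousLinearMap.proj (R := ℂ) (φ := fun _ => ℂ) 1))
        (hF.fderiv_apply _)
  refine h1.congr ?_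
  filter_upwards [hF] with z hz
  rw [DD, hz.2.two (aa Ω s τ k z)]

/-- the derivations commute -/
theorem DD_comm (h : Inp Ω s τ) {F : VV → W} {y : VV} (hy : y ∈ dW1 Ω s τ)
    (hF : ∀ y ∈ dW1 Ω s τ, SH F y) (j k : Fin 2) :
    DD (aa Ω s τ j) (ee j) (DD (aa Ω s τ k) (ee k) F) y =
      DD (aa Ω s τ k) (ee k) (DD (aa Ω s τ j) (ee j) F) y := by
  have hx := h.ee1_mem hy
  set x : VV := (y.1, ee1 Ω s τ y) with hxd
  have hXi : Xi s x = y := h.Xi_ee1 hy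
  have key : ∀ j k : Fin 2, DD (aa Ω s τ j) (ee j) (DD (aa Ω s τ k) (ee k) F) y =
      dbv (ee j, 0) (fun z => dbv (ee k, 0) (fun y => F (Xi s y)) z) x := by
    intro j k
    have h1 := h.chain hx (F := DD (aa Ω s τ k) (ee k) F) (by
      rw [hXi]; exact h.sh_DD hy (hF y hy) k) j
    rw [← hXi, ← h1]
    refine dbv_congr ?_
    filter_upwards [h.isOpen_dU.mem_nhds hx] with z hz
    exact (h.chain hz (hF _ (h.Xi_mem hz)) k).symm
  rw [key, key]
  exact (h.sh_Xi hx (hF _ (h.Xi_mem hx))).comm _ _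

/-- flatness of `a` -/
theorem flat_aa (h : Inp Ω s τ) {y : VV} (hy : y ∈ dW1 Ω s τ) (j k : Fin 2) :
    DD (aa Ω s τ j) (ee j) (aa Ω s τ k) y = DD (aa Ω s τ k) (ee k) (aa Ω s τ j) y := by
  have hx := h.ee1_mem hy
  set x : VV := (y.1, ee1 Ω s τ y) with hxd
  have hXi : Xi s x = y := h.Xi_ee1 hy
  have key : ∀ j k : Fin 2, DD (aa Ω s τ j) (ee j) (aa Ω s τ k) y =
      dbv (ee j, 0) (fun z => dbv (ee k, 0) s z) x := by
    intro j k
    have h1 := h.chain hx (F := aa Ω s τ k) (by rw [hXi]; exact h.sh_aa k hy) j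
    rw [← hXi, ← h1]
    refine dbv_congr ?_
    filter_upwards [h.isOpen_dU.mem_nhds hx] with z hz using h.aa_Xi k hz
  rw [key, key]
  exact (dO_sh_s (h.dU_sub hx)).comm _ _

theorem dbt {x : VV} (hx : x ∈ dO Ω s τ) (k : Fin 2) :
    dbv (ee k, 0) τ x = gt τ k x * τ x := by
  unfold gt
  rw [mul_assoc, Ring.inverse_mul_cancel _ (dO_unit hx), mul_one]

/-- the curvature relation in the coordinates `(z,w)` -/
theorem flat_gt (h : Inp Ω s τ) {x : VV} (hx : x ∈ dO Ω s τ) (j k : Fin 2) :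
    dbv (ee j, 0) (gt τ k) x - dbv (ee k, 0) (gt τ j) x =
      gt τ j x * gt τ k x - gt τ k x * gt τ j x := by
  have hO := h.isSec.isOpen.mem_nhds hx
  have key : ∀ j k : Fin 2, dbv (ee j, 0) (fun z => dbv (ee k, 0) τ z) x =
      (dbv (ee j, 0) (gt τ k) x + gt τ k x * gt τ j x) * τ x := by
    intro j k
    have h1 : dbv (ee j, 0) (fun z => dbv (ee k, 0) τ z) x =
        dbv (ee j, 0) (fun z => gt τ k z * τ z) x := by
      refine dbv_congr ?_
      filter_upwards [hO] with z hz using dbt hz k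
    rw [h1, dbv_mul (sh_gt hx k).differentiableAt (dO_sh_t hx).differentiableAt, dbt hx j, add_mul,
      mul_assoc]
  have h2 := (dO_sh_t hx).comm (ee j, 0) (ee k, 0)
  rw [key, key] at h2
  have h3 := (dO_unit hx).mul_right_cancel h2
  rw [sub_eq_sub_iff_add_eq_add, h3]
  abel

/-- flatness of `ε` -/
theorem flat_ep1 (h : Inp Ω s τ) {y : VV} (hy : y ∈ dW1 Ω s τ) (j k : Fin 2) :
    DD (aa Ω s τ j) (ee j) (ep1 Ω s τ k) y - DD (aa Ω s τ k) (ee k) (ep1 Ω s τ j) y =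
      ep1 Ω s τ j y * ep1 Ω s τ k y - ep1 Ω s τ k y * ep1 Ω s τ j y := by
  have hx := h.ee1_mem hy
  set x : VV := (y.1, ee1 Ω s τ y) with hxd
  have hXi : Xi s x = y := h.Xi_ee1 hy
  have key : ∀ j k : Fin 2, DD (aa Ω s τ j) (ee j) (ep1 Ω s τ k) y =
      dbv (ee j, 0) (gt τ k) x := by
    intro j k
    have h1 := h.chain hx (F := ep1 Ω s τ k) (by rw [hXi]; exact h.sh_ep1 k hy) j
    rw [← hXi, ← h1]
    refine dbv_congr ?_
    filter_upwards [h.isOpen_dU.mem_nhds hx] with z hz using h.ep1_Xi k hz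
  rw [key, key, h.flat_gt (h.dU_sub hx), ← hXi, h.ep1_Xi _ hx, h.ep1_Xi _ hx]

/-! ### values on the zero section -/

theorem ee1_zero (h : Inp Ω s τ) {z : V} (hz : z ∈ Ω) : ee1 Ω s τ (z, 0) = z :=
  h.isSec.inv_zero (h.mem_dO hz)

/-- the derivative of `s` in the first variable on the diagonal -/
theorem s_fst (h : Inp Ω s τ) {z : V} (hz : z ∈ Ω) (v : V) : fderiv ℝ s (z, z) (v, 0) = - v := by
  have h1 : HasFDerivAt (fun y : V => s (y, y)) ((fderiv ℝ s (z, z)).comp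
      ((ContinuousLinearMap.id ℝ V).prod (ContinuousLinearMap.id ℝ V))) z :=
    HasFDerivAt.comp (f := fun y : V => (y, y)) z (h.sh_s z hz).differentiableAt.hasFDerivAt
      ((hasFDerivAt_id z).prodMk (hasFDerivAt_id z))
  have h2 : (fun y : V => s (y, y)) =ᶠ[𝓝 z] fun _ => 0 := by
    filter_upwards [h.isOpen.mem_nhds hz] with y hy using h.s0 y hy
  have h3 := (h1.congr_of_eventuallyEq h2.symm).unique (hasFDerivAt_const (0 : V) z)
  have h4 := congrArg (fun l : V →L[ℝ] V => l v) h3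
  simp only [ContinuousLinearMap.comp_apply, ContinuousLinearMap.prod_apply,
    ContinuousLinearMap.coe_id', id_eq, _root_.zero_apply] at h4
  have h5 : ((v, v) : VV) = (v, 0) + (0, v) := by simp
  rw [h5, map_add, h.s1 z hz] at h4
  exact eq_neg_of_add_eq_zero_left h4

theorem dbs_diag (h : Inp Ω s τ) {z : V} (hz : z ∈ Ω) (v : V) : dbv (v, 0) s (z, z) = 0 := by
  unfold dbv
  have h1 : (Complex.I • ((v, 0) : VV)) = (Complex.I • v, 0) := by simp
  rw [h1, h.s_fst hz, h.s_fst hz, smul_neg, smul_smul, Complex.I_mul_I]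
  simp

theorem aa_zero (h : Inp Ω s τ) (k : Fin 2) {z : V} (hz : z ∈ Ω) : aa Ω s τ k (z, 0) = 0 := by
  unfold aa
  rw [h.ee1_zero hz]
  exact h.dbs_diag hz _

theorem dbt_diag (h : Inp Ω s τ) {z : V} (hz : z ∈ Ω) (v : V) : dbv (v, 0) τ (z, z) = 0 := by
  have h1 : HasFDerivAt (fun y : V => τ (y, y)) ((fderiv ℝ τ (z, z)).comp
      ((ContinuousLinearMap.id ℝ V).prod (ContinuousLinearMap.id ℝ V))) z :=
    HasFDerivAt.comp (f := fun y : V => (y, y)) z (h.sh_t z hz).differentiableAt.hasFDerivAt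
      ((hasFDerivAt_id z).prodMk (hasFDerivAt_id z))
  have h2 : (fun y : V => τ (y, y)) =ᶠ[𝓝 z] fun _ => 1 := by
    filter_upwards [h.isOpen.mem_nhds hz] with y hy using h.t0 y hy
  have h3 := (h1.congr_of_eventuallyEq h2.symm).unique (hasFDerivAt_const (1 : A) z)
  have h4 : ∀ v : V, fderiv ℝ τ (z, z) (v, 0) = - fderiv ℝ τ (z, z) (0, v) := by
    intro v
    have h4 := congrArg (fun l : V →L[ℝ] A => l v) h3
    simp only [ContinuousLinearMap.comp_apply, ContinuousLinearMap.prod_apply,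
      ContinuousLinearMap.coe_id', id_eq, _root_.zero_apply] at h4
    have h5 : ((v, v) : VV) = (v, 0) + (0, v) := by simp
    rw [h5, map_add] at h4
    exact eq_neg_of_add_eq_zero_left h4
  unfold dbv
  have h5 : (Complex.I • ((v, 0) : VV)) = (Complex.I • v, 0) := by simp
  rw [h5, h4, h4, (h.sh_t z hz).hol v, smul_neg, smul_smul, Complex.I_mul_I]
  simp

theorem ep1_zero (h : Inp Ω s τ) (k : Fin 2) {z : V} (hz : z ∈ Ω) : ep1 Ω s τ k (z, 0) = 0 := by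
  unfold ep1
  rw [h.ee1_zero hz]
  show dbv (ee k, 0) τ (z, z) * _ = 0
  rw [h.dbt_diag hz, zero_mul]

end Inp

end

end Vale.Agent.P267.H734
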