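import Vale.Agent.P267.H734.Tilde
import Vale.Agent.P267.H315.Equiv2

/-! P267 / H734: covariance, part 1: the radial integrals under `(z,s) ↦ (ψ(z), J(z)s)`. -/

set_option linter.unusedSectionVars false
set_option linter.unusedVariables false
set_option linter.unusedTactic false

namespace Vale.Agent.P267.H734

open scoped ContDiff Topology ComplexConjugate
open Set Filter H315 MeasureTheory

noncomputable section

variable {W : Type} [NormedAddCommGroup W] [NormedSpace ℂ W]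

theorem ev_seg {Q : VV → Prop} {z₀ : V} (h : ∀ᶠ y in 𝓝 ((z₀, 0) : VV), Q y) :
    ∀ᶠ y in 𝓝 ((z₀, 0) : VV), ∀ t ∈ Icc (0 : ℝ) 1, Q (seg zs t y) := by
  obtain ⟨D, hD, hp, hDO⟩ := exists_star (c := zs) (p₀ := z₀)
    (Eventually.of_forall fun _ => contDiffAt_const) h
  filter_upwards [hD.isOpen.mem_nhds hp] with x hx t ht using hDO (hD.seg_mem x hx t ht)

theorem rad_congr {F G : VV → W} {z₀ : V} (h : F =ᶠ[𝓝 ((z₀, 0) : VV)] G) (v : V) :
    Rad zs v F =ᶠ[𝓝 ((z₀, 0) : VV)] Rad zs v G := by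
  filter_upwards [ev_seg h.eventually_nhds] with y hy
  unfold Rad
  refine intervalIntegral.integral_congr fun t ht => ?_
  rw [uIcc_of_le zero_le_one] at ht
  have h1 : fderiv ℝ F (seg zs t y) = fderiv ℝ G (seg zs t y) :=
    Filter.EventuallyEq.fderiv_eq (hy t ht)
  beta_reduce
  rw [h1]

/-- the segments are integrable -/
theorem ev_int {F : VV → W} {z₀ : V} (h : SH F (z₀, 0)) :
    ∀ᶠ y in 𝓝 ((z₀, 0) : VV), ∀ v : V,
      IntervalIntegrable (fun t => fderiv ℝ F (seg zs t y) (0, v)) volume 0 1 := by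
  filter_upwards [ev_seg h] with y hy v
  refine ContinuousOn.intervalIntegrable ?_
  rw [uIcc_of_le zero_le_one]
  intro t ht
  have e1 : ContinuousAt (fderiv ℝ F) (seg zs t y) :=
    ((hy t ht).1.fderiv_right (m := ∞) (by simp)).continuousAt
  have e2 : ContinuousAt (fun t : ℝ => seg zs t y) t := by
    unfold seg; fun_prop
  exact ((ContinuousAt.comp (f := fun t : ℝ => seg zs t y) e1 e2).clm_apply
    continuousAt_const).continuousWithinAt

theorem rad_add {F G : VV → W} {z₀ : V} (hF : SH F (z₀, 0)) (hG : SH G (z₀, 0)) (v : V) :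
    Rad zs v (fun y => F y + G y) =ᶠ[𝓝 ((z₀, 0) : VV)]
      fun y => Rad zs v F y + Rad zs v G y := by
  filter_upwards [ev_seg hF, ev_seg hG, ev_int hF, ev_int hG] with y h1 h2 h3 h4
  unfold Rad
  rw [← intervalIntegral.integral_add (h3 v) (h4 v)]
  refine intervalIntegral.integral_congr fun t ht => ?_
  rw [uIcc_of_le zero_le_one] at ht
  beta_reduce
  rw [fderiv_fun_add ((h1 t ht).1.differentiableAt (by simp))
    ((h2 t ht).1.differentiableAt (by simp))]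
  rfl

/-- coefficients which depend on `z` only -/
theorem rad_clm {W' : Type} [NormedAddCommGroup W'] [NormedSpace ℂ W'] [CompleteSpace W]
    [CompleteSpace W'] {F : VV → W} {z₀ : V} (hF : SH F (z₀, 0)) {L : V → W →L[ℝ] W'}
    (hL : ∀ᶠ z in 𝓝 z₀, DifferentiableAt ℝ L z) (v : V) :
    Rad zs v (fun y => L y.1 (F y)) =ᶠ[𝓝 ((z₀, 0) : VV)] fun y => L y.1 (Rad zs v F y) := by
  have hL' : ∀ᶠ y in 𝓝 ((z₀, 0) : VV), DifferentiableAt ℝ L y.1 :=
    (continuousAt_fst (p := ((z₀, 0) : VV))).eventually hL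
  filter_upwards [ev_seg hF, ev_int hF, hL'] with y h1 h2 h3
  unfold Rad
  rw [← ContinuousLinearMap.intervalIntegral_comp_comm _ (h2 v)]
  refine intervalIntegral.integral_congr fun t ht => ?_
  rw [uIcc_of_le zero_le_one] at ht
  beta_reduce
  have e1 : HasFDerivAt (fun y : VV => L y.1)
      ((fderiv ℝ L y.1).comp (ContinuousLinearMap.fst ℝ V V)) (seg zs t y) :=
    HasFDerivAt.comp (f := Prod.fst) (seg zs t y) h3.hasFDerivAt hasFDerivAt_fst
  have e2 := e1.clm_apply ((h1 t ht).1.differentiableAt (by simp)).hasFDerivAt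
  rw [e2.fderiv]
  simp

/-! ### the map `(z,s) ↦ (ψ(z), J(z) s)` -/

/-- `J(z) s` -/
def JJ (ψ : V → V) (y : VV) : V := fun a => ∑ c, jc ψ y.1 a c * y.2 c

/-- `(ψ(z), J(z) s)` -/
def Ps (ψ : V → V) (y : VV) : VV := (ψ y.1, JJ ψ y)

section psi

variable {ψ : V → V}

theorem contDiffAt_jc {z : V} (h : ContDiffAt ℂ ∞ ψ z) (a c : Fin 2) :
    ContDiffAt ℂ ∞ (fun z => jc ψ z a c) z := by
  have h1 : ContDiffAt ℂ ∞ (fderiv ℂ ψ) z := h.fderiv_right (m := ∞) (by simp)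
  have h2 : ContDiffAt ℂ ∞ (fun z => fderiv ℂ ψ z (Pi.single c 1)) z :=
    h1.clm_apply contDiffAt_const
  let pr : V →L[ℂ] ℂ := ContinuousLinearMap.proj (R := ℂ) (φ := fun _ : Fin 2 => ℂ) a
  exact ContDiffAt.comp z (pr.contDiff (n := ∞)).contDiffAt h2

theorem sh_jc {y : VV} (h : ∀ᶠ z in 𝓝 y.1, ContDiffAt ℂ ∞ ψ z) (a c : Fin 2) :
    SH (fun y : VV => jc ψ y.1 a c) y := by
  refine SH.of_fst (P := V) (E := V) (W := ℂ) (f := fun z => jc ψ z a c) ?_
  filter_upwards [h] with z hz using (contDiffAt_jc hz a c).restrict_scalars ℝ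

theorem SH.of_pi {P E : Type} [NormedAddCommGroup P] [NormedSpace ℝ P]
    [NormedAddCommGroup E] [NormedSpace ℂ E] {F : P × E → Fin 2 → ℂ} {x : P × E}
    (h : ∀ i, SH (fun y => F y i) x) : SH F x := by
  have h1 := h 0
  have h2 := h 1
  filter_upwards [h1, h2] with y h3 h4
  have h5 : ∀ i, ContDiffAt ℝ ∞ (fun y => F y i) y := fun i => by
    fin_cases i
    · exact h3.1
    · exact h4.1
  have h6 : ContDiffAt ℝ ∞ F y := contDiffAt_pi.2 h5
  refine ⟨h6, fun v => ?_⟩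
  have h7 := h6.differentiableAt (by simp)
  have h8 : ∀ (u : P × E) (i : Fin 2), fderiv ℝ (fun y => F y i) y u = fderiv ℝ F y u i := by
    intro u i
    have h1 : HasFDerivAt (fun y => F y i)
        ((ContinuousLinearMap.proj (R := ℝ) (φ := fun _ : Fin 2 => ℂ) i).comp (fderiv ℝ F y)) y :=
      (ContinuousLinearMap.proj (R := ℝ) (φ := fun _ : Fin 2 => ℂ) i).hasFDerivAt.comp y
        h7.hasFDerivAt
    rw [h1.fderiv]
    rfl
  funext i
  rw [← h8, Pi.smul_apply, ← h8]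
  fin_cases i
  · exact h3.2 v
  · exact h4.2 v

theorem sh_JJ {y : VV} (h : ∀ᶠ z in 𝓝 y.1, ContDiffAt ℂ ∞ ψ z) : SH (JJ ψ) y := by
  refine SH.of_pi fun a => ?_
  exact SH.sum fun c _ => (sh_jc h a c).mul (SH.coord c y)

/-- pull back by `Ps` -/
theorem sh_Ps {F : VV → W} {y : VV} (h : ∀ᶠ z in 𝓝 y.1, ContDiffAt ℂ ∞ ψ z)
    (hF : SH F (Ps ψ y)) : SH (fun y => F (Ps ψ y)) y :=
  SH.comp (a := ψ) (g := JJ ψ) hF (h.mono fun z hz => hz.restrict_scalars ℝ) (sh_JJ h)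

theorem continuousAt_Ps {y : VV} (h : ∀ᶠ z in 𝓝 y.1, ContDiffAt ℂ ∞ ψ z) :
    ContinuousAt (Ps ψ) y :=
  (ContinuousAt.comp (f := Prod.fst) h.self_of_nhds.continuousAt continuousAt_fst).prodMk
    (sh_JJ h).contDiffAt.continuousAt

theorem Ps_zero (z : V) : Ps ψ (z, 0) = (ψ z, 0) := by
  refine Prod.ext rfl ?_
  funext a
  simp [Ps, JJ]

theorem Ps_seg (t : ℝ) (y : VV) : Ps ψ (seg zs t y) = seg zs t (Ps ψ y) := by
  refine Prod.ext rfl ?_
  funext a
  simp only [Ps, JJ, seg, sub_zero, zero_add, Pi.smul_apply, Complex.real_smul, Finset.mul_sum]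
  exact Finset.sum_congr rfl fun c _ => by ring

/-- the derivative of `JJ` in `s` -/
theorem fderiv_JJ {y : VV} (h : ∀ᶠ z in 𝓝 y.1, ContDiffAt ℂ ∞ ψ z) (v : V) :
    fderiv ℝ (JJ ψ) y (0, v) = JJ ψ (y.1, v) := by
  funext a
  rw [← fderiv_pi2 (sh_JJ h).differentiableAt]
  have d : ∀ c, DifferentiableAt ℝ (fun y : VV => jc ψ y.1 a c) y :=
    fun c => (sh_jc h a c).differentiableAt
  have d' : ∀ c : Fin 2, DifferentiableAt ℝ (fun y : VV => y.2 c) y :=
    fun c => (SH.coord c y).differentiableAt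
  have e1 : ∀ c, fderiv ℝ (fun y : VV => jc ψ y.1 a c) y (0, v) = 0 := by
    intro c
    have h1 : DifferentiableAt ℝ (fun z => jc ψ z a c) y.1 :=
      ((contDiffAt_jc h.self_of_nhds a c).differentiableAt (by simp)).restrictScalars ℝ
    have h2 : HasFDerivAt (fun y : VV => jc ψ y.1 a c)
        ((fderiv ℝ (fun z => jc ψ z a c) y.1).comp (ContinuousLinearMap.fst ℝ V V)) y :=
      HasFDerivAt.comp (f := Prod.fst) y h1.hasFDerivAt hasFDerivAt_fst
    rw [h2.fderiv]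
    simp
  have e2 : ∀ c : Fin 2, fderiv ℝ (fun y : VV => y.2 c) y (0, v) = v c := by
    intro c
    have h2 : HasFDerivAt (fun y : VV => y.2 c)
        ((ContinuousLinearMap.proj (R := ℝ) (φ := fun _ : Fin 2 => ℂ) c).comp
          (ContinuousLinearMap.snd ℝ V V)) y :=
      (ContinuousLinearMap.proj (R := ℝ) (φ := fun _ : Fin 2 => ℂ) c).hasFDerivAt.comp y
        hasFDerivAt_snd
    rw [h2.fderiv]
    simp
  have e3 : (fun y : VV => JJ ψ y a) = fun y : VV => jc ψ y.1 a 0 * y.2 0 +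
      jc ψ y.1 a 1 * y.2 1 := by
    funext y
    simp [JJ]
  have m0 : DifferentiableAt ℝ (fun y : VV => jc ψ y.1 a 0 * y.2 0) y := (d 0).mul (d' 0)
  have m1 : DifferentiableAt ℝ (fun y : VV => jc ψ y.1 a 1 * y.2 1) y := (d 1).mul (d' 1)
  rw [e3, fderiv_fun_add m0 m1, fderiv_fun_mul (d 0) (d' 0), fderiv_fun_mul (d 1) (d' 1)]
  simp only [_root_.add_apply, _root_.smul_apply, e1, e2]
  simp [JJ]

/-- the derivative in `s` of a pull back -/
theorem fderiv_Ps {F : VV → W} {y : VV} (h : ∀ᶠ z in 𝓝 y.1, ContDiffAt ℂ ∞ ψ z)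
    (hF : DifferentiableAt ℝ F (Ps ψ y)) (v : V) :
    fderiv ℝ (fun y => F (Ps ψ y)) y (0, v) = fderiv ℝ F (Ps ψ y) (0, JJ ψ (y.1, v)) := by
  have h1 : DifferentiableAt ℝ ψ y.1 :=
    (h.self_of_nhds.differentiableAt (by simp)).restrictScalars ℝ
  have h2 : HasFDerivAt (fun y : VV => ψ y.1)
      ((fderiv ℝ ψ y.1).comp (ContinuousLinearMap.fst ℝ V V)) y :=
    HasFDerivAt.comp (f := Prod.fst) y h1.hasFDerivAt hasFDerivAt_fst
  have h3 : HasFDerivAt (Ps ψ) (((fderiv ℝ ψ y.1).comp (ContinuousLinearMap.fst ℝ V V)).prod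
      (fderiv ℝ (JJ ψ) y)) y := h2.prodMk (sh_JJ h).differentiableAt.hasFDerivAt
  have h4 := HasFDerivAt.comp (f := Ps ψ) y hF.hasFDerivAt h3
  have h5 : fderiv ℝ (fun y => F (Ps ψ y)) y = (fderiv ℝ F (Ps ψ y)).comp
      (((fderiv ℝ ψ y.1).comp (ContinuousLinearMap.fst ℝ V V)).prod (fderiv ℝ (JJ ψ) y)) :=
    h4.fderiv
  rw [h5]
  simp only [ContinuousLinearMap.comp_apply, ContinuousLinearMap.prod_apply,
    ContinuousLinearMap.coe_fst', map_zero, fderiv_JJ h]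

/-- the radial integral of a pull back -/
theorem rad_Ps [CompleteSpace W] {F : VV → W} {z₀ : V} (h : ∀ᶠ z in 𝓝 z₀, ContDiffAt ℂ ∞ ψ z)
    (hF : SH F (ψ z₀, 0)) (c : Fin 2) :
    Rad zs (ee c) (fun y => F (Ps ψ y)) =ᶠ[𝓝 ((z₀, 0) : VV)]
      fun y => jc ψ y.1 0 c • Rad zs (ee 0) F (Ps ψ y) +
        jc ψ y.1 1 c • Rad zs (ee 1) F (Ps ψ y) := by
  have h1 : ∀ᶠ y in 𝓝 ((z₀, 0) : VV), ∀ᶠ z in 𝓝 y.1, ContDiffAt ℂ ∞ ψ z :=
    (continuousAt_fst (p := ((z₀, 0) : VV))).eventually h.eventually_nhds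
  have hc : ContinuousAt (Ps ψ) (z₀, 0) := continuousAt_Ps (y := (z₀, 0)) h
  have h2 : ∀ᶠ y in 𝓝 ((z₀, 0) : VV), SH F (Ps ψ y) := by
    refine hc.eventually ?_
    rw [Ps_zero]
    exact hF.eventually
  have h3 : ∀ᶠ y in 𝓝 ((z₀, 0) : VV), ∀ v : V,
      IntervalIntegrable (fun t => fderiv ℝ F (seg zs t (Ps ψ y)) (0, v)) volume 0 1 := by
    have h3' := ev_int hF
    rw [← Ps_zero] at h3'
    exact hc.eventually h3'
  filter_upwards [ev_seg h1, ev_seg h2, h3] with y h4 h5 h6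
  have e1 : Rad zs (ee c) (fun y => F (Ps ψ y)) y = ∫ t in (0 : ℝ)..1,
      (jc ψ y.1 0 c • fderiv ℝ F (seg zs t (Ps ψ y)) (0, ee 0) +
        jc ψ y.1 1 c • fderiv ℝ F (seg zs t (Ps ψ y)) (0, ee 1)) := by
    unfold Rad
    refine intervalIntegral.integral_congr fun t ht => ?_
    rw [uIcc_of_le zero_le_one] at ht
    beta_reduce
    rw [fderiv_Ps (h4 t ht) (h5 t ht).differentiableAt, (h5 t ht).hol.two, Ps_seg]
    have e2 : ∀ a : Fin 2, JJ ψ ((seg zs t y).1, ee c) a = jc ψ y.1 a c := by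
      intro a
      simp only [JJ, seg_fst, Fin.sum_univ_two]
      fin_cases c <;> simp [ee]
    rw [e2, e2]
  have i0 : IntervalIntegrable (fun t => jc ψ y.1 0 c •
      fderiv ℝ F (seg zs t (Ps ψ y)) (0, ee 0)) volume 0 1 := (h6 _).smul _
  have i1 : IntervalIntegrable (fun t => jc ψ y.1 1 c •
      fderiv ℝ F (seg zs t (Ps ψ y)) (0, ee 1)) volume 0 1 := (h6 _).smul _
  rw [e1, intervalIntegral.integral_add i0 i1,
    intervalIntegral.integral_smul, intervalIntegral.integral_smul]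
  rfl

end psi

/-! ### density of the complement of the zero section -/

theorem dense_zs {F G : VV → W} {z₀ : V} (hF : ∀ᶠ y in 𝓝 ((z₀, 0) : VV), ContinuousAt F y)
    (hG : ∀ᶠ y in 𝓝 ((z₀, 0) : VV), ContinuousAt G y)
    (h : ∀ᶠ y in 𝓝 ((z₀, 0) : VV), y.2 ≠ 0 → F y = G y) : F =ᶠ[𝓝 ((z₀, 0) : VV)] G := by
  filter_upwards [hF, hG, h.eventually_nhds, h] with y h1 h2 h3 h4
  by_cases hy : y.2 = 0
  · have hv : (fun _ => 1 : V) ≠ 0 := fun hh => one_ne_zero (congrFun hh 0)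
    have e1 : Tendsto (fun r : ℝ => (y.1, r • (fun _ => 1 : V))) (𝓝[≠] 0) (𝓝 y) := by
      have e2 : ContinuousAt (fun r : ℝ => (y.1, r • (fun _ => 1 : V))) 0 := by fun_prop
      have e3 : Tendsto (fun r : ℝ => (y.1, r • (fun _ => 1 : V))) (𝓝 0) (𝓝 y) := by
        have e4 : (y.1, (0 : ℝ) • (fun _ => 1 : V)) = y := Prod.ext rfl (by simp [hy])
        have e5 := e2.tendsto
        rwa [e4] at e5
      exact e3.mono_left nhdsWithin_le_nhds
    have e6 : ∀ᶠ r : ℝ in 𝓝[≠] 0, F (y.1, r • (fun _ => 1 : V)) =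
        G (y.1, r • (fun _ => 1 : V)) := by
      filter_upwards [e1.eventually h3, self_mem_nhdsWithin] with r hr hr0
      exact hr (smul_ne_zero hr0 hv)
    have e7 := h1.tendsto.comp e1
    have e8 := h2.tendsto.comp e1
    exact tendsto_nhds_unique (e7.congr' e6) e8
  · exact h4 hy

end

end Vale.Agent.P267.H734
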