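import Vale.Agent.P267.H734.Cov1

/-! P267 / H734: covariance, part 2: `a`, `α`, `m`, `g`, `γ`, `Γ`. -/

set_option linter.unusedSectionVars false
set_option linter.unusedVariables false

namespace Vale.Agent.P267.H734

open scoped ContDiff Topology ComplexConjugate
open Set Filter H315 MeasureTheory

noncomputable section

variable {W : Type} [NormedAddCommGroup W] [NormedSpace ℂ W]

/-- `(ψ(z), ψ(w))` -/
def Ph2 (ψ : V → V) (x : VV) : VV := (ψ x.1, ψ x.2)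

/-- the conjugate Jacobian matrix -/
def cj (ψ : V → V) (z : V) (j k : Fin 2) : ℂ := conj (jc ψ z j k)

section gen

variable {ψ : V → V} {x : VV}

theorem sh_cj {y : VV} (h : ∀ᶠ z in 𝓝 y.1, ContDiffAt ℂ ∞ ψ z) (j k : Fin 2) :
    SH (fun y : VV => cj ψ y.1 j k) y := by
  refine SH.of_fst (P := V) (E := V) (W := ℂ) (f := fun z => cj ψ z j k) ?_
  filter_upwards [h] with z hz
  exact Complex.conjCLE.contDiff.contDiffAt.comp z ((contDiffAt_jc hz j k).restrict_scalars ℝ)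

theorem diff_cj {z : V} (h : ContDiffAt ℂ ∞ ψ z) (j k : Fin 2) :
    DifferentiableAt ℝ (fun z => cj ψ z j k) z :=
  (Complex.conjCLE.contDiff.contDiffAt.comp z
    ((contDiffAt_jc h j k).restrict_scalars ℝ)).differentiableAt (n := ∞) (by simp)

theorem diff_jc {z : V} (h : ContDiffAt ℂ ∞ ψ z) (j k : Fin 2) :
    DifferentiableAt ℂ (fun z => jc ψ z j k) z :=
  (contDiffAt_jc h j k).differentiableAt (by simp)

/-- the chain rule -/
theorem chain2 (h1 : DifferentiableAt ℂ ψ x.1) (h2 : DifferentiableAt ℂ ψ x.2) {F : VV → W}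
    (hF : DifferentiableAt ℝ F (Ph2 ψ x)) (k : Fin 2) :
    dbv (ee k, 0) (fun x => F (Ph2 ψ x)) x =
      ∑ j, cj ψ x.1 j k • dbv (ee j, 0) F (Ph2 ψ x) := by
  rw [Fin.sum_univ_two]
  fin_cases k
  · have h3 := db_chain h1 h2 hF 0
    simp only [Fin.sum_univ_four, CJ, Matrix.cons_val_zero, Matrix.cons_val_one,
      Matrix.cons_val, zero_smul, add_zero] at h3
    exact h3
  · have h3 := db_chain h1 h2 hF 1
    simp only [Fin.sum_univ_four, CJ, Matrix.cons_val_zero, Matrix.cons_val_one,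
      Matrix.cons_val, zero_smul, add_zero] at h3
    exact h3

/-- holomorphic functions of `z` -/
theorem dbv_fst {f : V → W} (hf : DifferentiableAt ℂ f x.1) (u : VV) :
    dbv u (fun x : VV => f x.1) x = 0 := by
  have : DifferentiableAt ℂ (fun x : VV => f x.1) x := hf.comp x differentiableAt_fst
  exact dbv_hol this _

/-- holomorphic functions of `w` -/
theorem dbv_snd {f : V → W} (hf : DifferentiableAt ℂ f x.2) (u : VV) :
    dbv u (fun x : VV => f x.2) x = 0 := by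
  have : DifferentiableAt ℂ (fun x : VV => f x.2) x := hf.comp x differentiableAt_snd
  exact dbv_hol this _

theorem diffR_fst {f : V → W} (hf : DifferentiableAt ℂ f x.1) :
    DifferentiableAt ℝ (fun x : VV => f x.1) x := by
  have : DifferentiableAt ℂ (fun x : VV => f x.1) x := hf.comp x differentiableAt_fst
  exact this.restrictScalars ℝ

theorem diffR_snd {f : V → W} (hf : DifferentiableAt ℂ f x.2) :
    DifferentiableAt ℝ (fun x : VV => f x.2) x := by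
  have : DifferentiableAt ℂ (fun x : VV => f x.2) x := hf.comp x differentiableAt_snd
  exact this.restrictScalars ℝ

/-- scalar coefficients which depend on `z` only -/
theorem rad_smul [CompleteSpace W] {F : VV → W} {z₀ : V} (hF : SH F (z₀, 0)) {f : V → ℂ}
    (hf : ∀ᶠ z in 𝓝 z₀, DifferentiableAt ℝ f z) (v : V) :
    Rad zs v (fun y => f y.1 • F y) =ᶠ[𝓝 ((z₀, 0) : VV)] fun y => f y.1 • Rad zs v F y := by
  have h1 := rad_clm hF (L := fun z => f z • ContinuousLinearMap.id ℝ W)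
    (hf.mono fun z hz => hz.smul (differentiableAt_const _)) v
  simpa using h1

/-- `M' J₂ = J₁ M` implies `det M' det J₂ = det J₁ det M` -/
theorem det_rel {M' J₂ J₁ M : Fin 2 → Fin 2 → ℂ}
    (h : ∀ a c, ∑ d, M' a d * J₂ d c = ∑ i, J₁ a i * M i c) : dt M' * dt J₂ = dt J₁ * dt M := by
  have e : dt M' * dt J₂ = (∑ d, M' 0 d * J₂ d 0) * (∑ d, M' 1 d * J₂ d 1) -
      (∑ d, M' 0 d * J₂ d 1) * (∑ d, M' 1 d * J₂ d 0) := by
    simp only [dt, Fin.sum_univ_two]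
    ring
  rw [e, h, h, h, h]
  simp only [dt, Fin.sum_univ_two]
  ring

/-- `M' J = J M` implies `tr M' = tr M` -/
theorem tr_rel {M' J M : Fin 2 → Fin 2 → ℂ}
    (h : ∀ a c, ∑ d, M' a d * J d c = ∑ i, J a i * M i c) (hJ : dt J ≠ 0) :
    M' 0 0 + M' 1 1 = M 0 0 + M 1 1 := by
  have h00 := h 0 0
  have h01 := h 0 1
  have h10 := h 1 0
  have h11 := h 1 1
  simp only [Fin.sum_univ_two] at h00 h01 h10 h11
  refine mul_right_cancel₀ hJ ?_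
  unfold dt
  linear_combination (J 1 1) * h00 - (J 1 0) * h01 - (J 0 1) * h10 + (J 0 0) * h11

end gen

variable {A : Type} [NormedRing A] [NormedAlgebra ℂ A]

/-- two sets of data in two charts -/
structure Cov (Ω : Set V) (s : VV → V) (τ : VV → A) (Ω' : Set V) (s' : VV → V) (τ' : VV → A)
    (ψ : V → V) (e : V → A) (z₀ : V) : Prop where
  inp : Inp Ω s τ
  inp' : Inp Ω' s' τ'
  mem : z₀ ∈ Ω
  mem' : ψ z₀ ∈ Ω'
  hψ : ∀ᶠ z in 𝓝 z₀, ContDiffAt ℂ ∞ ψ z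
  he : ∀ᶠ z in 𝓝 z₀, ContDiffAt ℂ ∞ e z
  dt_ne : dt (jc ψ z₀) ≠ 0
  hs : ∀ᶠ x in 𝓝 ((z₀, z₀) : VV), ∀ a, s' (Ph2 ψ x) a = ∑ c, jc ψ x.1 a c * s x c
  ht : ∀ᶠ x in 𝓝 ((z₀, z₀) : VV), τ' (Ph2 ψ x) * e x.2 = e x.1 * τ x

/-- everything is fine near `x` -/
structure CAt (Ω : Set V) (s : VV → V) (τ : VV → A) (Ω' : Set V) (s' : VV → V) (τ' : VV → A)
    (ψ : V → V) (e : V → A) (x : VV) : Prop where
  mem : x ∈ dU Ω s τ
  mem' : Ph2 ψ x ∈ dU Ω' s' τ'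
  hs : ∀ᶠ x in 𝓝 x, ∀ a, s' (Ph2 ψ x) a = ∑ c, jc ψ x.1 a c * s x c
  ht : ∀ᶠ x in 𝓝 x, τ' (Ph2 ψ x) * e x.2 = e x.1 * τ x
  hψ1 : ∀ᶠ z in 𝓝 x.1, ContDiffAt ℂ ∞ ψ z
  hψ2 : ∀ᶠ z in 𝓝 x.2, ContDiffAt ℂ ∞ ψ z
  he1 : DifferentiableAt ℂ e x.1
  he2 : DifferentiableAt ℂ e x.2
  dt1 : dt (jc ψ x.1) ≠ 0
  jac_ne : jac s x ≠ 0

theorem continuousAt_Ph2 {ψ : V → V} {x : VV} (h1 : ContinuousAt ψ x.1)
    (h2 : ContinuousAt ψ x.2) : ContinuousAt (Ph2 ψ) x :=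
  (ContinuousAt.comp (f := Prod.fst) h1 continuousAt_fst).prodMk
    (ContinuousAt.comp (f := Prod.snd) h2 continuousAt_snd)

variable {Ω : Set V} {s : VV → V} {τ : VV → A} {Ω' : Set V} {s' : VV → V} {τ' : VV → A}
  {ψ : V → V} {e : V → A} {z₀ : V} {x : VV} [CompleteSpace A]

theorem Cov.ev (h : Cov Ω s τ Ω' s' τ' ψ e z₀) :
    ∀ᶠ x in 𝓝 ((z₀, z₀) : VV), CAt Ω s τ Ω' s' τ' ψ e x := by
  have f1 : Tendsto (fun x : VV => x.1) (𝓝 (z₀, z₀)) (𝓝 z₀) := continuousAt_fst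
  have f2 : Tendsto (fun x : VV => x.2) (𝓝 (z₀, z₀)) (𝓝 z₀) := continuousAt_snd
  have c0 : ContinuousAt ψ z₀ := h.hψ.self_of_nhds.continuousAt
  have c1 : ContinuousAt (Ph2 ψ) (z₀, z₀) := continuousAt_Ph2 c0 c0
  have m1 : ∀ᶠ x in 𝓝 ((z₀, z₀) : VV), x ∈ dU Ω s τ :=
    h.inp.isOpen_dU.mem_nhds (h.inp.mem_dU h.mem)
  have m2 : ∀ᶠ x in 𝓝 ((z₀, z₀) : VV), Ph2 ψ x ∈ dU Ω' s' τ' :=
    c1.eventually (h.inp'.isOpen_dU.mem_nhds (h.inp'.mem_dU h.mem'))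
  have m3 : ∀ᶠ x in 𝓝 ((z₀, z₀) : VV), jac s x ≠ 0 := by
    have h1 : ContinuousAt (jac s) (z₀, z₀) :=
      (Inp.sh_jac (h.inp.sh_s z₀ h.mem)).contDiffAt.continuousAt
    refine h1.eventually_ne ?_
    rw [h.inp.jac_diag h.mem]
    exact one_ne_zero
  have m4 : ∀ᶠ z in 𝓝 z₀, dt (jc ψ z) ≠ 0 := by
    have h1 : ContinuousAt (fun z => dt (jc ψ z)) z₀ := by
      have c : ∀ a c, ContinuousAt (fun z => jc ψ z a c) z₀ :=
        fun a c => (contDiffAt_jc h.hψ.self_of_nhds a c).continuousAt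
      exact ((c 0 0).mul (c 1 1)).sub ((c 0 1).mul (c 1 0))
    exact h1.eventually_ne h.dt_ne
  filter_upwards [m1, m2, h.hs.eventually_nhds, h.ht.eventually_nhds,
    f1.eventually h.hψ.eventually_nhds, f2.eventually h.hψ.eventually_nhds,
    f1.eventually h.he, f2.eventually h.he,
    f1.eventually m4, m3] with x a1 a2 a3 a4 a5 a6 a7 a8 a9 a10
  exact ⟨a1, a2, a3, a4, a5, a6, a7.differentiableAt (by simp), a8.differentiableAt (by simp),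
    a9, a10⟩

namespace CAt

theorem Xi_eq (c : CAt Ω s τ Ω' s' τ' ψ e x) : Xi s' (Ph2 ψ x) = Ps ψ (Xi s x) := by
  refine Prod.ext rfl ?_
  funext a
  exact c.hs.self_of_nhds a

theorem dψ1 (c : CAt Ω s τ Ω' s' τ' ψ e x) : DifferentiableAt ℂ ψ x.1 :=
  c.hψ1.self_of_nhds.differentiableAt (by simp)

theorem dψ2 (c : CAt Ω s τ Ω' s' τ' ψ e x) : DifferentiableAt ℂ ψ x.2 :=
  c.hψ2.self_of_nhds.differentiableAt (by simp)

theorem shs (hI : Inp Ω s τ) (c : CAt Ω s τ Ω' s' τ' ψ e x) : SH s x :=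
  Inp.dO_sh_s (hI.dU_sub c.mem)

theorem shs' (hI' : Inp Ω' s' τ') (c : CAt Ω s τ Ω' s' τ' ψ e x) : SH s' (Ph2 ψ x) :=
  Inp.dO_sh_s (hI'.dU_sub c.mem')

/-- covariance of `a` -/
theorem a_cov (hI : Inp Ω s τ) (hI' : Inp Ω' s' τ') (c : CAt Ω s τ Ω' s' τ' ψ e x)
    (k a : Fin 2) :
    ∑ j, cj ψ x.1 j k * aa Ω' s' τ' j (Ps ψ (Xi s x)) a =
      ∑ i, jc ψ x.1 a i * aa Ω s τ k (Xi s x) i := by
  have hs' := c.shs' hI'
  have hs0 := c.shs hI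
  have d1 : DifferentiableAt ℝ (fun x' => s' x' a) (Ph2 ψ x) := (hs'.pi a).differentiableAt
  have e1 := chain2 c.dψ1 c.dψ2 d1 k
  have e2 : (fun x => s' (Ph2 ψ x) a) =ᶠ[𝓝 x] fun x => ∑ i, jc ψ x.1 a i * s x i :=
    c.hs.mono fun x hx => hx a
  have dj : ∀ i, DifferentiableAt ℂ (fun z => jc ψ z a i) x.1 :=
    fun i => diff_jc c.hψ1.self_of_nhds a i
  have e3 : dbv (ee k, 0) (fun x => ∑ i, jc ψ x.1 a i * s x i) x =
      ∑ i, jc ψ x.1 a i * aa Ω s τ k (Xi s x) i := by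
    have dd : ∀ i ∈ (Finset.univ : Finset (Fin 2)),
        DifferentiableAt ℝ (fun x : VV => jc ψ x.1 a i * s x i) x :=
      fun i _ => (diffR_fst (dj i)).mul (hs0.pi i).differentiableAt
    rw [dbv_sum _ dd]
    refine Finset.sum_congr rfl fun i _ => ?_
    rw [dbv_mul (diffR_fst (dj i)) (hs0.pi i).differentiableAt, dbv_fst (dj i), zero_mul,
      zero_add, dbv_pi hs0.differentiableAt, hI.aa_Xi k c.mem]
  rw [← e3, ← dbv_congr e2, e1]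
  refine Finset.sum_congr rfl fun j _ => ?_
  rw [dbv_pi hs'.differentiableAt, ← hI'.aa_Xi j c.mem', c.Xi_eq, smul_eq_mul]

/-- covariance of `∂_w s` -/
theorem Ms_cov (hI : Inp Ω s τ) (hI' : Inp Ω' s' τ') (c : CAt Ω s τ Ω' s' τ' ψ e x)
    (a b : Fin 2) :
    ∑ d, Ms s' a d (Ph2 ψ x) * jc ψ x.2 d b = ∑ i, jc ψ x.1 a i * Ms s i b x := by
  have hs' := c.shs' hI'
  have hs0 := c.shs hI
  have e2 : (fun x => s' (Ph2 ψ x) a) =ᶠ[𝓝 x] fun x => ∑ i, jc ψ x.1 a i * s x i :=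
    c.hs.mono fun x hx => hx a
  have hψr1 : HasFDerivAt (fun x : VV => ψ x.1)
      (((fderiv ℂ ψ x.1).restrictScalars ℝ).comp (ContinuousLinearMap.fst ℝ V V)) x :=
    HasFDerivAt.comp (f := Prod.fst) x (c.dψ1.hasFDerivAt.restrictScalars ℝ) hasFDerivAt_fst
  have hψr2 : HasFDerivAt (fun x : VV => ψ x.2)
      (((fderiv ℂ ψ x.2).restrictScalars ℝ).comp (ContinuousLinearMap.snd ℝ V V)) x :=
    HasFDerivAt.comp (f := Prod.snd) x (c.dψ2.hasFDerivAt.restrictScalars ℝ) hasFDerivAt_snd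
  have hΦ : HasFDerivAt (Ph2 ψ) _ x := hψr1.prodMk hψr2
  have e3 : fderiv ℝ (fun x => s' (Ph2 ψ x)) x (0, ee b) =
      fderiv ℝ s' (Ph2 ψ x) (0, fderiv ℂ ψ x.2 (ee b)) := by
    have h1 := HasFDerivAt.comp (f := Ph2 ψ) x hs'.differentiableAt.hasFDerivAt hΦ
    have h2 : fderiv ℝ (fun x => s' (Ph2 ψ x)) x = _ := h1.fderiv
    rw [h2]
    simp
  have e4 : fderiv ℝ (fun x => s' (Ph2 ψ x) a) x (0, ee b) =
      ∑ d, Ms s' a d (Ph2 ψ x) * jc ψ x.2 d b := by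
    have h0 : DifferentiableAt ℝ (fun x => s' (Ph2 ψ x)) x :=
      DifferentiableAt.comp (f := Ph2 ψ) x hs'.differentiableAt hΦ.differentiableAt
    rw [fderiv_pi2 h0, e3, hs'.hol.two]
    simp only [Pi.add_apply, Pi.smul_apply, smul_eq_mul, Fin.sum_univ_two]
    have h5 : ∀ d, (fderiv ℂ ψ x.2) (ee b) d = jc ψ x.2 d b := fun d => rfl
    rw [h5, h5]
    unfold Ms
    ring
  have dj : ∀ i, DifferentiableAt ℂ (fun z => jc ψ z a i) x.1 :=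
    fun i => diff_jc c.hψ1.self_of_nhds a i
  have e5 : fderiv ℝ (fun x => ∑ i, jc ψ x.1 a i * s x i) x (0, ee b) =
      ∑ i, jc ψ x.1 a i * Ms s i b x := by
    have dd : ∀ i ∈ (Finset.univ : Finset (Fin 2)),
        DifferentiableAt ℝ (fun x : VV => jc ψ x.1 a i * s x i) x :=
      fun i _ => (diffR_fst (dj i)).mul (hs0.pi i).differentiableAt
    rw [fderiv_fun_sum dd]
    rw [_root_.sum_apply]
    refine Finset.sum_congr rfl fun i _ => ?_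
    rw [fderiv_fun_mul (diffR_fst (dj i)) (hs0.pi i).differentiableAt]
    have h6 : fderiv ℝ (fun x : VV => jc ψ x.1 a i) x (0, ee b) = 0 := by
      have h7 : HasFDerivAt (fun x : VV => jc ψ x.1 a i)
          ((fderiv ℝ (fun z => jc ψ z a i) x.1).comp (ContinuousLinearMap.fst ℝ V V)) x :=
        HasFDerivAt.comp (f := Prod.fst) x ((dj i).restrictScalars ℝ).hasFDerivAt
          hasFDerivAt_fst
      rw [h7.fderiv]
      simp
    simp only [_root_.add_apply, _root_.smul_apply, h6, smul_eq_mul, mul_zero, add_zero]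
    rw [fderiv_pi2 hs0.differentiableAt]
    rfl
  rw [← e4, e2.fderiv_eq, e5]

theorem jac_cov (hI : Inp Ω s τ) (hI' : Inp Ω' s' τ') (c : CAt Ω s τ Ω' s' τ' ψ e x) :
    jac s' (Ph2 ψ x) * dt (jc ψ x.2) = dt (jc ψ x.1) * jac s x :=
  det_rel (M' := fun a d => Ms s' a d (Ph2 ψ x)) (M := fun a d => Ms s a d x)
    fun a b => c.Ms_cov hI hI' a b

/-- covariance of `m` -/
theorem m_cov (hI : Inp Ω s τ) (hI' : Inp Ω' s' τ') (c : CAt Ω s τ Ω' s' τ' ψ e x) :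
    dt (jc ψ x.2) • ((jac s' (Ph2 ψ x) • τ' (Ph2 ψ x)) * e x.2) =
      dt (jc ψ x.1) • (e x.1 * (jac s x • τ x)) := by
  rw [smul_mul_assoc, c.ht.self_of_nhds, mul_smul_comm, smul_smul, smul_smul,
    mul_comm (dt (jc ψ x.2)), c.jac_cov hI hI']

theorem diff_dt1 (c : CAt Ω s τ Ω' s' τ' ψ e x) :
    DifferentiableAt ℂ (fun z => dt (jc ψ z)) x.1 := by
  have d : ∀ a b, DifferentiableAt ℂ (fun z => jc ψ z a b) x.1 :=
    fun a b => diff_jc c.hψ1.self_of_nhds a b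
  exact ((d 0 0).mul (d 1 1)).sub ((d 0 1).mul (d 1 0))

theorem diff_dt2 (c : CAt Ω s τ Ω' s' τ' ψ e x) :
    DifferentiableAt ℂ (fun z => dt (jc ψ z)) x.2 := by
  have d : ∀ a b, DifferentiableAt ℂ (fun z => jc ψ z a b) x.2 :=
    fun a b => diff_jc c.hψ2.self_of_nhds a b
  exact ((d 0 0).mul (d 1 1)).sub ((d 0 1).mul (d 1 0))

/-- covariance of `g` -/
theorem g_cov (hI : Inp Ω s τ) (hI' : Inp Ω' s' τ')
    (cc : ∀ᶠ x in 𝓝 x, CAt Ω s τ Ω' s' τ' ψ e x) (k : Fin 2) :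
    ∑ j, cj ψ x.1 j k • (gg (aa Ω' s' τ') (ep1 Ω' s' τ') j (Ps ψ (Xi s x)) * e x.1) =
      e x.1 * gg (aa Ω s τ) (ep1 Ω s τ) k (Xi s x) := by
  have c := cc.self_of_nhds
  have hO := hI.dU_sub c.mem
  have hO' := hI'.dU_sub c.mem'
  set m : VV → A := fun x => jac s x • τ x with hm
  set m' : VV → A := fun x => jac s' x • τ' x with hm'
  have sm : SH m x := Inp.sh_m hO
  have sm' : SH m' (Ph2 ψ x) := Inp.sh_m hO'
  have e0 : (fun x : VV => dt (jc ψ x.2) • (m' (Ph2 ψ x) * e x.2)) =ᶠ[𝓝 x]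
      fun x => dt (jc ψ x.1) • (e x.1 * m x) := cc.mono fun x hx => hx.m_cov hI hI'
  have dt1 := diffR_fst c.diff_dt1
  have dt2 := diffR_snd c.diff_dt2
  have de1 := diffR_fst c.he1
  have de2 := diffR_snd c.he2
  have dΦ : DifferentiableAt ℝ (Ph2 ψ) x := (diffR_fst c.dψ1).prodMk (diffR_snd c.dψ2)
  have dm' : DifferentiableAt ℝ (fun x => m' (Ph2 ψ x)) x :=
    DifferentiableAt.comp (f := Ph2 ψ) x sm'.differentiableAt dΦ
  have dme : DifferentiableAt ℝ (fun x : VV => m' (Ph2 ψ x) * e x.2) x := dm'.mul de2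
  have dem : DifferentiableAt ℝ (fun x : VV => e x.1 * m x) x := de1.mul sm.differentiableAt
  have e1 : dbv (ee k, 0) (fun x : VV => dt (jc ψ x.2) • (m' (Ph2 ψ x) * e x.2)) x =
      (∑ j, cj ψ x.1 j k • gg (aa Ω' s' τ') (ep1 Ω' s' τ') j (Ps ψ (Xi s x))) *
        (dt (jc ψ x.2) • (m' (Ph2 ψ x) * e x.2)) := by
    rw [dbv_smul dt2 dme, dbv_mul dm' de2, dbv_snd c.diff_dt2, dbv_snd c.he2,
      mul_zero, zero_smul, zero_add, add_zero, chain2 c.dψ1 c.dψ2 sm'.differentiableAt k]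
    have e2 : ∀ j, dbv (ee j, 0) m' (Ph2 ψ x) =
        gg (aa Ω' s' τ') (ep1 Ω' s' τ') j (Ps ψ (Xi s x)) * m' (Ph2 ψ x) := by
      intro j
      rw [← c.Xi_eq]
      exact hI'.db_m j c.mem'
    simp only [e2, Finset.sum_mul, smul_mul_assoc, mul_smul_comm, Finset.smul_sum, mul_assoc]
  have e3 : dbv (ee k, 0) (fun x : VV => dt (jc ψ x.1) • (e x.1 * m x)) x =
      (e x.1 * gg (aa Ω s τ) (ep1 Ω s τ) k (Xi s x)) * (dt (jc ψ x.1) • m x) := by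
    rw [dbv_smul dt1 dem, dbv_mul de1 sm.differentiableAt, dbv_fst c.diff_dt1,
      dbv_fst c.he1, zero_smul, zero_add, zero_mul, zero_add]
    have e4 : dbv (ee k, 0) m x = gg (aa Ω s τ) (ep1 Ω s τ) k (Xi s x) * m x := hI.db_m k c.mem
    rw [e4, mul_smul_comm (dt (jc ψ x.1)), mul_assoc]
  have e5 := dbv_congr (v := ((ee k, 0) : VV)) e0
  have e6 : dt (jc ψ x.2) • (m' (Ph2 ψ x) * e x.2) = e x.1 * (dt (jc ψ x.1) • m x) := by
    rw [mul_smul_comm]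
    exact c.m_cov hI hI'
  rw [e1, e3, e6, ← mul_assoc] at e5
  have hu : IsUnit (dt (jc ψ x.1) • m x) := by
    have h1 : dt (jc ψ x.1) • m x = (dt (jc ψ x.1) * jac s x) • τ x := by
      rw [hm]
      exact smul_smul _ _ _
    rw [h1]
    obtain ⟨u, hu⟩ := Inp.dO_unit hO
    have hne : dt (jc ψ x.1) * jac s x ≠ 0 := mul_ne_zero c.dt1 c.jac_ne
    rw [← hu]
    exact ((Units.mk0 _ hne) • u).isUnit
  have e7 := hu.mul_right_cancel e5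
  rw [← e7, Finset.sum_mul]
  simp only [smul_mul_assoc]

end CAt

/-! ### in the `(z,s)` model -/

namespace Cov

/-- from `(z₀,z₀)` to `(z₀,0)` -/
theorem ev_y (h : Cov Ω s τ Ω' s' τ' ψ e z₀) {Q : VV → Prop}
    (hQ : ∀ᶠ x in 𝓝 ((z₀, z₀) : VV), Q x) :
    ∀ᶠ y in 𝓝 ((z₀, 0) : VV), y ∈ dW1 Ω s τ ∧ Q (y.1, ee1 Ω s τ y) := by
  have hm := h.inp.mem_dW1 h.mem
  have c1 : ContinuousAt (fun y : VV => (y.1, ee1 Ω s τ y)) (z₀, 0) :=
    continuousAt_fst.prodMk (h.inp.sh_ee1 hm).contDiffAt.continuousAt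
  have c2 : Tendsto (fun y : VV => (y.1, ee1 Ω s τ y)) (𝓝 (z₀, 0)) (𝓝 (z₀, z₀)) := by
    have := c1.tendsto
    rwa [h.inp.ee1_zero h.mem] at this
  exact (h.inp.star.isOpen.eventually_mem hm).and (c2.eventually hQ)

theorem ev_y1 (h : Cov Ω s τ Ω' s' τ' ψ e z₀) : ∀ᶠ y in 𝓝 ((z₀, 0) : VV), y ∈ dW1 Ω s τ ∧
    CAt Ω s τ Ω' s' τ' ψ e (y.1, ee1 Ω s τ y) ∧
      ∀ᶠ x in 𝓝 ((y.1, ee1 Ω s τ y) : VV), CAt Ω s τ Ω' s' τ' ψ e x :=
  h.ev_y (h.ev.and h.ev.eventually_nhds)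

theorem a_cov (h : Cov Ω s τ Ω' s' τ' ψ e z₀) : ∀ᶠ y in 𝓝 ((z₀, 0) : VV), ∀ k a : Fin 2,
    ∑ j, cj ψ y.1 j k * aa Ω' s' τ' j (Ps ψ y) a = ∑ i, jc ψ y.1 a i * aa Ω s τ k y i := by
  filter_upwards [h.ev_y1] with y ⟨h1, h2, h3⟩ k a
  have := h2.a_cov h.inp h.inp' k a
  rwa [h.inp.Xi_ee1 h1] at this

theorem g_cov (h : Cov Ω s τ Ω' s' τ' ψ e z₀) : ∀ᶠ y in 𝓝 ((z₀, 0) : VV), ∀ k : Fin 2,
    ∑ j, cj ψ y.1 j k • (gg (aa Ω' s' τ') (ep1 Ω' s' τ') j (Ps ψ y) * e y.1) =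
      e y.1 * gg (aa Ω s τ) (ep1 Ω s τ) k y := by
  filter_upwards [h.ev_y1] with y ⟨h1, h2, h3⟩ k
  have := CAt.g_cov h.inp h.inp' h3 k
  rwa [h.inp.Xi_ee1 h1] at this

theorem mem_y' (h : Cov Ω s τ Ω' s' τ' ψ e z₀) : ((ψ z₀, 0) : VV) ∈ dW1 Ω' s' τ' :=
  h.inp'.mem_dW1 h.mem'

/-- covariance of `α` -/
theorem al_cov (h : Cov Ω s τ Ω' s' τ' ψ e z₀) (k a c : Fin 2) :
    ∀ᶠ y in 𝓝 ((z₀, 0) : VV),
    ∑ d, (∑ j, cj ψ y.1 j k * al1 (aa Ω' s' τ') j a d (Ps ψ y)) * jc ψ y.1 d c =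
      ∑ i, jc ψ y.1 a i * al1 (aa Ω s τ) k i c y := by
  have hψ := h.hψ
  have hW := h.inp.mem_dW1 h.mem
  have sa : ∀ i, SH (fun y => aa Ω s τ k y i) (z₀, 0) := fun i => (h.inp.sh_aa k hW).pi i
  have sa' : ∀ j, SH (fun y => aa Ω' s' τ' j y a) (ψ z₀, 0) :=
    fun j => (h.inp'.sh_aa j h.mem_y').pi a
  have sp : ∀ j, SH (fun y => aa Ω' s' τ' j (Ps ψ y) a) (z₀, 0) := fun j =>
    sh_Ps (F := fun y => aa Ω' s' τ' j y a) (y := (z₀, 0)) hψ (by rw [Ps_zero]; exact sa' j)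
  have e0 : (fun y => cj ψ y.1 0 k • aa Ω' s' τ' 0 (Ps ψ y) a +
      cj ψ y.1 1 k • aa Ω' s' τ' 1 (Ps ψ y) a) =ᶠ[𝓝 ((z₀, 0) : VV)]
      fun y => jc ψ y.1 a 0 • aa Ω s τ k y 0 + jc ψ y.1 a 1 • aa Ω s τ k y 1 := by
    filter_upwards [h.a_cov] with y hy
    have := hy k a
    simpa only [Fin.sum_univ_two, smul_eq_mul] using this
  have dc : ∀ j, ∀ᶠ z in 𝓝 z₀, DifferentiableAt ℝ (fun z => cj ψ z j k) z :=
    fun j => hψ.mono fun z hz => diff_cj hz j k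
  have dj : ∀ i, ∀ᶠ z in 𝓝 z₀, DifferentiableAt ℝ (fun z => jc ψ z a i) z :=
    fun i => hψ.mono fun z hz => (diff_jc hz a i).restrictScalars ℝ
  have r0 := rad_congr e0 (ee c)
  have r1 := rad_add ((sh_cj (y := (z₀, 0)) hψ 0 k).smul' (sp 0))
    ((sh_cj (y := (z₀, 0)) hψ 1 k).smul' (sp 1)) (ee c)
  have r2 := rad_add ((sh_jc (y := (z₀, 0)) hψ a 0).smul' (sa 0))
    ((sh_jc (y := (z₀, 0)) hψ a 1).smul' (sa 1)) (ee c)
  have r3 := rad_smul (sp 0) (dc 0) (ee c)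
  have r4 := rad_smul (sp 1) (dc 1) (ee c)
  have r5 := rad_smul (sa 0) (dj 0) (ee c)
  have r6 := rad_smul (sa 1) (dj 1) (ee c)
  have r7 := rad_Ps hψ (sa' 0) c
  have r8 := rad_Ps hψ (sa' 1) c
  filter_upwards [r0, r1, r2, r3, r4, r5, r6, r7, r8] with y q0 q1 q2 q3 q4 q5 q6 q7 q8
  beta_reduce at q7 q8
  rw [q1, q2, q3, q4, q5, q6, q7, q8] at q0
  simp only [smul_eq_mul] at q0
  simp only [Fin.sum_univ_two]
  unfold al1
  linear_combination q0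

/-- covariance of the trace of `α` -/
theorem tr_cov (h : Cov Ω s τ Ω' s' τ' ψ e z₀) (k : Fin 2) : ∀ᶠ y in 𝓝 ((z₀, 0) : VV),
    ∑ j, cj ψ y.1 j k * (al1 (aa Ω' s' τ') j 0 0 (Ps ψ y) + al1 (aa Ω' s' τ') j 1 1 (Ps ψ y)) =
      al1 (aa Ω s τ) k 0 0 y + al1 (aa Ω s τ) k 1 1 y := by
  filter_upwards [h.al_cov k 0 0, h.al_cov k 0 1, h.al_cov k 1 0, h.al_cov k 1 1, h.ev_y1]
    with y q0 q1 q2 q3 ⟨h1, h2, h3⟩
  have := tr_rel (M' := fun a d => ∑ j, cj ψ y.1 j k * al1 (aa Ω' s' τ') j a d (Ps ψ y))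
    (J := jc ψ y.1) (M := fun i c => al1 (aa Ω s τ) k i c y) (by
      intro a c
      fin_cases a <;> fin_cases c
      · exact q0
      · exact q1
      · exact q2
      · exact q3) h2.dt1
  simp only [Fin.sum_univ_two] at this ⊢
  linear_combination this

/-- covariance of `γ` -/
theorem ga_cov (h : Cov Ω s τ Ω' s' τ' ψ e z₀) (k : Fin 2) : ∀ᶠ y in 𝓝 ((z₀, 0) : VV),
    ∑ j, cj ψ y.1 j k • (ga1 (aa Ω' s' τ') (ep1 Ω' s' τ') j (Ps ψ y) * e y.1) =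
      e y.1 * ga1 (aa Ω s τ) (ep1 Ω s τ) k y := by
  filter_upwards [h.g_cov, h.tr_cov k] with y q0 q1
  have key : ∀ (a : Fin 2 → VV → V) (ε : Fin 2 → VV → A) (k : Fin 2) (y : VV),
      ga1 a ε k y = gg a ε k y - (al1 a k 0 0 y + al1 a k 1 1 y) • (1 : A) := by
    intro a ε k y
    unfold ga1 gg
    module
  have q0 := q0 k
  simp only [key, mul_sub, ← q0, ← q1, sub_mul, smul_sub, Finset.sum_sub_distrib,
    smul_mul_assoc, one_mul, mul_smul_comm, mul_one, Finset.sum_smul, smul_smul, Finset.mul_sum]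

/-- covariance of `Γ` -/
theorem Ga_cov (h : Cov Ω s τ Ω' s' τ' ψ e z₀) (k c : Fin 2) : ∀ᶠ y in 𝓝 ((z₀, 0) : VV),
    ∑ a, jc ψ y.1 a c • ∑ j, cj ψ y.1 j k • (Ga1 (aa Ω' s' τ') (ep1 Ω' s' τ') j a (Ps ψ y) *
      e y.1) = e y.1 * Ga1 (aa Ω s τ) (ep1 Ω s τ) k c y := by
  have hψ := h.hψ
  have hW := h.inp.mem_dW1 h.mem
  have sg : SH (ga1 (aa Ω s τ) (ep1 Ω s τ) k) (z₀, 0) := h.inp.flat.sh_ga k _ hW
  have sg' : ∀ j, SH (ga1 (aa Ω' s' τ') (ep1 Ω' s' τ') j) (ψ z₀, 0) :=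
    fun j => h.inp'.flat.sh_ga j _ h.mem_y'
  have sp : ∀ j, SH (fun y => ga1 (aa Ω' s' τ') (ep1 Ω' s' τ') j (Ps ψ y)) (z₀, 0) := fun j =>
    sh_Ps (y := (z₀, 0)) hψ (by rw [Ps_zero]; exact sg' j)
  let Lm : A → A →L[ℝ] A := fun a => ContinuousLinearMap.mul ℝ A a
  let Rm : A → A →L[ℝ] A := fun a => (ContinuousLinearMap.mul ℝ A).flip a
  have dL : ∀ᶠ z in 𝓝 z₀, DifferentiableAt ℝ (fun z => Lm (e z)) z := h.he.mono fun z hz =>
    (ContinuousLinearMap.mul ℝ A).differentiableAt.comp z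
      ((hz.differentiableAt (by simp)).restrictScalars ℝ)
  have dR : ∀ᶠ z in 𝓝 z₀, DifferentiableAt ℝ (fun z => Rm (e z)) z := h.he.mono fun z hz =>
    (ContinuousLinearMap.mul ℝ A).flip.differentiableAt.comp z
      ((hz.differentiableAt (by simp)).restrictScalars ℝ)
  have dc : ∀ j, ∀ᶠ z in 𝓝 z₀, DifferentiableAt ℝ (fun z => cj ψ z j k) z :=
    fun j => hψ.mono fun z hz => diff_cj hz j k
  have se : SH (fun y : VV => e y.1) (z₀, 0) := SH.of_fst (P := V) (E := V) (f := e) (by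
    filter_upwards [h.he] with z hz using hz.restrict_scalars ℝ)
  have e0 : (fun y : VV => cj ψ y.1 0 k • (ga1 (aa Ω' s' τ') (ep1 Ω' s' τ') 0 (Ps ψ y) * e y.1) +
      cj ψ y.1 1 k • (ga1 (aa Ω' s' τ') (ep1 Ω' s' τ') 1 (Ps ψ y) * e y.1))
      =ᶠ[𝓝 ((z₀, 0) : VV)] fun y => e y.1 * ga1 (aa Ω s τ) (ep1 Ω s τ) k y := by
    filter_upwards [h.ga_cov k] with y hy
    simpa only [Fin.sum_univ_two] using hy
  have r0 := rad_congr e0 (ee c)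
  have r1 := rad_add ((sh_cj (y := (z₀, 0)) hψ 0 k).smul' ((sp 0).mul se))
    ((sh_cj (y := (z₀, 0)) hψ 1 k).smul' ((sp 1).mul se)) (ee c)
  have r2 := rad_clm sg dL (ee c)
  have r3 := rad_smul ((sp 0).mul se) (dc 0) (ee c)
  have r4 := rad_smul ((sp 1).mul se) (dc 1) (ee c)
  have r5 := rad_clm (sp 0) dR (ee c)
  have r6 := rad_clm (sp 1) dR (ee c)
  have r7 := rad_Ps hψ (sg' 0) c
  have r8 := rad_Ps hψ (sg' 1) c
  filter_upwards [r0, r1, r2, r3, r4, r5, r6, r7, r8] with y q0 q1 q2 q3 q4 q5 q6 q7 q8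
  have q2' : Rad zs (ee c) (fun y => e y.1 * ga1 (aa Ω s τ) (ep1 Ω s τ) k y) y =
      e y.1 * Rad zs (ee c) (ga1 (aa Ω s τ) (ep1 Ω s τ) k) y := q2
  have q5' : Rad zs (ee c) (fun y => ga1 (aa Ω' s' τ') (ep1 Ω' s' τ') 0 (Ps ψ y) * e y.1) y =
      Rad zs (ee c) (fun y => ga1 (aa Ω' s' τ') (ep1 Ω' s' τ') 0 (Ps ψ y)) y * e y.1 := q5
  have q6' : Rad zs (ee c) (fun y => ga1 (aa Ω' s' τ') (ep1 Ω' s' τ') 1 (Ps ψ y) * e y.1) y =
      Rad zs (ee c) (fun y => ga1 (aa Ω' s' τ') (ep1 Ω' s' τ') 1 (Ps ψ y)) y * e y.1 := q6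
  rw [q1, q2', q3, q4, q5', q6', q7, q8] at q0
  simp only [Fin.sum_univ_two]
  unfold Ga1
  rw [← q0]
  simp only [add_mul, smul_mul_assoc]
  module

end Cov

end

end Vale.Agent.P267.H734
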