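import Vale.Agent.P267.H734.Cov2

/-! P267 / H734: covariance, part 3: `κ`, `Φ` and the statement `KData.Compat`. -/

set_option linter.unusedSectionVars false
set_option linter.unusedVariables false

namespace Vale.Agent.P267.H734

open scoped ContDiff Topology ComplexConjugate
open Set Filter H315 MeasureTheory

noncomputable section

variable {W : Type} [NormedAddCommGroup W] [NormedSpace ℂ W]

/-! ### `∂̄` of a `(0,1)`-form -/

theorem dbv_cj {ψ : V → V} {x : VV} (h : ContDiffAt ℂ ∞ ψ x.1) (j k l : Fin 2) :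
    dbv (ee l, 0) (fun x : VV => cj ψ x.1 j k) x =
      conj (fderiv ℂ (fun z => jc ψ z j k) x.1 (ee l)) := by
  have h1 : HasFDerivAt (fun z => jc ψ z j k)
      ((fderiv ℂ (fun z => jc ψ z j k) x.1).restrictScalars ℝ) x.1 :=
    (diff_jc h j k).hasFDerivAt.restrictScalars ℝ
  have h2 : HasFDerivAt (fun x : VV => jc ψ x.1 j k)
      (((fderiv ℂ (fun z => jc ψ z j k) x.1).restrictScalars ℝ).comp
        (ContinuousLinearMap.fst ℝ V V)) x :=
    HasFDerivAt.comp (f := Prod.fst) x h1 hasFDerivAt_fst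
  have h3 : HasFDerivAt (fun x : VV => cj ψ x.1 j k)
      ((Complex.conjCLE : ℂ →L[ℝ] ℂ).comp
        (((fderiv ℂ (fun z => jc ψ z j k) x.1).restrictScalars ℝ).comp
        (ContinuousLinearMap.fst ℝ V V))) x :=
    (Complex.conjCLE : ℂ →L[ℝ] ℂ).hasFDerivAt.comp x h2
  unfold dbv
  rw [h3.fderiv]
  simp only [ContinuousLinearMap.comp_apply, ContinuousLinearMap.coe_fst',
    ContinuousLinearMap.coe_restrictScalars', ContinuousLinearEquiv.coe_coe, Prod.smul_fst,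
    map_smul, smul_eq_mul, Complex.conjCLE_apply, map_mul, Complex.conj_I]
  ring_nf
  simp
  ring

theorem cj_symm {ψ : V → V} {x : VV} (h : ContDiffAt ℂ ∞ ψ x.1) (j : Fin 2) :
    dbv (ee 0, 0) (fun x : VV => cj ψ x.1 j 1) x = dbv (ee 1, 0) (fun x : VV => cj ψ x.1 j 0) x := by
  rw [dbv_cj h, dbv_cj h]
  congr 1
  have h2 : ContDiffAt ℂ 2 ψ x.1 := h.of_le (WithTop.coe_le_coe.2 le_top)
  have hs : IsSymmSndFDerivAt ℂ ψ x.1 := h2.isSymmSndFDerivAt (by simp)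
  have h3 : DifferentiableAt ℂ (fderiv ℂ ψ) x.1 :=
    (h2.fderiv_right (m := 1) (by norm_num)).differentiableAt (by norm_num)
  have h4 : ∀ k l : Fin 2, fderiv ℂ (fun z => jc ψ z j k) x.1 (ee l) =
      fderiv ℂ (fderiv ℂ ψ) x.1 (ee l) (ee k) j := by
    intro k l
    have e1 := h3.hasFDerivAt.clm_apply (hasFDerivAt_const (ee k : V) x.1)
    have e2 := (ContinuousLinearMap.proj (R := ℂ) (φ := fun _ : Fin 2 => ℂ) j).hasFDerivAt.comp
      x.1 e1
    have e3 : fderiv ℂ (fun z => jc ψ z j k) x.1 = _ := e2.fderiv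
    rw [e3]
    simp
  rw [h4, h4, hs.eq]

/-- `∂̄` of the pull back of a `(0,1)`-form -/
theorem form_cov {ψ : V → V} {x : VV} (h1 : ContDiffAt ℂ ∞ ψ x.1)
    (h2 : DifferentiableAt ℂ ψ x.2) {F : Fin 2 → VV → W}
    (hF : ∀ j, DifferentiableAt ℝ (F j) (Ph2 ψ x)) :
    dbv (ee 0, 0) (fun x => ∑ j, cj ψ x.1 j 1 • F j (Ph2 ψ x)) x -
      dbv (ee 1, 0) (fun x => ∑ j, cj ψ x.1 j 0 • F j (Ph2 ψ x)) x =
      conj (dt (jc ψ x.1)) • (dbv (ee 0, 0) (F 1) (Ph2 ψ x) - dbv (ee 1, 0) (F 0) (Ph2 ψ x)) := by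
  have dψ := h1.differentiableAt (n := ∞) (by simp)
  have dΦ : DifferentiableAt ℝ (Ph2 ψ) x := (diffR_fst dψ).prodMk (diffR_snd h2)
  have dF : ∀ j, DifferentiableAt ℝ (fun x => F j (Ph2 ψ x)) x :=
    fun j => DifferentiableAt.comp (f := Ph2 ψ) x (hF j) dΦ
  have dc : ∀ j k, DifferentiableAt ℝ (fun x : VV => cj ψ x.1 j k) x := fun j k =>
    DifferentiableAt.comp (f := Prod.fst) x (diff_cj h1 j k) differentiableAt_fst
  have key : ∀ k l : Fin 2, dbv (ee l, 0) (fun x => ∑ j, cj ψ x.1 j k • F j (Ph2 ψ x)) x =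
      ∑ j, (dbv (ee l, 0) (fun x : VV => cj ψ x.1 j k) x • F j (Ph2 ψ x) +
        cj ψ x.1 j k • ∑ i, cj ψ x.1 i l • dbv (ee i, 0) (F j) (Ph2 ψ x)) := by
    intro k l
    have dd : ∀ j ∈ (Finset.univ : Finset (Fin 2)),
        DifferentiableAt ℝ (fun x : VV => cj ψ x.1 j k • F j (Ph2 ψ x)) x :=
      fun j _ => (dc j k).smul (dF j)
    rw [dbv_sum _ dd]
    refine Finset.sum_congr rfl fun j _ => ?_
    rw [dbv_smul (dc j k) (dF j), chain2 dψ h2 (hF j)]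
  rw [key, key]
  simp only [Fin.sum_univ_two, cj_symm h1]
  have e1 : conj (dt (jc ψ x.1)) =
      cj ψ x.1 0 0 * cj ψ x.1 1 1 - cj ψ x.1 0 1 * cj ψ x.1 1 0 := by
    unfold dt cj
    simp
  rw [e1]
  module

/-! ### algebra -/

/-- the curvature, scalar algebra -/
theorem curv_alg {J A0 A1 B0 B1 DA DB : Fin 2 → Fin 2 → ℂ} {c00 c01 c10 c11 : ℂ}
    {k k' s s' : Fin 2 → ℂ}
    (h0 : ∀ a c, ∑ d, (c00 * A0 a d + c10 * A1 a d) * J d c = ∑ i, J a i * B0 i c)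
    (h1 : ∀ a c, ∑ d, (c01 * A0 a d + c11 * A1 a d) * J d c = ∑ i, J a i * B1 i c)
    (hD : ∀ a c, ∑ i, J a i * DB i c = ∑ d, ((c00 * c11 - c01 * c10) * DA a d) * J d c)
    (hc : ∀ i c, DB i c - ∑ e, (B0 i e * B1 e c - B1 i e * B0 e c) =
      - k i * (![- s 1, s 0] : Fin 2 → ℂ) c)
    (hc' : ∀ i c, DA i c - ∑ e, (A0 i e * A1 e c - A1 i e * A0 e c) =
      - k' i * (![- s' 1, s' 0] : Fin 2 → ℂ) c)
    (hs : ∀ a, s' a = ∑ c, J a c * s c) (a c : Fin 2) :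
    (∑ i, J a i * k i - (c00 * c11 - c01 * c10) * dt J * k' a) *
      (![- s 1, s 0] : Fin 2 → ℂ) c = 0 := by
  have e0 := hc 0 c
  have e1 := hc 1 c
  have f0 := hc' a 0
  have f1 := hc' a 1
  have hD' := hD a c
  have p0 := h0 a 0
  have p1 := h0 a 1
  have q0 := h1 a 0
  have q1 := h1 a 1
  have r00 := h0 0 c
  have r01 := h0 1 c
  have t00 := h1 0 c
  have t01 := h1 1 c
  have s0 := hs 0
  have s1 := hs 1
  have key : (c00 * c11 - c01 * c10) * (∑ d, k' a * (![- s' 1, s' 0] : Fin 2 → ℂ) d * J d c) =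
      (c00 * c11 - c01 * c10) * dt J * k' a * (![- s 1, s 0] : Fin 2 → ℂ) c := by
    simp only [Fin.sum_univ_two, Matrix.cons_val_zero, Matrix.cons_val_one, s0, s1]
    fin_cases c
    · simp [dt]; ring
    · simp [dt]; ring
  simp only [Fin.sum_univ_two] at *
  linear_combination (J a 0) * e0 + (J a 1) * e1 - hD' -
    (c00 * c11 - c01 * c10) * (J 0 c * f0 + J 1 c * f1) + key
    - (p0 * B1 0 c + p1 * B1 1 c) + (q0 * B0 0 c + q1 * B0 1 c) -
      ((c00 * A0 a 0 + c10 * A1 a 0) * t00 + (c00 * A0 a 1 + c10 * A1 a 1) * t01) +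
      ((c01 * A0 a 0 + c11 * A1 a 0) * r00 + (c01 * A0 a 1 + c11 * A1 a 1) * r01)

/-- `Z_c`, algebra -/
theorem Z_alg {A : Type} [Ring A] [Algebra ℂ A] {J : Fin 2 → Fin 2 → ℂ} {c00 c01 c10 c11 : ℂ}
    {G0 G1 G0' G1' P P' : Fin 2 → A} {g0 g1 g0' g1' e : A}
    (hP : ∀ c, e * P c = ∑ a, J a c • (((c00 * c11 - c01 * c10) • P' a) * e))
    (hG0 : ∀ c, ∑ a, J a c • (c00 • (G0' a * e) + c10 • (G1' a * e)) = e * G0 c)
    (hG1 : ∀ c, ∑ a, J a c • (c01 • (G0' a * e) + c11 • (G1' a * e)) = e * G1 c)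
    (hg0 : c00 • (g0' * e) + c10 • (g1' * e) = e * g0)
    (hg1 : c01 • (g0' * e) + c11 • (g1' * e) = e * g1) (c : Fin 2) :
    e * (P c + G1 c * g0 - G0 c * g1) = ∑ a, J a c •
      (((c00 * c11 - c01 * c10) • (P' a + G1' a * g0' - G0' a * g1')) * e) := by
  have e1 : e * (G1 c * g0) = ∑ a, J a c • (c01 • (G0' a * (c00 • (g0' * e) + c10 • (g1' * e))) +
      c11 • (G1' a * (c00 • (g0' * e) + c10 • (g1' * e)))) := by
    rw [← mul_assoc, ← hG1 c, hg0, Finset.sum_mul]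
    simp only [add_mul, smul_mul_assoc, mul_assoc]
  have e2 : e * (G0 c * g1) = ∑ a, J a c • (c00 • (G0' a * (c01 • (g0' * e) + c11 • (g1' * e))) +
      c10 • (G1' a * (c01 • (g0' * e) + c11 • (g1' * e)))) := by
    rw [← mul_assoc, ← hG0 c, hg1, Finset.sum_mul]
    simp only [add_mul, smul_mul_assoc, mul_assoc]
  rw [mul_sub, mul_add, e1, e2, hP]
  simp only [Fin.sum_univ_two, mul_add, mul_smul_comm, add_mul, sub_mul, smul_mul_assoc,
    mul_assoc, smul_add, smul_sub]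
  module

/-- the equation for `Φ`, algebra -/
theorem X_alg {A : Type} [NormedRing A] [NormedAlgebra ℂ A]
    {J A0 A1 B0 B1 : Fin 2 → Fin 2 → ℂ} {c00 c01 c10 c11 : ℂ}
    {G0 G1 G0' G1' Z Z' : Fin 2 → A} {e : A} {k k' : Fin 2 → ℂ}
    (h0 : ∀ a c, ∑ d, (c00 * A0 a d + c10 * A1 a d) * J d c = ∑ i, J a i * B0 i c)
    (h1 : ∀ a c, ∑ d, (c01 * A0 a d + c11 * A1 a d) * J d c = ∑ i, J a i * B1 i c)
    (hZ : ∀ c, e * Z c = ∑ a, J a c • (((c00 * c11 - c01 * c10) • Z' a) * e))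
    (hG0 : ∀ c, ∑ a, J a c • (c00 • (G0' a * e) + c10 • (G1' a * e)) = e * G0 c)
    (hG1 : ∀ c, ∑ a, J a c • (c01 • (G0' a * e) + c11 • (G1' a * e)) = e * G1 c)
    (hk : ∀ a, (c00 * c11 - c01 * c10) * dt J * k' a = ∑ c, J a c * k c) (a : Fin 2) :
    ∑ i, J a i • (e * (- wd (Pi.single i 1) Z + wd (B0 i) G1 - wd (B1 i) G0 - k i • (1 : A))) =
      ((c00 * c11 - c01 * c10) * dt J) • ((- wd (Pi.single a 1) Z' + wd (A0 a) G1' -
        wd (A1 a) G0' - k' a • (1 : A)) * e) := by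
  have p0 := h0 a 0
  have p1 := h0 a 1
  have q0 := h1 a 0
  have q1 := h1 a 1
  have hk' := hk a
  simp only [Fin.sum_univ_two] at p0 p1 q0 q1 hk'
  have w : ∀ (x : Fin 2 → ℂ) (c : Fin 2 → A), e * wd x c = x 0 • (e * c 1) - x 1 • (e * c 0) := by
    intro x c
    simp only [wd, mul_sub, mul_smul_comm]
  simp only [Fin.sum_univ_two, mul_add, mul_sub, mul_neg, w, mul_smul_comm, mul_one]
  -- replace the coefficients
  have r0 : J a 0 • (B0 0 0 • (e * G1 1) - B0 0 1 • (e * G1 0)) +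
      J a 1 • (B0 1 0 • (e * G1 1) - B0 1 1 • (e * G1 0)) =
      (∑ d, (c00 * A0 a d + c10 * A1 a d) * J d 0) • (e * G1 1) -
      (∑ d, (c00 * A0 a d + c10 * A1 a d) * J d 1) • (e * G1 0) := by
    rw [h0, h0]
    simp only [Fin.sum_univ_two]
    module
  have r1 : J a 0 • (B1 0 0 • (e * G0 1) - B1 0 1 • (e * G0 0)) +
      J a 1 • (B1 1 0 • (e * G0 1) - B1 1 1 • (e * G0 0)) =
      (∑ d, (c01 * A0 a d + c11 * A1 a d) * J d 0) • (e * G0 1) -
      (∑ d, (c01 * A0 a d + c11 * A1 a d) * J d 1) • (e * G0 0) := by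
    rw [h1, h1]
    simp only [Fin.sum_univ_two]
    module
  have r2 : J a 0 • (k 0 • e) + J a 1 • (k 1 • e) =
      ((c00 * c11 - c01 * c10) * dt J * k' a) • e := by
    rw [hk a]
    simp only [Fin.sum_univ_two]
    module
  rw [← hG1, ← hG1] at r0
  rw [← hG0, ← hG0] at r1
  rw [hZ 0, hZ 1, ← hG1 0, ← hG1 1, ← hG0 0, ← hG0 1]
  simp only [Fin.sum_univ_two] at r0 r1 r2 ⊢
  unfold dt at r2 ⊢
  fin_cases a
  · simp only [wd, Fin.zero_eta, Fin.isValue, Pi.single_eq_same, ne_eq, one_ne_zero,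
      not_false_eq_true, Pi.single_eq_of_ne, zero_ne_one, Fin.mk_one, sub_mul, neg_mul, add_mul,
      smul_mul_assoc, one_mul, one_smul, zero_smul, sub_zero, zero_sub] at r0 r1 r2 ⊢
    linear_combination (norm := module) r0 - r1 - r2
  · simp only [wd, Fin.zero_eta, Fin.isValue, Pi.single_eq_same, ne_eq, one_ne_zero,
      not_false_eq_true, Pi.single_eq_of_ne, zero_ne_one, Fin.mk_one, sub_mul, neg_mul, add_mul,
      smul_mul_assoc, one_mul, one_smul, zero_smul, sub_zero, zero_sub] at r0 r1 r2 ⊢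
    linear_combination (norm := module) r0 - r1 - r2

end

end Vale.Agent.P267.H734
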