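import Vale.Agent.P267.H734.Cov3

/-! P267 / H734: covariance, part 4: the statement `KData.Compat` near the diagonal. -/

set_option linter.unusedSectionVars false
set_option linter.unusedVariables false

namespace Vale.Agent.P267.H734

open scoped ContDiff Topology ComplexConjugate
open Set Filter H315 MeasureTheory

noncomputable section

variable {A : Type} [NormedRing A] [NormedAlgebra ℂ A]

/-- `conj (det J)` -/
def cdt (ψ : V → V) (z : V) : ℂ := cj ψ z 0 0 * cj ψ z 1 1 - cj ψ z 0 1 * cj ψ z 1 0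

theorem cdt_eq (ψ : V → V) (z : V) : cdt ψ z = conj (dt (jc ψ z)) := by
  unfold cdt dt cj
  simp

/-- the smooth data in two charts -/
structure CovB (Ω : Set V) (s : VV → V) (τ : VV → A) (b : Fin 2 → VV → ℂ) (Ω' : Set V)
    (s' : VV → V) (τ' : VV → A) (b' : Fin 2 → VV → ℂ) (ψ : V → V) (e : V → A) (z₀ : V) :
    Prop extends Cov Ω s τ Ω' s' τ' ψ e z₀ where
  sb : ∀ i, ContDiffOn ℝ ∞ (b i) (dU Ω s τ)
  sb' : ∀ i, ContDiffOn ℝ ∞ (b' i) (dU Ω' s' τ')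
  hb : ∀ᶠ x in 𝓝 ((z₀, z₀) : VV), ∀ c, b c x = ∑ a, b' a (Ph2 ψ x) * jc ψ x.1 a c

variable {Ω : Set V} {s : VV → V} {τ : VV → A} {b : Fin 2 → VV → ℂ} {Ω' : Set V} {s' : VV → V}
  {τ' : VV → A} {b' : Fin 2 → VV → ℂ} {ψ : V → V} {e : V → A} {z₀ : V} [CompleteSpace A]

/-- covariance of `α` at `x` -/
def AlC (D D' : KData A) (ψ : V → V) (x : VV) : Prop :=
  ∀ a c, (∑ d, (cj ψ x.1 0 0 * D'.al 0 a d (Ph2 ψ x) + cj ψ x.1 1 0 * D'.al 1 a d (Ph2 ψ x)) *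
      jc ψ x.1 d c = ∑ i, jc ψ x.1 a i * D.al 0 i c x) ∧
    (∑ d, (cj ψ x.1 0 1 * D'.al 0 a d (Ph2 ψ x) + cj ψ x.1 1 1 * D'.al 1 a d (Ph2 ψ x)) *
      jc ψ x.1 d c = ∑ i, jc ψ x.1 a i * D.al 1 i c x)

/-- covariance of `Γ` at `x` -/
def GaC (D D' : KData A) (ψ : V → V) (e : V → A) (x : VV) : Prop :=
  ∀ c, (∑ a, jc ψ x.1 a c • (cj ψ x.1 0 0 • (D'.Ga 0 a (Ph2 ψ x) * e x.1) +
      cj ψ x.1 1 0 • (D'.Ga 1 a (Ph2 ψ x) * e x.1)) = e x.1 * D.Ga 0 c x) ∧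
    (∑ a, jc ψ x.1 a c • (cj ψ x.1 0 1 • (D'.Ga 0 a (Ph2 ψ x) * e x.1) +
      cj ψ x.1 1 1 • (D'.Ga 1 a (Ph2 ψ x) * e x.1)) = e x.1 * D.Ga 1 c x)

/-- covariance of `g` at `x` -/
def gC (D D' : KData A) (ψ : V → V) (e : V → A) (x : VV) : Prop :=
  (cj ψ x.1 0 0 • (D'.g 0 (Ph2 ψ x) * e x.1) + cj ψ x.1 1 0 • (D'.g 1 (Ph2 ψ x) * e x.1) =
    e x.1 * D.g 0 x) ∧
  (cj ψ x.1 0 1 • (D'.g 0 (Ph2 ψ x) * e x.1) + cj ψ x.1 1 1 • (D'.g 1 (Ph2 ψ x) * e x.1) =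
    e x.1 * D.g 1 x)

/-- covariance of `κ` at `x` -/
def KaC (D D' : KData A) (ψ : V → V) (x : VV) : Prop :=
  ∀ a, cdt ψ x.1 * dt (jc ψ x.1) * D'.ka a (Ph2 ψ x) = ∑ c, jc ψ x.1 a c * D.ka c x

/-- covariance of `Φ` at `x` -/
def PhC (D D' : KData A) (ψ : V → V) (e : V → A) (x : VV) : Prop :=
  (cdt ψ x.1 * dt (jc ψ x.1)) • (D'.Ph (Ph2 ψ x) * e x.1) = e x.1 * D.Ph x

section step

variable {D D' : KData A} {U U' : Set VV} {x : VV}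

/-- the `∂̄`-derivative of the covariance of `α` -/
theorem al_deriv (h1 : ContDiffAt ℂ ∞ ψ x.1) (h2 : DifferentiableAt ℂ ψ x.2)
    (dal : ∀ j i c, DifferentiableAt ℝ (D.al j i c) x)
    (dal' : ∀ j i c, DifferentiableAt ℝ (D'.al j i c) (Ph2 ψ x))
    (hal : ∀ᶠ x in 𝓝 x, AlC D D' ψ x) (a c : Fin 2) :
    ∑ i, jc ψ x.1 a i * (db 0 (D.al 1 i c) x - db 1 (D.al 0 i c) x) =
      ∑ d, ((cj ψ x.1 0 0 * cj ψ x.1 1 1 - cj ψ x.1 0 1 * cj ψ x.1 1 0) *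
        (db 0 (D'.al 1 a d) (Ph2 ψ x) - db 1 (D'.al 0 a d) (Ph2 ψ x))) * jc ψ x.1 d c := by
  have dψ := h1.differentiableAt (n := ∞) (by simp)
  have dΦ : DifferentiableAt ℝ (Ph2 ψ) x := (diffR_fst dψ).prodMk (diffR_snd h2)
  have dj : ∀ i k, DifferentiableAt ℂ (fun z => jc ψ z i k) x.1 := fun i k => diff_jc h1 i k
  have dF : ∀ j i k, DifferentiableAt ℝ (fun x => D'.al j i k (Ph2 ψ x)) x :=
    fun j i k => DifferentiableAt.comp (f := Ph2 ψ) x (dal' j i k) dΦ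
  have dc : ∀ j k, DifferentiableAt ℝ (fun x : VV => cj ψ x.1 j k) x := fun j k =>
    DifferentiableAt.comp (f := Prod.fst) x (diff_cj h1 j k) differentiableAt_fst
  let F : Fin 2 → Fin 2 → VV → ℂ := fun d j => D'.al (c2 j) a d
  have e0 : ∀ d (k : Fin 2), DifferentiableAt ℝ
      (fun x => ∑ j, cj ψ x.1 j k • F d j (Ph2 ψ x)) x := by
    intro d k
    refine DifferentiableAt.fun_sum fun j _ => ?_
    exact (dc j k).smul (dF (c2 j) a d)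
  have lhs : ∀ (k : Fin 4) (l : Fin 2), dbv (ee l, 0)
      (fun x => ∑ i, jc ψ x.1 a i * D.al k i c x) x =
      ∑ i, jc ψ x.1 a i * dbv (ee l, 0) (D.al k i c) x := by
    intro k l
    have dd : ∀ i ∈ (Finset.univ : Finset (Fin 2)),
        DifferentiableAt ℝ (fun x : VV => jc ψ x.1 a i * D.al k i c x) x :=
      fun i _ => (diffR_fst (dj a i)).mul (dal k i c)
    rw [dbv_sum _ dd]
    refine Finset.sum_congr rfl fun i _ => ?_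
    rw [dbv_mul (diffR_fst (dj a i)) (dal k i c), dbv_fst (dj a i), zero_mul, zero_add]
  have rhs : ∀ (k l : Fin 2), dbv (ee l, 0)
      (fun x => ∑ d, (∑ j, cj ψ x.1 j k • F d j (Ph2 ψ x)) * jc ψ x.1 d c) x =
      ∑ d, dbv (ee l, 0) (fun x => ∑ j, cj ψ x.1 j k • F d j (Ph2 ψ x)) x * jc ψ x.1 d c := by
    intro k l
    have dd : ∀ d ∈ (Finset.univ : Finset (Fin 2)), DifferentiableAt ℝ
        (fun x : VV => (∑ j, cj ψ x.1 j k • F d j (Ph2 ψ x)) * jc ψ x.1 d c) x :=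
      fun d _ => (e0 d k).mul (diffR_fst (dj d c))
    rw [dbv_sum _ dd]
    refine Finset.sum_congr rfl fun d _ => ?_
    rw [dbv_mul (e0 d k) (diffR_fst (dj d c)), dbv_fst (dj d c), mul_zero, add_zero]
  have c0 : (fun x => ∑ i, jc ψ x.1 a i * D.al 0 i c x) =ᶠ[𝓝 x]
      fun x => ∑ d, (∑ j, cj ψ x.1 j 0 • F d j (Ph2 ψ x)) * jc ψ x.1 d c := by
    filter_upwards [hal] with y hy
    rw [← (hy a c).1]
    refine Finset.sum_congr rfl fun d _ => ?_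
    rw [Fin.sum_univ_two]
    rfl
  have c1 : (fun x => ∑ i, jc ψ x.1 a i * D.al 1 i c x) =ᶠ[𝓝 x]
      fun x => ∑ d, (∑ j, cj ψ x.1 j 1 • F d j (Ph2 ψ x)) * jc ψ x.1 d c := by
    filter_upwards [hal] with y hy
    rw [← (hy a c).2]
    refine Finset.sum_congr rfl fun d _ => ?_
    rw [Fin.sum_univ_two]
    rfl
  have g1 := dbv_congr (v := ((ee 0, 0) : VV)) c1
  have g0 := dbv_congr (v := ((ee 1, 0) : VV)) c0
  rw [lhs, rhs] at g0 g1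
  have k1 : ∀ d, dbv (ee 0, 0) (fun x => ∑ j, cj ψ x.1 j 1 • F d j (Ph2 ψ x)) x -
      dbv (ee 1, 0) (fun x => ∑ j, cj ψ x.1 j 0 • F d j (Ph2 ψ x)) x =
      cdt ψ x.1 • (dbv (ee 0, 0) (F d 1) (Ph2 ψ x) - dbv (ee 1, 0) (F d 0) (Ph2 ψ x)) := by
    intro d
    rw [cdt_eq]
    exact form_cov h1 h2 fun j => dal' (c2 j) a d
  have k2 : ∀ d, cdt ψ x.1 • (dbv (ee 0, 0) (F d 1) (Ph2 ψ x) -
      dbv (ee 1, 0) (F d 0) (Ph2 ψ x)) =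
      (cj ψ x.1 0 0 * cj ψ x.1 1 1 - cj ψ x.1 0 1 * cj ψ x.1 1 0) *
        (db 0 (D'.al 1 a d) (Ph2 ψ x) - db 1 (D'.al 0 a d) (Ph2 ψ x)) := fun d => rfl
  simp only [← k2, ← k1]
  have k3 : ∀ i, db 0 (D.al 1 i c) x = dbv (ee 0, 0) (D.al 1 i c) x := fun i => rfl
  have k4 : ∀ i, db 1 (D.al 0 i c) x = dbv (ee 1, 0) (D.al 0 i c) x := fun i => rfl
  simp only [k3, k4, mul_sub, Finset.sum_sub_distrib, g0, g1, sub_mul]

/-- the `∂̄`-derivative of the covariance of `Γ` -/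
theorem Ga_deriv (h1 : ContDiffAt ℂ ∞ ψ x.1) (h2 : DifferentiableAt ℂ ψ x.2)
    (he : DifferentiableAt ℂ e x.1)
    (dGa : ∀ j c, DifferentiableAt ℝ (D.Ga j c) x)
    (dGa' : ∀ j c, DifferentiableAt ℝ (D'.Ga j c) (Ph2 ψ x))
    (hGa : ∀ᶠ x in 𝓝 x, GaC D D' ψ e x) (c : Fin 2) :
    e x.1 * (db 0 (D.Ga 1 c) x - db 1 (D.Ga 0 c) x) =
      ∑ a, jc ψ x.1 a c • (((cj ψ x.1 0 0 * cj ψ x.1 1 1 - cj ψ x.1 0 1 * cj ψ x.1 1 0) •
        (db 0 (D'.Ga 1 a) (Ph2 ψ x) - db 1 (D'.Ga 0 a) (Ph2 ψ x))) * e x.1) := by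
  have dψ := h1.differentiableAt (n := ∞) (by simp)
  have dΦ : DifferentiableAt ℝ (Ph2 ψ) x := (diffR_fst dψ).prodMk (diffR_snd h2)
  have dj : ∀ i k, DifferentiableAt ℂ (fun z => jc ψ z i k) x.1 := fun i k => diff_jc h1 i k
  have dF : ∀ j i, DifferentiableAt ℝ (fun x => D'.Ga j i (Ph2 ψ x)) x :=
    fun j i => DifferentiableAt.comp (f := Ph2 ψ) x (dGa' j i) dΦ
  have dc : ∀ j k, DifferentiableAt ℝ (fun x : VV => cj ψ x.1 j k) x := fun j k =>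
    DifferentiableAt.comp (f := Prod.fst) x (diff_cj h1 j k) differentiableAt_fst
  let F : Fin 2 → Fin 2 → VV → A := fun a j => D'.Ga (c2 j) a
  have e0 : ∀ a (k : Fin 2), DifferentiableAt ℝ
      (fun x => ∑ j, cj ψ x.1 j k • F a j (Ph2 ψ x)) x := by
    intro a k
    refine DifferentiableAt.fun_sum fun j _ => ?_
    exact (dc j k).smul (dF (c2 j) a)
  have dee := diffR_fst he
  have lhs : ∀ (k : Fin 4) (l : Fin 2), dbv (ee l, 0) (fun x => e x.1 * D.Ga k c x) x =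
      e x.1 * dbv (ee l, 0) (D.Ga k c) x := by
    intro k l
    rw [dbv_mul dee (dGa k c), dbv_fst he, zero_mul, zero_add]
  have rhs : ∀ (k l : Fin 2), dbv (ee l, 0)
      (fun x => ∑ a, jc ψ x.1 a c • ((∑ j, cj ψ x.1 j k • F a j (Ph2 ψ x)) * e x.1)) x =
      ∑ a, jc ψ x.1 a c •
        (dbv (ee l, 0) (fun x => ∑ j, cj ψ x.1 j k • F a j (Ph2 ψ x)) x * e x.1) := by
    intro k l
    have d1 : ∀ a, DifferentiableAt ℝ
        (fun x : VV => (∑ j, cj ψ x.1 j k • F a j (Ph2 ψ x)) * e x.1) x :=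
      fun a => (e0 a k).mul dee
    have dd : ∀ a ∈ (Finset.univ : Finset (Fin 2)), DifferentiableAt ℝ
        (fun x : VV => jc ψ x.1 a c • ((∑ j, cj ψ x.1 j k • F a j (Ph2 ψ x)) * e x.1)) x :=
      fun a _ => (diffR_fst (dj a c)).smul (d1 a)
    rw [dbv_sum _ dd]
    refine Finset.sum_congr rfl fun a _ => ?_
    rw [dbv_smul (diffR_fst (dj a c)) (d1 a), dbv_fst (dj a c), zero_smul, zero_add,
      dbv_mul (e0 a k) dee, dbv_fst he, mul_zero, add_zero]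
  have c0 : (fun x => e x.1 * D.Ga 0 c x) =ᶠ[𝓝 x]
      fun x => ∑ a, jc ψ x.1 a c • ((∑ j, cj ψ x.1 j 0 • F a j (Ph2 ψ x)) * e x.1) := by
    filter_upwards [hGa] with y hy
    rw [← (hy c).1]
    refine Finset.sum_congr rfl fun d _ => ?_
    rw [Fin.sum_univ_two, add_mul, smul_mul_assoc, smul_mul_assoc]
    rfl
  have c1 : (fun x => e x.1 * D.Ga 1 c x) =ᶠ[𝓝 x]
      fun x => ∑ a, jc ψ x.1 a c • ((∑ j, cj ψ x.1 j 1 • F a j (Ph2 ψ x)) * e x.1) := by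
    filter_upwards [hGa] with y hy
    rw [← (hy c).2]
    refine Finset.sum_congr rfl fun d _ => ?_
    rw [Fin.sum_univ_two, add_mul, smul_mul_assoc, smul_mul_assoc]
    rfl
  have g1 := dbv_congr (v := ((ee 0, 0) : VV)) c1
  have g0 := dbv_congr (v := ((ee 1, 0) : VV)) c0
  rw [lhs, rhs] at g0 g1
  have k1 : ∀ a, dbv (ee 0, 0) (fun x => ∑ j, cj ψ x.1 j 1 • F a j (Ph2 ψ x)) x -
      dbv (ee 1, 0) (fun x => ∑ j, cj ψ x.1 j 0 • F a j (Ph2 ψ x)) x =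
      cdt ψ x.1 • (dbv (ee 0, 0) (F a 1) (Ph2 ψ x) - dbv (ee 1, 0) (F a 0) (Ph2 ψ x)) := by
    intro a
    rw [cdt_eq]
    exact form_cov h1 h2 fun j => dGa' (c2 j) a
  have k2 : ∀ a, cdt ψ x.1 • (dbv (ee 0, 0) (F a 1) (Ph2 ψ x) -
      dbv (ee 1, 0) (F a 0) (Ph2 ψ x)) =
      (cj ψ x.1 0 0 * cj ψ x.1 1 1 - cj ψ x.1 0 1 * cj ψ x.1 1 0) •
        (db 0 (D'.Ga 1 a) (Ph2 ψ x) - db 1 (D'.Ga 0 a) (Ph2 ψ x)) := fun d => rfl
  simp only [← k2, ← k1]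
  have k3 : db 0 (D.Ga 1 c) x = dbv (ee 0, 0) (D.Ga 1 c) x := rfl
  have k4 : db 1 (D.Ga 0 c) x = dbv (ee 1, 0) (D.Ga 0 c) x := rfl
  rw [k3, k4, mul_sub, g0, g1]
  simp only [sub_mul, smul_sub, Finset.sum_sub_distrib]

/-- `κ` off the diagonal -/
theorem ka_off (hR : D.Rel U) (hR' : D'.Rel U') (hx : x ∈ U) (hx' : Ph2 ψ x ∈ U')
    (h1 : ContDiffAt ℂ ∞ ψ x.1) (h2 : DifferentiableAt ℂ ψ x.2)
    (dal : ∀ j i c, DifferentiableAt ℝ (D.al j i c) x)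
    (dal' : ∀ j i c, DifferentiableAt ℝ (D'.al j i c) (Ph2 ψ x))
    (hal : ∀ᶠ x in 𝓝 x, AlC D D' ψ x)
    (hs : ∀ a, D'.s a (Ph2 ψ x) = ∑ c, jc ψ x.1 a c * D.s c x)
    (hne : D.s 0 x ≠ 0 ∨ D.s 1 x ≠ 0) : KaC D D' ψ x := by
  intro a
  have hal0 := hal.self_of_nhds
  have key := curv_alg (J := jc ψ x.1) (A0 := fun i c => D'.al 0 i c (Ph2 ψ x))
    (A1 := fun i c => D'.al 1 i c (Ph2 ψ x)) (B0 := fun i c => D.al 0 i c x)
    (B1 := fun i c => D.al 1 i c x) (k := fun i => D.ka i x) (k' := fun i => D'.ka i (Ph2 ψ x))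
    (s := fun i => D.s i x) (s' := fun i => D'.s i (Ph2 ψ x))
    (fun a c => (hal0 a c).1) (fun a c => (hal0 a c).2)
    (al_deriv h1 h2 dal dal' hal) (hR.curv x hx) (hR'.curv _ hx') hs a
  have h3 : ∑ i, jc ψ x.1 a i * D.ka i x -
      (cj ψ x.1 0 0 * cj ψ x.1 1 1 - cj ψ x.1 0 1 * cj ψ x.1 1 0) * dt (jc ψ x.1) *
        D'.ka a (Ph2 ψ x) = 0 := by
    rcases hne with h4 | h4
    · exact (mul_eq_zero.1 (key 1)).resolve_right (by simpa using h4)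
    · exact (mul_eq_zero.1 (key 0)).resolve_right (by simpa using h4)
  exact (sub_eq_zero.1 h3).symm

/-- `Φ` off the diagonal -/
theorem Ph_off (hR : D.Rel U) (hR' : D'.Rel U') (hx : x ∈ U) (hx' : Ph2 ψ x ∈ U')
    (h1 : ContDiffAt ℂ ∞ ψ x.1) (h2 : DifferentiableAt ℂ ψ x.2)
    (he : DifferentiableAt ℂ e x.1)
    (dGa : ∀ j c, DifferentiableAt ℝ (D.Ga j c) x)
    (dGa' : ∀ j c, DifferentiableAt ℝ (D'.Ga j c) (Ph2 ψ x))
    (hal : AlC D D' ψ x) (hGa : ∀ᶠ x in 𝓝 x, GaC D D' ψ e x) (hg : gC D D' ψ e x)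
    (hka : KaC D D' ψ x)
    (hs : ∀ a, D'.s a (Ph2 ψ x) = ∑ c, jc ψ x.1 a c * D.s c x) (hdt : dt (jc ψ x.1) ≠ 0)
    (hne : D.s 0 x ≠ 0 ∨ D.s 1 x ≠ 0) : PhC D D' ψ e x := by
  have hGa0 := hGa.self_of_nhds
  set Z : Fin 2 → A := fun c => db 0 (D.Ga 1 c) x - db 1 (D.Ga 0 c) x + D.Ga 1 c x * D.g 0 x -
    D.Ga 0 c x * D.g 1 x with hZdef
  set Z' : Fin 2 → A := fun c => db 0 (D'.Ga 1 c) (Ph2 ψ x) - db 1 (D'.Ga 0 c) (Ph2 ψ x) +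
    D'.Ga 1 c (Ph2 ψ x) * D'.g 0 (Ph2 ψ x) - D'.Ga 0 c (Ph2 ψ x) * D'.g 1 (Ph2 ψ x) with hZdef'
  have hZ := Z_alg (J := jc ψ x.1) (G0 := fun c => D.Ga 0 c x) (G1 := fun c => D.Ga 1 c x)
    (G0' := fun c => D'.Ga 0 c (Ph2 ψ x)) (G1' := fun c => D'.Ga 1 c (Ph2 ψ x))
    (P := fun c => db 0 (D.Ga 1 c) x - db 1 (D.Ga 0 c) x)
    (P' := fun c => db 0 (D'.Ga 1 c) (Ph2 ψ x) - db 1 (D'.Ga 0 c) (Ph2 ψ x))
    (Ga_deriv h1 h2 he dGa dGa' hGa) (fun c => (hGa0 c).1) (fun c => (hGa0 c).2) hg.1 hg.2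
  have key := X_alg (J := jc ψ x.1) (A0 := fun i c => D'.al 0 i c (Ph2 ψ x))
    (A1 := fun i c => D'.al 1 i c (Ph2 ψ x)) (B0 := fun i c => D.al 0 i c x)
    (B1 := fun i c => D.al 1 i c x) (G0 := fun c => D.Ga 0 c x) (G1 := fun c => D.Ga 1 c x)
    (G0' := fun c => D'.Ga 0 c (Ph2 ψ x)) (G1' := fun c => D'.Ga 1 c (Ph2 ψ x))
    (Z := Z) (Z' := Z') (k := fun i => D.ka i x) (k' := fun i => D'.ka i (Ph2 ψ x))
    (fun a c => (hal a c).1) (fun a c => (hal a c).2) hZ (fun c => (hGa0 c).1)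
    (fun c => (hGa0 c).2) hka
  have hst : ∀ a, - wd (Pi.single a 1) Z + wd (fun c => D.al 0 a c x) (fun c => D.Ga 1 c x) -
      wd (fun c => D.al 1 a c x) (fun c => D.Ga 0 c x) - D.ka a x • (1 : A) =
      D.s a x • D.Ph x := by
    intro a
    have hz : Z = fun c => db 0 (D.Ga 1 c) x + D.Ga 1 c x * D.g 0 x - db 1 (D.Ga 0 c) x -
        D.Ga 0 c x * D.g 1 x := by
      funext c
      simp only [hZdef]
      abel
    rw [← hR.star x hx a, hz]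
  have hst' : ∀ a, - wd (Pi.single a 1) Z' + wd (fun c => D'.al 0 a c (Ph2 ψ x))
      (fun c => D'.Ga 1 c (Ph2 ψ x)) - wd (fun c => D'.al 1 a c (Ph2 ψ x))
      (fun c => D'.Ga 0 c (Ph2 ψ x)) - D'.ka a (Ph2 ψ x) • (1 : A) =
      D'.s a (Ph2 ψ x) • D'.Ph (Ph2 ψ x) := by
    intro a
    have hz : Z' = fun c => db 0 (D'.Ga 1 c) (Ph2 ψ x) + D'.Ga 1 c (Ph2 ψ x) *
        D'.g 0 (Ph2 ψ x) - db 1 (D'.Ga 0 c) (Ph2 ψ x) -
        D'.Ga 0 c (Ph2 ψ x) * D'.g 1 (Ph2 ψ x) := by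
      funext c
      simp only [hZdef']
      abel
    rw [← hR'.star _ hx' a, hz]
  have h3 : ∀ a, D'.s a (Ph2 ψ x) • ((cdt ψ x.1 * dt (jc ψ x.1)) • (D'.Ph (Ph2 ψ x) * e x.1) -
      e x.1 * D.Ph x) = 0 := by
    intro a
    have h4 := key a
    simp only [hst, hst'] at h4
    have h5 : ∑ i, jc ψ x.1 a i • (e x.1 * (D.s i x • D.Ph x)) =
        D'.s a (Ph2 ψ x) • (e x.1 * D.Ph x) := by
      rw [hs a, Finset.sum_smul]
      refine Finset.sum_congr rfl fun i _ => ?_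
      rw [mul_smul_comm, smul_smul]
    rw [h5] at h4
    rw [smul_sub, h4, smul_mul_assoc]
    change D'.s a (Ph2 ψ x) • ((cdt ψ x.1 * dt (jc ψ x.1)) • (D'.Ph (Ph2 ψ x) * e x.1)) -
      (cdt ψ x.1 * dt (jc ψ x.1)) • (D'.s a (Ph2 ψ x) • (D'.Ph (Ph2 ψ x) * e x.1)) = 0
    rw [smul_comm, sub_self]
  have h6 : D'.s 0 (Ph2 ψ x) ≠ 0 ∨ D'.s 1 (Ph2 ψ x) ≠ 0 := by
    by_contra hcon
    push Not at hcon
    obtain ⟨i0, i1⟩ := hcon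
    have q0 := hs 0
    have q1 := hs 1
    rw [i0, Fin.sum_univ_two] at q0
    rw [i1, Fin.sum_univ_two] at q1
    have r0 : dt (jc ψ x.1) * D.s 0 x = 0 := by
      unfold dt
      linear_combination - (jc ψ x.1 1 1) * q0 + (jc ψ x.1 0 1) * q1
    have r1 : dt (jc ψ x.1) * D.s 1 x = 0 := by
      unfold dt
      linear_combination (jc ψ x.1 1 0) * q0 - (jc ψ x.1 0 0) * q1
    rcases hne with h7 | h7
    · exact h7 ((mul_eq_zero.1 r0).resolve_left hdt)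
    · exact h7 ((mul_eq_zero.1 r1).resolve_left hdt)
  refine sub_eq_zero.1 ?_
  rcases h6 with h7 | h7
  · exact (smul_eq_zero.1 (h3 0)).resolve_left h7
  · exact (smul_eq_zero.1 (h3 1)).resolve_left h7

end step

end

end Vale.Agent.P267.H734
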