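import Vale.Agent.P267.H734.Cov4

/-! P267 / H734: covariance, part 5: **the canonical data in two charts are compatible near the
diagonal** (`CovB.compat`). -/

set_option linter.unusedSectionVars false
set_option linter.unusedVariables false

namespace Vale.Agent.P267.H734

open scoped ContDiff Topology ComplexConjugate
open Set Filter H315 MeasureTheory

noncomputable section

variable {A : Type} [NormedRing A] [NormedAlgebra ℂ A]

variable {Ω : Set V} {s : VV → V} {τ : VV → A} {b : Fin 2 → VV → ℂ} {Ω' : Set V} {s' : VV → V}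
  {τ' : VV → A} {b' : Fin 2 → VV → ℂ} {ψ : V → V} {e : V → A} {z₀ : V} [CompleteSpace A]

theorem sh_cdt {ψ : V → V} {y : VV} (h : ∀ᶠ z in 𝓝 y.1, ContDiffAt ℂ ∞ ψ z) :
    SH (fun y : VV => cdt ψ y.1) y :=
  ((sh_cj h 0 0).mul (sh_cj h 1 1)).sub ((sh_cj h 0 1).mul (sh_cj h 1 0))

theorem sh_dt {ψ : V → V} {y : VV} (h : ∀ᶠ z in 𝓝 y.1, ContDiffAt ℂ ∞ ψ z) :
    SH (fun y : VV => dt (jc ψ y.1)) y :=
  ((sh_jc h 0 0).mul (sh_jc h 1 1)).sub ((sh_jc h 0 1).mul (sh_jc h 1 0))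

/-- from `(z₀,0)` to `(z₀,z₀)` -/
theorem Cov.ev_x (h : Cov Ω s τ Ω' s' τ' ψ e z₀) {Q : VV → Prop}
    (hQ : ∀ᶠ y in 𝓝 ((z₀, 0) : VV), Q y) : ∀ᶠ x in 𝓝 ((z₀, z₀) : VV), Q (Xi s x) := by
  have c1 : ContinuousAt (Xi s) (z₀, z₀) :=
    continuousAt_fst.prodMk (h.inp.sh_s z₀ h.mem).contDiffAt.continuousAt
  have c2 := c1.tendsto
  rw [h.inp.Xi_diag h.mem] at c2
  exact c2.eventually hQ

namespace CovB

/-- everything known near `(z₀,z₀)` -/
structure All (D D' : KData A) (Ω : Set V) (s : VV → V) (τ : VV → A) (Ω' : Set V) (s' : VV → V)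
    (τ' : VV → A) (ψ : V → V) (e : V → A) (x : VV) : Prop where
  c : CAt Ω s τ Ω' s' τ' ψ e x
  al : AlC D D' ψ x
  Ga : GaC D D' ψ e x
  g : gC D D' ψ e x

theorem ev_all (h : CovB Ω s τ b Ω' s' τ' b' ψ e z₀) : ∀ᶠ x in 𝓝 ((z₀, z₀) : VV),
    All (kdat Ω s τ b) (kdat Ω' s' τ' b') Ω s τ Ω' s' τ' ψ e x := by
  have hC := h.toCov
  have e1 : ∀ᶠ y in 𝓝 ((z₀, 0) : VV), ∀ k a c : Fin 2,
      ∑ d, (∑ j, cj ψ y.1 j k * al1 (aa Ω' s' τ') j a d (Ps ψ y)) * jc ψ y.1 d c =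
      ∑ i, jc ψ y.1 a i * al1 (aa Ω s τ) k i c y := by
    rw [eventually_all]
    intro k
    rw [eventually_all]
    intro a
    rw [eventually_all]
    intro c
    exact hC.al_cov k a c
  have e2 : ∀ᶠ y in 𝓝 ((z₀, 0) : VV), ∀ k c : Fin 2,
      ∑ a, jc ψ y.1 a c • ∑ j, cj ψ y.1 j k •
        (Ga1 (aa Ω' s' τ') (ep1 Ω' s' τ') j a (Ps ψ y) * e y.1) =
      e y.1 * Ga1 (aa Ω s τ) (ep1 Ω s τ) k c y := by
    rw [eventually_all]
    intro k
    rw [eventually_all]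
    intro c
    exact hC.Ga_cov k c
  filter_upwards [hC.ev, hC.ev_x e1, hC.ev_x e2, hC.ev_x hC.g_cov] with x hx q1 q2 q3
  rw [← hx.Xi_eq] at q1 q2 q3
  refine ⟨hx, ?_, ?_, ?_⟩
  · intro a c
    have r0 := q1 0 a c
    have r1 := q1 1 a c
    simp only [Fin.sum_univ_two] at r0 r1 ⊢
    exact ⟨r0, r1⟩
  · intro c
    have r0 := q2 0 c
    have r1 := q2 1 c
    simp only [Fin.sum_univ_two] at r0 r1 ⊢
    exact ⟨r0, r1⟩
  · have r0 := q3 0
    have r1 := q3 1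
    rw [Fin.sum_univ_two] at r0 r1
    exact ⟨r0, r1⟩

variable (h : CovB Ω s τ b Ω' s' τ' b' ψ e z₀)

include h

theorem rel : (kdat Ω s τ b).Rel (dU Ω s τ) := h.inp.kdat_rel h.sb

theorem rel' : (kdat Ω' s' τ' b').Rel (dU Ω' s' τ') := h.inp'.kdat_rel h.sb'

theorem dal {x : VV} (hx : x ∈ dU Ω s τ) (j : Fin 4) (i c : Fin 2) :
    DifferentiableAt ℝ ((kdat Ω s τ b).al j i c) x :=
  (h.rel.cal h.inp.isOpen_dU hx j i c).differentiableAt (by simp)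

theorem dal' {x : VV} (hx : x ∈ dU Ω' s' τ') (j : Fin 4) (i c : Fin 2) :
    DifferentiableAt ℝ ((kdat Ω' s' τ' b').al j i c) x :=
  (h.rel'.cal h.inp'.isOpen_dU hx j i c).differentiableAt (by simp)

theorem dGa {x : VV} (hx : x ∈ dU Ω s τ) (j : Fin 4) (c : Fin 2) :
    DifferentiableAt ℝ ((kdat Ω s τ b).Ga j c) x :=
  (h.rel.cGa h.inp.isOpen_dU hx j c).differentiableAt (by simp)

theorem dGa' {x : VV} (hx : x ∈ dU Ω' s' τ') (j : Fin 4) (c : Fin 2) :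
    DifferentiableAt ℝ ((kdat Ω' s' τ' b').Ga j c) x :=
  (h.rel'.cGa h.inp'.isOpen_dU hx j c).differentiableAt (by simp)

/-- covariance of `κ` off the diagonal -/
theorem ka_ne : ∀ᶠ x in 𝓝 ((z₀, z₀) : VV), s x ≠ 0 →
    KaC (kdat Ω s τ b) (kdat Ω' s' τ' b') ψ x := by
  filter_upwards [h.ev_all.eventually_nhds] with x hx hne
  have hc := hx.self_of_nhds.c
  refine ka_off h.rel h.rel' hc.mem hc.mem' hc.hψ1.self_of_nhds hc.dψ2 (h.dal hc.mem)
    (h.dal' hc.mem') (hx.mono fun y hy => hy.al) hc.hs.self_of_nhds ?_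
  by_contra hcon
  push Not at hcon
  apply hne
  funext i
  fin_cases i
  · exact hcon.1
  · exact hcon.2

/-- covariance of `κ` -/
theorem ka : ∀ᶠ x in 𝓝 ((z₀, z₀) : VV), KaC (kdat Ω s τ b) (kdat Ω' s' τ' b') ψ x := by
  have hC := h.toCov
  have hψ := h.hψ
  have hW := h.inp.mem_dW1 h.mem
  have key : ∀ a : Fin 2, (fun y : VV => cdt ψ y.1 * dt (jc ψ y.1) *
      ka1 (aa Ω' s' τ') a (Ps ψ y)) =ᶠ[𝓝 ((z₀, 0) : VV)]
      fun y => ∑ c, jc ψ y.1 a c * ka1 (aa Ω s τ) c y := by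
    intro a
    have s1 : SH (fun y => ka1 (aa Ω' s' τ') a (Ps ψ y)) (z₀, 0) :=
      sh_Ps (y := (z₀, 0)) hψ (by
        rw [Ps_zero]; exact h.inp'.flat.sh_ka a _ hC.mem_y')
    have sF : SH (fun y : VV => cdt ψ y.1 * dt (jc ψ y.1) *
        ka1 (aa Ω' s' τ') a (Ps ψ y)) (z₀, 0) :=
      ((sh_cdt (y := (z₀, 0)) hψ).mul (sh_dt (y := (z₀, 0)) hψ)).mul s1
    have sG : SH (fun y : VV => ∑ c, jc ψ y.1 a c * ka1 (aa Ω s τ) c y) (z₀, 0) :=
      SH.sum fun c _ => (sh_jc (y := (z₀, 0)) hψ a c).mul (h.inp.flat.sh_ka c _ hW)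
    refine dense_zs (sF.eventually.mono fun y hy => hy.contDiffAt.continuousAt)
      (sG.eventually.mono fun y hy => hy.contDiffAt.continuousAt) ?_
    filter_upwards [hC.ev_y (h.ka_ne.and hC.ev)] with y ⟨hy1, hy2, hy3⟩ hy0
    have e1 : s (y.1, ee1 Ω s τ y) = y.2 := h.inp.s_ee1 hy1
    have e2 := hy2 (by rw [e1]; exact hy0) a
    have e3 : Xi s (y.1, ee1 Ω s τ y) = y := h.inp.Xi_ee1 hy1
    have e4 : Xi s' (Ph2 ψ (y.1, ee1 Ω s τ y)) = Ps ψ y := by rw [hy3.Xi_eq, e3]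
    have e5 : (kdat Ω' s' τ' b').ka a (Ph2 ψ (y.1, ee1 Ω s τ y)) =
        ka1 (aa Ω' s' τ') a (Ps ψ y) := by rw [← e4]; rfl
    have e6 : ∀ c, (kdat Ω s τ b).ka c (y.1, ee1 Ω s τ y) = ka1 (aa Ω s τ) c y := by
      intro c
      conv_rhs => rw [← e3]
      rfl
    rw [e5] at e2
    simp only [e6] at e2
    exact e2
  filter_upwards [hC.ev, hC.ev_x (key 0), hC.ev_x (key 1)] with x hx q0 q1
  rw [← hx.Xi_eq] at q0 q1
  intro a
  fin_cases a
  · exact q0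
  · exact q1

/-- covariance of `Φ` off the diagonal -/
theorem Ph_ne : ∀ᶠ x in 𝓝 ((z₀, z₀) : VV), s x ≠ 0 →
    PhC (kdat Ω s τ b) (kdat Ω' s' τ' b') ψ e x := by
  filter_upwards [h.ev_all.eventually_nhds, h.ka] with x hx hka hne
  have hc := hx.self_of_nhds.c
  refine Ph_off h.rel h.rel' hc.mem hc.mem' hc.hψ1.self_of_nhds hc.dψ2 hc.he1 (h.dGa hc.mem)
    (h.dGa' hc.mem') hx.self_of_nhds.al (hx.mono fun y hy => hy.Ga) hx.self_of_nhds.g hka
    hc.hs.self_of_nhds hc.dt1 ?_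
  by_contra hcon
  push Not at hcon
  apply hne
  funext i
  fin_cases i
  · exact hcon.1
  · exact hcon.2

/-- covariance of `Φ` -/
theorem Ph : ∀ᶠ x in 𝓝 ((z₀, z₀) : VV), PhC (kdat Ω s τ b) (kdat Ω' s' τ' b') ψ e x := by
  have hC := h.toCov
  have hψ := h.hψ
  have hW := h.inp.mem_dW1 h.mem
  have se : SH (fun y : VV => e y.1) (z₀, 0) := SH.of_fst (P := V) (E := V) (f := e) (by
    filter_upwards [h.he] with z hz using hz.restrict_scalars ℝ)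
  have key : (fun y : VV => (cdt ψ y.1 * dt (jc ψ y.1)) •
      (Ph1 (aa Ω' s' τ') (ep1 Ω' s' τ') (Ps ψ y) * e y.1)) =ᶠ[𝓝 ((z₀, 0) : VV)]
      fun y => e y.1 * Ph1 (aa Ω s τ) (ep1 Ω s τ) y := by
    have s1 : SH (fun y => Ph1 (aa Ω' s' τ') (ep1 Ω' s' τ') (Ps ψ y)) (z₀, 0) :=
      sh_Ps (y := (z₀, 0)) hψ (by
        rw [Ps_zero]; exact h.inp'.flat.sh_Ph _ hC.mem_y')
    have sF : SH (fun y : VV => (cdt ψ y.1 * dt (jc ψ y.1)) •
        (Ph1 (aa Ω' s' τ') (ep1 Ω' s' τ') (Ps ψ y) * e y.1)) (z₀, 0) :=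
      ((sh_cdt (y := (z₀, 0)) hψ).mul (sh_dt (y := (z₀, 0)) hψ)).smul' (s1.mul se)
    have sG : SH (fun y : VV => e y.1 * Ph1 (aa Ω s τ) (ep1 Ω s τ) y) (z₀, 0) :=
      se.mul (h.inp.flat.sh_Ph _ hW)
    refine dense_zs (sF.eventually.mono fun y hy => hy.contDiffAt.continuousAt)
      (sG.eventually.mono fun y hy => hy.contDiffAt.continuousAt) ?_
    filter_upwards [hC.ev_y (h.Ph_ne.and hC.ev)] with y ⟨hy1, hy2, hy3⟩ hy0
    have e1 : s (y.1, ee1 Ω s τ y) = y.2 := h.inp.s_ee1 hy1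
    have e2 := hy2 (by rw [e1]; exact hy0)
    have e3 : Xi s (y.1, ee1 Ω s τ y) = y := h.inp.Xi_ee1 hy1
    have e4 : Xi s' (Ph2 ψ (y.1, ee1 Ω s τ y)) = Ps ψ y := by rw [hy3.Xi_eq, e3]
    have e5 : (kdat Ω' s' τ' b').Ph (Ph2 ψ (y.1, ee1 Ω s τ y)) =
        Ph1 (aa Ω' s' τ') (ep1 Ω' s' τ') (Ps ψ y) := by rw [← e4]; rfl
    have e6 : (kdat Ω s τ b).Ph (y.1, ee1 Ω s τ y) = Ph1 (aa Ω s τ) (ep1 Ω s τ) y := by
      conv_rhs => rw [← e3]
      rfl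
    unfold PhC at e2
    rw [e5, e6] at e2
    exact e2
  filter_upwards [hC.ev, hC.ev_x key] with x hx q0
  rw [← hx.Xi_eq] at q0
  exact q0

/-- **the data in the two charts are compatible near the diagonal** -/
theorem compat : ∀ᶠ x in 𝓝 ((z₀, z₀) : VV), KData.Compat (kdat Ω s τ b) (kdat Ω' s' τ' b') x
    (ψ x.1, ψ x.2) (jc ψ x.1) (jc ψ x.2) (e x.1) (e x.2) := by
  filter_upwards [h.ev_all, h.ka, h.Ph, h.hb, h.hb.eventually_nhds] with x hx hka hPh hb hbn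
  have hc := hx.c
  have hs := hc.hs.self_of_nhds
  have z4 : ∀ j : Fin 4, 2 ≤ j → j = 2 ∨ j = 3 := by
    intro j hj
    fin_cases j
    · exact absurd hj (by decide)
    · exact absurd hj (by decide)
    · exact Or.inl rfl
    · exact Or.inr rfl
  have alz : ∀ j : Fin 4, 2 ≤ j → ∀ i c, (kdat Ω s τ b).al j i c x = 0 :=
    fun j hj i c => h.rel.al2 x hc.mem j hj i c
  have alz' : ∀ j : Fin 4, 2 ≤ j → ∀ i c, (kdat Ω' s' τ' b').al j i c (Ph2 ψ x) = 0 :=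
    fun j hj i c => h.rel'.al2 _ hc.mem' j hj i c
  have Gaz : ∀ j : Fin 4, 2 ≤ j → ∀ c, (kdat Ω s τ b).Ga j c x = 0 :=
    fun j hj c => h.rel.Ga2 x hc.mem j hj c
  have Gaz' : ∀ j : Fin 4, 2 ≤ j → ∀ c, (kdat Ω' s' τ' b').Ga j c (Ph2 ψ x) = 0 :=
    fun j hj c => h.rel'.Ga2 _ hc.mem' j hj c
  have hal : ∀ (j : Fin 4) (a d : Fin 2), ∑ j', CJ (jc ψ x.1) (jc ψ x.2) j' j *
        ∑ c, (kdat Ω' s' τ' b').al j' a c (Ph2 ψ x) * jc ψ x.1 c d =
        ∑ c, jc ψ x.1 a c * (kdat Ω s τ b).al j c d x := by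
    intro j a d
    rw [Fin.sum_univ_four]
    have z2 := alz' 2 (by decide)
    have z3 := alz' 3 (by decide)
    simp only [z2, z3, zero_mul, Finset.sum_const_zero, mul_zero, add_zero]
    revert j
    refine Inp.four ?_ ?_ ?_
    · rw [← (hx.al a d).1]
      simp only [Fin.sum_univ_two, CJ, Matrix.cons_val_zero, Matrix.cons_val_one, cj]
      ring
    · rw [← (hx.al a d).2]
      simp only [Fin.sum_univ_two, CJ, Matrix.cons_val_zero, Matrix.cons_val_one, cj]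
      ring
    · intro j hj
      rw [show (∑ c, jc ψ x.1 a c * (kdat Ω s τ b).al j c d x) = 0 by simp [alz j hj]]
      rcases z4 j hj with rfl | rfl <;> simp [CJ]
  have hGa : ∀ (j : Fin 4) (c : Fin 2), e x.1 * (kdat Ω s τ b).Ga j c x =
      ∑ a, jc ψ x.1 a c • ∑ j', CJ (jc ψ x.1) (jc ψ x.2) j' j •
        ((kdat Ω' s' τ' b').Ga j' a (Ph2 ψ x) * e x.1) := by
    intro j c
    have z2 := Gaz' 2 (by decide)
    have z3 := Gaz' 3 (by decide)
    simp only [Fin.sum_univ_four, z2, z3, zero_mul, smul_zero, add_zero]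
    revert j
    refine Inp.four ?_ ?_ ?_
    · rw [← (hx.Ga c).1]
      rfl
    · rw [← (hx.Ga c).2]
      rfl
    · intro j hj
      rw [Gaz j hj, mul_zero]
      rcases z4 j hj with rfl | rfl <;> simp [CJ]
  have hB := KData.compat_B (D := kdat Ω s τ b) (D' := kdat Ω' s' τ' b') (ψ := ψ) (J := jc ψ)
    (y := x) hc.dψ1 hc.dψ2 (fun a c => diff_jc hc.hψ1.self_of_nhds a c) rfl hbn
    (fun a => (h.rel'.cb h.inp'.isOpen_dU hc.mem' a).differentiableAt (by simp)) hal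
  exact
    { s := hs
      b := hb
      m := hc.m_cov h.inp h.inp'
      ka := fun a => by
        have := hka a
        rw [cdt_eq, mul_comm (conj _)] at this
        exact this
      Ph := by
        have := hPh
        unfold PhC at this
        rw [cdt_eq, mul_comm (conj _)] at this
        exact this
      B := hB
      Ga := hGa }

end CovB

end

end Vale.Agent.P267.H734
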