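import Vale.Agent.P267.H667.Rep

/-!
# The normalising constant of the Bochner-Martinelli kernel is `π⁻²`
-/

open MeasureTheory Filter Topology Set Metric

namespace Vale.Agent.P267.H734

noncomputable section

lemma integral_rad (f : ℝ → ℝ) :
    ∫ z : ℂ, f ‖z‖ = 2 * Real.pi * ∫ y in Ioi (0 : ℝ), y * f y := by
  have h := integral_fun_norm_addHaar (E := ℂ) (F := ℝ) (volume : Measure ℂ) f
  rw [h, Complex.finrank_real_complex]
  have hv : (volume : Measure ℂ).real (ball 0 1) = Real.pi := by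
    rw [Measure.real, Complex.volume_ball]
    simp [NNReal.coe_real_pi]
  rw [hv]
  simp only [smul_eq_mul, nsmul_eq_mul]
  norm_num
  ring

lemma int_one {a : ℝ} (ha : 0 < a) :
    ∫ y in Ioi (0 : ℝ), y * (2 * ((a + y ^ 2) ^ 3)⁻¹) = (2 * a ^ 2)⁻¹ := by
  have hp : ∀ y : ℝ, 0 < a + y ^ 2 := fun y => by positivity
  have hd : ∀ x ∈ Ici (0 : ℝ), HasDerivAt (fun y : ℝ => -(2 * (a + y ^ 2) ^ 2)⁻¹)
      (x * (2 * ((a + x ^ 2) ^ 3)⁻¹)) x := by
    intro x _
    have h1 : HasDerivAt (fun y : ℝ => 2 * (a + y ^ 2) ^ 2)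
        (2 * (2 * (a + x ^ 2) * (2 * x))) x := by
      have := ((((hasDerivAt_id x).pow 2).const_add a).pow 2).const_mul 2
      refine this.congr_deriv ?_
      simp
    have h2 := (h1.inv (by have := hp x; positivity)).neg
    refine h2.congr_deriv ?_
    have := (hp x).ne'
    field_simp
  have ht : Tendsto (fun y : ℝ => -(2 * (a + y ^ 2) ^ 2)⁻¹) atTop (𝓝 (-0)) := by
    refine Tendsto.neg (Tendsto.inv_tendsto_atTop ?_)
    refine Tendsto.const_mul_atTop (by norm_num) ?_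
    refine (tendsto_pow_atTop (by norm_num)).comp ?_
    exact tendsto_atTop_add_const_left _ _ (tendsto_pow_atTop (by norm_num))
  have := integral_Ioi_of_hasDerivAt_of_nonneg' hd (fun x hx => by
    have := hp x; have hx' : 0 < x := hx; positivity) ht
  rw [this]
  simp

lemma int_two :
    ∫ y in Ioi (0 : ℝ), y * (((1 + y ^ 2) ^ 2)⁻¹) = 2⁻¹ := by
  have hp : ∀ y : ℝ, 0 < 1 + y ^ 2 := fun y => by positivity
  have hd : ∀ x ∈ Ici (0 : ℝ), HasDerivAt (fun y : ℝ => -(2 * (1 + y ^ 2))⁻¹)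
      (x * (((1 + x ^ 2) ^ 2)⁻¹)) x := by
    intro x _
    have h1 : HasDerivAt (fun y : ℝ => 2 * (1 + y ^ 2)) (2 * (2 * x)) x := by
      have := (((hasDerivAt_id x).pow 2).const_add 1).const_mul 2
      refine this.congr_deriv ?_
      simp
    have h2 := (h1.inv (by have := hp x; positivity)).neg
    refine h2.congr_deriv ?_
    have := (hp x).ne'
    field_simp
  have ht : Tendsto (fun y : ℝ => -(2 * (1 + y ^ 2))⁻¹) atTop (𝓝 (-0)) := by
    refine Tendsto.neg (Tendsto.inv_tendsto_atTop ?_)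
    refine Tendsto.const_mul_atTop (by norm_num) ?_
    exact tendsto_atTop_add_const_left _ _ (tendsto_pow_atTop (by norm_num))
  have := integral_Ioi_of_hasDerivAt_of_nonneg' hd (fun x hx => by
    have := hp x; have hx' : 0 < x := hx; positivity) ht
  rw [this]
  simp

/-- `∫ prof = π²` -/
theorem integral_prof : ∫ z, H667.prof z = Real.pi ^ 2 := by
  have hm := volume_preserving_finTwoArrow ℂ
  have h1 : ∫ z, H667.prof z = ∫ p : ℂ × ℂ,
      2 * (((1 + ‖p.1‖ ^ 2) + ‖p.2‖ ^ 2) ^ 3)⁻¹ := by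
    rw [← hm.integral_comp' (g := fun p : ℂ × ℂ => 2 * (((1 + ‖p.1‖ ^ 2) + ‖p.2‖ ^ 2) ^ 3)⁻¹)]
    refine integral_congr_ae (Eventually.of_forall fun z => ?_)
    simp only [H667.prof_eq, H667.sq, MeasurableEquiv.finTwoArrow_apply,
      Complex.normSq_eq_norm_sq]
    congr 3
    ring
  have hi : Integrable (fun p : ℂ × ℂ =>
      2 * (((1 + ‖p.1‖ ^ 2) + ‖p.2‖ ^ 2) ^ 3)⁻¹) := by
    have h2 := H667.integrable_prof
    rw [← hm.integrable_comp_emb (MeasurableEquiv.measurableEmbedding _)]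
    refine h2.congr (Eventually.of_forall fun z => ?_)
    simp only [Function.comp, H667.prof_eq, H667.sq, MeasurableEquiv.finTwoArrow_apply,
      Complex.normSq_eq_norm_sq]
    congr 3
    ring
  rw [h1, Measure.volume_eq_prod, integral_prod _ (by rwa [Measure.volume_eq_prod] at hi)]
  have h3 : ∀ x : ℂ, ∫ y : ℂ, 2 * (((1 + ‖x‖ ^ 2) + ‖y‖ ^ 2) ^ 3)⁻¹ =
      Real.pi * ((1 + ‖x‖ ^ 2) ^ 2)⁻¹ := by
    intro x
    have ha : 0 < 1 + ‖x‖ ^ 2 := by positivity
    rw [integral_rad (fun t => 2 * (((1 + ‖x‖ ^ 2) + t ^ 2) ^ 3)⁻¹), int_one ha]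
    field_simp
  simp only [h3]
  rw [integral_rad (fun t => Real.pi * ((1 + t ^ 2) ^ 2)⁻¹)]
  have h4 : ∫ y in Ioi (0 : ℝ), y * (Real.pi * ((1 + y ^ 2) ^ 2)⁻¹) = Real.pi * 2⁻¹ := by
    rw [← int_two, ← integral_const_mul]
    refine integral_congr_ae (Eventually.of_forall fun z => ?_)
    simp only
    ring
  rw [h4]
  ring

/-- The normalising constant of `H667.K`. -/
theorem cst_eq : H667.cst = (Real.pi ^ 2)⁻¹ := by
  rw [H667.cst, integral_prof]

end

end Vale.Agent.P267.H734
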