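import Vale.Agent.P267.H734.ParInt

/-! P267 / H734: division of functions `F(p,w)`, smooth in `(p,w)` and holomorphic in `w`, which vanish
on a smooth section `w = c(p)` (radial primitive, Koszul division), with smooth dependence. -/

set_option linter.unusedSectionVars false

namespace Vale.Agent.P267.H734

open scoped ContDiff Topology
open Set Filter MeasureTheory

noncomputable section

/-! ### functions smooth in `(p,w)` and holomorphic in `w` -/

section hol

variable {P : Type} [NormedAddCommGroup P] [NormedSpace ℝ P]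
  {E : Type} [NormedAddCommGroup E] [NormedSpace ℂ E]
  {W : Type} [NormedAddCommGroup W] [NormedSpace ℂ W]

/-- the real derivative of `F` in the second variable is complex linear at `x` -/
def HolW (F : P × E → W) (x : P × E) : Prop :=
  ∀ v : E, fderiv ℝ F x (0, Complex.I • v) = Complex.I • fderiv ℝ F x (0, v)

theorem HolW.smul {F : P × E → W} {x : P × E} (h : HolW F x) (a : ℂ) (v : E) :
    fderiv ℝ F x (0, a • v) = a • fderiv ℝ F x (0, v) := by
  have h1 : ((0 : P), a • v) = a.re • ((0 : P), v) + a.im • ((0 : P), Complex.I • v) := by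
    ext
    · simp
    · simp only [Prod.smul_mk, smul_zero, Prod.mk_add_mk, add_zero]
      rw [← Complex.coe_smul a.re v, ← Complex.coe_smul a.im, smul_smul, ← add_smul,
        Complex.re_add_im]
  rw [h1, map_add, map_smul, map_smul, h v, ← Complex.coe_smul a.re, ← Complex.coe_smul a.im,
    smul_smul, ← add_smul, Complex.re_add_im]

theorem HolW.congr {F G : P × E → W} {x : P × E} (h : HolW F x) (hFG : F =ᶠ[𝓝 x] G) :
    HolW G x := by
  intro v
  rw [← hFG.fderiv_eq]
  exact h v

/-- smooth and holomorphic in the second variable, near `x` -/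
def SH (F : P × E → W) (x : P × E) : Prop :=
  ∀ᶠ y in 𝓝 x, ContDiffAt ℝ ∞ F y ∧ HolW F y

theorem SH.contDiffAt {F : P × E → W} {x : P × E} (h : SH F x) : ContDiffAt ℝ ∞ F x :=
  h.self_of_nhds.1

theorem SH.hol {F : P × E → W} {x : P × E} (h : SH F x) : HolW F x :=
  h.self_of_nhds.2

theorem SH.eventually {F : P × E → W} {x : P × E} (h : SH F x) : ∀ᶠ y in 𝓝 x, SH F y :=
  Filter.Eventually.eventually_nhds h

theorem SH.congr {F G : P × E → W} {x : P × E} (h : SH F x) (hFG : F =ᶠ[𝓝 x] G) : SH G x := by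
  have h1 : ∀ᶠ y in 𝓝 x, F =ᶠ[𝓝 y] G := hFG.eventually_nhds
  filter_upwards [h, h1] with y hy hy1
  exact ⟨hy.1.congr_of_eventuallyEq hy1.symm, hy.2.congr hy1⟩

theorem SH.differentiableAt {F : P × E → W} {x : P × E} (h : SH F x) :
    DifferentiableAt ℝ F x := h.contDiffAt.differentiableAt (by simp)

theorem SH.const (w : W) (x : P × E) : SH (fun _ : P × E => w) x := by
  refine Eventually.of_forall fun y => ⟨contDiffAt_const, fun v => ?_⟩
  simp

theorem SH.add {F G : P × E → W} {x : P × E} (hF : SH F x) (hG : SH G x) :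
    SH (fun y => F y + G y) x := by
  filter_upwards [hF, hG] with y h1 h2
  refine ⟨h1.1.add h2.1, fun v => ?_⟩
  have e1 := h1.1.differentiableAt (by simp)
  have e2 := h2.1.differentiableAt (by simp)
  rw [fderiv_fun_add e1 e2]
  simp only [_root_.add_apply, h1.2 v, h2.2 v, smul_add]

theorem SH.neg {F : P × E → W} {x : P × E} (hF : SH F x) : SH (fun y => - F y) x := by
  filter_upwards [hF] with y h1
  refine ⟨h1.1.neg, fun v => ?_⟩
  rw [fderiv_fun_neg]
  simp only [_root_.neg_apply, h1.2 v, smul_neg]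

theorem SH.sub {F G : P × E → W} {x : P × E} (hF : SH F x) (hG : SH G x) :
    SH (fun y => F y - G y) x := by
  simpa only [sub_eq_add_neg] using hF.add hG.neg

theorem SH.sum {ι : Type} {s : Finset ι} {F : ι → P × E → W} {x : P × E}
    (h : ∀ i ∈ s, SH (F i) x) : SH (fun y => ∑ i ∈ s, F i y) x := by
  classical
  induction s using Finset.induction_on with
  | empty => simpa using SH.const (0 : W) x
  | insert a s ha ih =>
    simp only [Finset.sum_insert ha]
    exact (h a (Finset.mem_insert_self a s)).add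
      (ih fun i hi => h i (Finset.mem_insert_of_mem hi))

/-- composition with a complex linear map -/
theorem SH.clm {W' : Type} [NormedAddCommGroup W'] [NormedSpace ℂ W'] (L : W →L[ℂ] W')
    {F : P × E → W} {x : P × E} (hF : SH F x) : SH (fun y => L (F y)) x := by
  filter_upwards [hF] with y h1
  refine ⟨(L.restrictScalars ℝ).contDiff.contDiffAt.comp y h1.1, fun v => ?_⟩
  have e1 := h1.1.differentiableAt (by simp)
  have h2 : fderiv ℝ (fun y => L (F y)) y = (L.restrictScalars ℝ).comp (fderiv ℝ F y) :=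
    ((L.restrictScalars ℝ).hasFDerivAt.comp y e1.hasFDerivAt).fderiv
  rw [h2]
  simp only [ContinuousLinearMap.comp_apply, h1.2 v]
  exact L.map_smul _ _

/-- a continuous complex bilinear operation -/
theorem SH.bil {W₁ W₂ : Type} [NormedAddCommGroup W₁] [NormedSpace ℂ W₁]
    [NormedAddCommGroup W₂] [NormedSpace ℂ W₂] (B : W₁ →L[ℂ] W₂ →L[ℂ] W)
    {F : P × E → W₁} {G : P × E → W₂} {x : P × E} (hF : SH F x) (hG : SH G x) :
    SH (fun y => B (F y) (G y)) x := by
  have hB : ContDiff ℝ ∞ fun z : W₁ × W₂ => B z.1 z.2 :=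
    (B.isBoundedBilinearMap.contDiff (n := ∞)).restrict_scalars ℝ
  filter_upwards [hF, hG] with y h1 h2
  refine ⟨hB.contDiffAt.comp y (h1.1.prodMk h2.1), fun v => ?_⟩
  have e1 := (h1.1.differentiableAt (by simp)).hasFDerivAt
  have e2 := (h2.1.differentiableAt (by simp)).hasFDerivAt
  have h3 : HasFDerivAt (fun z : W₁ × W₂ => B z.1 z.2)
      ((B.isBoundedBilinearMap.deriv (F y, G y)).restrictScalars ℝ) (F y, G y) :=
    (B.isBoundedBilinearMap.hasFDerivAt (F y, G y)).restrictScalars ℝ
  have h4 := h3.comp y (e1.prodMk e2)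
  have h5 : fderiv ℝ (fun y => B (F y) (G y)) y =
      ((B.isBoundedBilinearMap.deriv (F y, G y)).restrictScalars ℝ).comp
        ((fderiv ℝ F y).prod (fderiv ℝ G y)) := h4.fderiv
  rw [h5]
  simp only [ContinuousLinearMap.comp_apply, ContinuousLinearMap.prod_apply,
    ContinuousLinearMap.coe_restrictScalars', IsBoundedBilinearMap.deriv_apply, h1.2 v, h2.2 v,
    map_smul, _root_.smul_apply, smul_add]

theorem SH.smul' {f : P × E → ℂ} {F : P × E → W} {x : P × E} (hf : SH f x) (hF : SH F x) :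
    SH (fun y => f y • F y) x :=
  SH.bil (ContinuousLinearMap.lsmul ℂ ℂ) hf hF

theorem SH.mul {A : Type} [NormedRing A] [NormedAlgebra ℂ A] {F G : P × E → A} {x : P × E}
    (hF : SH F x) (hG : SH G x) : SH (fun y => F y * G y) x :=
  SH.bil (ContinuousLinearMap.mul ℂ A) hF hG

/-- functions of the parameter only -/
theorem SH.of_fst {f : P → W} {x : P × E} (hf : ∀ᶠ p in 𝓝 x.1, ContDiffAt ℝ ∞ f p) :
    SH (fun y : P × E => f y.1) x := by
  have h1 : ∀ᶠ y in 𝓝 x, ContDiffAt ℝ ∞ f y.1 := continuousAt_fst.eventually hf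
  filter_upwards [h1] with y hy
  refine ⟨hy.comp y contDiffAt_fst, fun v => ?_⟩
  have h2 : HasFDerivAt (fun y : P × E => f y.1)
      ((fderiv ℝ f y.1).comp (ContinuousLinearMap.fst ℝ P E)) y :=
    (hy.differentiableAt (by simp)).hasFDerivAt.comp y hasFDerivAt_fst
  rw [h2.fderiv]
  simp

/-- holomorphic functions of the second variable only -/
theorem SH.of_snd {f : E → W} {x : P × E} (hf : ∀ᶠ w in 𝓝 x.2, ContDiffAt ℂ ∞ f w) :
    SH (fun y : P × E => f y.2) x := by
  have h1 : ∀ᶠ y in 𝓝 x, ContDiffAt ℂ ∞ f y.2 := continuousAt_snd.eventually hf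
  filter_upwards [h1] with y hy
  refine ⟨(hy.restrict_scalars ℝ).comp y contDiffAt_snd, fun v => ?_⟩
  have h2 : HasFDerivAt (fun y : P × E => f y.2)
      (((fderiv ℂ f y.2).restrictScalars ℝ).comp (ContinuousLinearMap.snd ℝ P E)) y :=
    ((hy.differentiableAt (by simp)).hasFDerivAt.restrictScalars ℝ).comp y hasFDerivAt_snd
  rw [h2.fderiv]
  simp

/-- pull back by a map which is smooth, and holomorphic in the second variable -/
theorem SH.comp {P' E' : Type} [NormedAddCommGroup P'] [NormedSpace ℝ P']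
    [NormedAddCommGroup E'] [NormedSpace ℂ E'] {F : P' × E' → W} {a : P → P'} {g : P × E → E'}
    {x : P × E} (hF : SH F (a x.1, g x)) (ha : ∀ᶠ p in 𝓝 x.1, ContDiffAt ℝ ∞ a p)
    (hg : SH g x) : SH (fun y => F (a y.1, g y)) x := by
  have hc : ContinuousAt (fun y : P × E => (a y.1, g y)) x :=
    (ContinuousAt.comp (f := Prod.fst) ha.self_of_nhds.continuousAt continuousAt_fst).prodMk
      hg.contDiffAt.continuousAt
  have h1 : ∀ᶠ y in 𝓝 x, ContDiffAt ℝ ∞ a y.1 := continuousAt_fst.eventually ha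
  filter_upwards [hc.eventually hF, h1, hg] with y h2 h3 h4
  have h5 : ContDiffAt ℝ ∞ (fun y : P × E => a y.1) y := h3.comp y contDiffAt_fst
  refine ⟨h2.1.comp y (h5.prodMk h4.1), fun v => ?_⟩
  have e1 : HasFDerivAt (fun y : P × E => a y.1)
      ((fderiv ℝ a y.1).comp (ContinuousLinearMap.fst ℝ P E)) y :=
    (h3.differentiableAt (by simp)).hasFDerivAt.comp y hasFDerivAt_fst
  have e2 := (h4.1.differentiableAt (by simp)).hasFDerivAt
  have e3 := (h2.1.differentiableAt (by simp)).hasFDerivAt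
  have e4 := HasFDerivAt.comp (f := fun y : P × E => (a y.1, g y)) y e3 (e1.prodMk e2)
  have e5 : fderiv ℝ (fun y => F (a y.1, g y)) y = (fderiv ℝ F (a y.1, g y)).comp
      (((fderiv ℝ a y.1).comp (ContinuousLinearMap.fst ℝ P E)).prod (fderiv ℝ g y)) := e4.fderiv
  rw [e5]
  simp only [ContinuousLinearMap.comp_apply, ContinuousLinearMap.prod_apply,
    ContinuousLinearMap.coe_fst', map_zero, h4.2 v]
  exact h2.2 _

/-- the derivative of `F` in a fixed direction -/
theorem SH.fderiv_apply {F : P × E → W} {x : P × E} (hF : SH F x) (u : P × E) :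
    SH (fun y => fderiv ℝ F y u) x := by
  have h0 : ∀ᶠ y in 𝓝 x, ∀ᶠ z in 𝓝 y, ContDiffAt ℝ ∞ F z ∧ HolW F z :=
    Filter.Eventually.eventually_nhds hF
  filter_upwards [h0] with y hy
  have h1 : ContDiffAt ℝ ∞ F y := hy.self_of_nhds.1
  have h2 : ContDiffAt ℝ ∞ (fderiv ℝ F) y := h1.fderiv_right (m := ∞) (by simp)
  refine ⟨h2.clm_apply contDiffAt_const, fun v => ?_⟩
  have h3 : DifferentiableAt ℝ (fderiv ℝ F) y := h2.differentiableAt (by simp)
  have h4 : ∀ v : P × E, fderiv ℝ (fun y => fderiv ℝ F y u) y v =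
      fderiv ℝ (fderiv ℝ F) y v u := by
    intro v
    have := h3.hasFDerivAt.clm_apply (hasFDerivAt_const u y)
    rw [this.fderiv]
    simp
  have hsymm : IsSymmSndFDerivAt ℝ F y := h1.isSymmSndFDerivAt (by
    rw [minSmoothness_of_isRCLikeNormedField]
    exact WithTop.coe_le_coe.2 (le_top : (2 : ℕ∞) ≤ ⊤))
  rw [h4, h4, hsymm.eq, hsymm.eq (0, v)]
  -- differentiate the identity `HolW` in the direction `u`
  have h5 : (fun z => fderiv ℝ F z (0, Complex.I • v)) =ᶠ[𝓝 y]
      fun z => Complex.I • fderiv ℝ F z (0, v) := by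
    filter_upwards [hy] with z hz
    exact hz.2 v
  have h6 : fderiv ℝ (fun z => fderiv ℝ F z (0, Complex.I • v)) y =
      fderiv ℝ (fun z => Complex.I • fderiv ℝ F z (0, v)) y := Filter.EventuallyEq.fderiv_eq h5
  have h7 : fderiv ℝ (fun z => fderiv ℝ F z (0, Complex.I • v)) y u =
      fderiv ℝ (fderiv ℝ F) y u (0, Complex.I • v) := by
    have := h3.hasFDerivAt.clm_apply (hasFDerivAt_const ((0 : P), Complex.I • v) y)
    rw [this.fderiv]
    simp
  have h8 : fderiv ℝ (fun z => Complex.I • fderiv ℝ F z (0, v)) y u =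
      Complex.I • fderiv ℝ (fderiv ℝ F) y u (0, v) := by
    have h9 := h3.hasFDerivAt.clm_apply (hasFDerivAt_const ((0 : P), v) y)
    have h10 : HasFDerivAt (fun z => Complex.I • fderiv ℝ F z (0, v)) _ y :=
      h9.const_smul Complex.I
    rw [h10.fderiv]
    simp
  rw [← h7, ← h8, h6]

end hol

end

end Vale.Agent.P267.H734
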