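import Vale.Agent.P267.H734.Tilde
import Vale.Agent.P267.H156.KLim

/-! P267 / H734: the canonical data satisfy the hypotheses of the limit theorems of H156. -/

set_option linter.unusedSectionVars false
set_option linter.unusedVariables false

namespace Vale.Agent.P267.H734

open scoped ContDiff Topology
open Set Filter H315

noncomputable section

variable {A : Type} [NormedRing A] [NormedAlgebra ℂ A]

/-- `b_i = Σ_c h_ic(z) conj(s_c)` -/
def bb (h : V → Matrix (Fin 2) (Fin 2) ℂ) (s : VV → V) (i : Fin 2) (x : VV) : ℂ :=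
  ∑ c, h x.1 i c * star (s x c)

theorem contDiffAt_bb {h : V → Matrix (Fin 2) (Fin 2) ℂ} {s : VV → V} {x : VV}
    (hh : ∀ a c, ContDiffAt ℝ ∞ (fun z => h z a c) x.1) (hs : ContDiffAt ℝ ∞ s x) (i : Fin 2) :
    ContDiffAt ℝ ∞ (bb h s i) x := by
  unfold bb
  refine ContDiffAt.sum fun c _ => ?_
  have h1 : ContDiffAt ℝ ∞ (fun x : VV => h x.1 i c) x :=
    ContDiffAt.comp (g := fun z => h z i c) (f := Prod.fst) x (hh i c) contDiffAt_fst
  have h2 : ContDiffAt ℝ ∞ (fun x : VV => s x c) x :=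
    (ContinuousLinearMap.proj (R := ℝ) (φ := fun _ : Fin 2 => ℂ) c).contDiff.contDiffAt.comp x hs
  have h3 : ContDiffAt ℝ ∞ (fun x : VV => star (s x c)) x :=
    (Complex.conjCLE.contDiff.contDiffAt (n := ∞)).comp x h2
  exact h1.mul h3

theorem Inp.limHyp [CompleteSpace A] {Ω : Set V} {s : VV → V} {τ : VV → A} (hI : Inp Ω s τ)
    {h : V → Matrix (Fin 2) (Fin 2) ℂ} (h_smooth : ∀ a c, ContDiffOn ℝ ∞ (fun z => h z a c) Ω)
    (isHerm : ∀ z ∈ Ω, (h z).IsHermitian) (pos : ∀ z ∈ Ω, 0 < (h z 0 0).re)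
    (det_pos : ∀ z ∈ Ω, 0 < (h z).det.re) :
    H156.LimHyp (kdat Ω s τ (bb h s)) (dU Ω s τ) Ω h where
  rel := hI.kdat_rel fun i x hx => (contDiffAt_bb (fun a c => (h_smooth a c).contDiffAt
    (hI.isOpen.mem_nhds (Inp.dO_fst (hI.dU_sub hx)))) (Inp.dO_sh_s (hI.dU_sub hx)).contDiffAt
    i).contDiffWithinAt
  open_U := hI.isOpen_dU
  open_O := hI.isOpen
  diag := fun z hz => hI.mem_dU hz
  h_smooth := h_smooth
  isHerm := isHerm
  pos := pos
  det_pos := det_pos
  b_eq := fun x hx a => rfl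
  s_diag := by
    intro z hz a
    show s (z, z) a = 0
    rw [hI.s0 z hz]
    rfl
  ds_diag := by
    intro z hz a v
    have h1 : fderiv ℝ (fun y => s y a) (z, z) (0, v) = v a := by
      rw [fderiv_pi2 (hI.sh_s z hz).differentiableAt, hI.s1 z hz]
    exact h1
  m_diag := by
    intro z hz
    show jac s (z, z) • τ (z, z) = 1
    rw [hI.jac_diag hz, hI.t0 z hz, one_smul]

end

end Vale.Agent.P267.H734
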