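import Vale.Agent.P267.H734.Comp

/-! P267 / H734: the functions `α, Γ, κ, Φ` of the `(z,s)` model (radial integrals) and their
relations. -/

set_option linter.unusedSectionVars false
set_option linter.unusedVariables false

namespace Vale.Agent.P267.H734

open scoped ContDiff Topology
open Set Filter H315

noncomputable section

variable {W : Type} [NormedAddCommGroup W] [NormedSpace ℂ W]

/-! ### the derivation `DD` -/

section der

variable {a : VV → V} {v : V} {y : VV}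

theorem DD_congr {F G : VV → W} (h : F =ᶠ[𝓝 y] G) : DD a v F y = DD a v G y := by
  unfold DD
  rw [dbv_congr h, h.fderiv_eq]

theorem DD_add {F G : VV → W} (hF : DifferentiableAt ℝ F y) (hG : DifferentiableAt ℝ G y) :
    DD a v (fun y => F y + G y) y = DD a v F y + DD a v G y := by
  unfold DD
  rw [dbv_add hF hG, fderiv_fun_add hF hG]
  simp only [_root_.add_apply]
  abel

theorem DD_sub {F G : VV → W} (hF : DifferentiableAt ℝ F y) (hG : DifferentiableAt ℝ G y) :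
    DD a v (fun y => F y - G y) y = DD a v F y - DD a v G y := by
  unfold DD
  rw [dbv_sub hF hG, fderiv_fun_sub hF hG]
  simp only [_root_.sub_apply]
  abel

theorem DD_smul {f : VV → ℂ} {F : VV → W} (hf : DifferentiableAt ℝ f y)
    (hF : DifferentiableAt ℝ F y) :
    DD a v (fun y => f y • F y) y = DD a v f y • F y + f y • DD a v F y := by
  unfold DD
  have h1 : fderiv ℝ (fun y => f y • F y) y = f y • fderiv ℝ F y +
      (fderiv ℝ f y).smulRight (F y) := fderiv_fun_smul hf hF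
  rw [dbv_smul hf hF, h1]
  simp only [_root_.add_apply, _root_.smul_apply, ContinuousLinearMap.smulRight_apply]
  module

theorem DD_mul {A : Type} [NormedRing A] [NormedAlgebra ℂ A] {F G : VV → A}
    (hF : DifferentiableAt ℝ F y) (hG : DifferentiableAt ℝ G y) :
    DD a v (fun y => F y * G y) y = DD a v F y * G y + F y * DD a v G y := by
  unfold DD
  have h1 : fderiv ℝ (fun y => F y * G y) y (0, a y) =
      F y * fderiv ℝ G y (0, a y) + fderiv ℝ F y (0, a y) * G y := by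
    rw [fderiv_fun_mul' hF hG]
    simp
  rw [dbv_mul hF hG, h1, add_mul, mul_add]
  abel

theorem DD_const (w : W) : DD a v (fun _ => w) y = 0 := by
  unfold DD
  rw [dbv_const]
  simp

theorem DD_coord (i : Fin 2) : DD a v (fun y => y.2 i) y = a y i := by
  unfold DD
  have h1 : HasFDerivAt (fun y : VV => y.2 i)
      ((ContinuousLinearMap.proj (R := ℝ) (φ := fun _ : Fin 2 => ℂ) i).comp
        (ContinuousLinearMap.snd ℝ V V)) y :=
    (ContinuousLinearMap.proj (R := ℝ) (φ := fun _ : Fin 2 => ℂ) i).hasFDerivAt.comp y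
      hasFDerivAt_snd
  have h2 : dbv (v, 0) (fun y : VV => y.2 i) y = 0 := by
    unfold dbv
    have h3 : fderiv ℝ (fun y : VV => y.2 i) y = _ := h1.fderiv
    rw [h3]
    simp
  rw [h2, h1.fderiv]
  simp

theorem DD_pi {F : VV → V} (hF : DifferentiableAt ℝ F y) (i : Fin 2) :
    DD a v (fun y => F y i) y = DD a v F y i := by
  unfold DD
  rw [dbv_pi hF, fderiv_pi2 hF]
  rfl

theorem SH.coord (i : Fin 2) (y : VV) : SH (fun y : VV => y.2 i) y :=
  SH.of_snd (f := fun w : V => w i) (Eventually.of_forall fun w =>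
    (ContinuousLinearMap.proj (R := ℂ) (φ := fun _ : Fin 2 => ℂ) i).contDiff.contDiffAt)

/-- `∂_c` and `DD` -/
theorem fderiv_DD {F : VV → W} (ha : SH a y) (hF : SH F y) (c : Fin 2) :
    fderiv ℝ (DD a v F) y (0, ee c) = DD a v (fun z => fderiv ℝ F z (0, ee c)) y +
      (fderiv ℝ a y (0, ee c) 0 • fderiv ℝ F y (0, ee 0) +
        fderiv ℝ a y (0, ee c) 1 • fderiv ℝ F y (0, ee 1)) := by
  have h1 : DD a v F =ᶠ[𝓝 y] fun z => dbv (v, 0) F z + (a z 0 • fderiv ℝ F z (0, ee 0) +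
      a z 1 • fderiv ℝ F z (0, ee 1)) := by
    filter_upwards [hF] with z hz
    rw [DD, hz.2.two (a z)]
  have hF0 := hF.fderiv_apply (0, ee 0)
  have hF1 := hF.fderiv_apply (0, ee 1)
  have ha0 := ha.pi 0
  have ha1 := ha.pi 1
  have sym : ∀ u w : VV, fderiv ℝ (fun z => fderiv ℝ F z u) y w =
      fderiv ℝ (fun z => fderiv ℝ F z w) y u := by
    intro u w
    have h2 : ContDiffAt ℝ 2 F y := hF.contDiffAt.of_le (WithTop.coe_le_coe.2 le_top)
    have hs : IsSymmSndFDerivAt ℝ F y := h2.isSymmSndFDerivAt (by simp)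
    have h3 : DifferentiableAt ℝ (fderiv ℝ F) y :=
      (h2.fderiv_right (m := 1) (by norm_num)).differentiableAt (by norm_num)
    have h4 : ∀ v w : VV, fderiv ℝ (fun z => fderiv ℝ F z v) y w =
        fderiv ℝ (fderiv ℝ F) y w v := by
      intro v w
      have := h3.hasFDerivAt.clm_apply (hasFDerivAt_const v y)
      rw [this.fderiv]
      simp
    rw [h4, h4, hs.eq]
  have hFc := hF.fderiv_apply (0, ee c)
  rw [h1.fderiv_eq, fderiv_fun_add (hF.dbar (v, 0)).differentiableAt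
    ((ha0.smul' hF0).add (ha1.smul' hF1)).differentiableAt,
    fderiv_fun_add (ha0.smul' hF0).differentiableAt (ha1.smul' hF1).differentiableAt,
    fderiv_fun_smul ha0.differentiableAt hF0.differentiableAt,
    fderiv_fun_smul ha1.differentiableAt hF1.differentiableAt]
  simp only [_root_.add_apply, _root_.smul_apply, ContinuousLinearMap.smulRight_apply]
  rw [fderiv_dbv_eq hF.contDiffAt, sym (0, ee 0), sym (0, ee 1), DD, hFc.hol.two (a y),
    fderiv_pi2 ha.differentiableAt, fderiv_pi2 ha.differentiableAt]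
  module

end der

/-! ### flat structures -/

variable {A : Type} [NormedRing A] [NormedAlgebra ℂ A]

/-- the `(z,s)` model: `a_k`, `ε_k` on a star shaped neighbourhood of the zero section -/
structure Flat (Ω : Set VV) (a : Fin 2 → VV → V) (ε : Fin 2 → VV → A) : Prop where
  star : Star (fun _ : V => (0 : V)) Ω
  sh_a : ∀ y ∈ Ω, ∀ k, SH (a k) y
  sh_e : ∀ y ∈ Ω, ∀ k, SH (ε k) y
  a0 : ∀ z, (z, (0 : V)) ∈ Ω → ∀ k, a k (z, 0) = 0
  a1 : ∀ z, (z, (0 : V)) ∈ Ω → ∀ k i c, Ja a k i c (z, 0) = 0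
  e0 : ∀ z, (z, (0 : V)) ∈ Ω → ∀ k, ε k (z, 0) = 0
  flat_a : ∀ y ∈ Ω, DD (a 0) (ee 0) (a 1) y = DD (a 1) (ee 1) (a 0) y
  flat_e : ∀ y ∈ Ω, DD (a 0) (ee 0) (ε 1) y - DD (a 1) (ee 1) (ε 0) y =
    ε 0 y * ε 1 y - ε 1 y * ε 0 y

/-- the zero section -/
abbrev zs : V → V := fun _ => 0

/-- `α_k = ∫₀¹ (D_s a_k)(z,ts) dt` -/
def al1 (a : Fin 2 → VV → V) (k i c : Fin 2) : VV → ℂ := Rad zs (ee c) (fun y => a k y i)

/-- `γ_k = div a_k - tr α_k + ε_k` -/
def ga1 (a : Fin 2 → VV → V) (ε : Fin 2 → VV → A) (k : Fin 2) (y : VV) : A :=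
  (dv a k y - (al1 a k 0 0 y + al1 a k 1 1 y)) • (1 : A) + ε k y

/-- `Γ_k = ∫₀¹ (D_s γ_k)(z,ts) dt` -/
def Ga1 (a : Fin 2 → VV → V) (ε : Fin 2 → VV → A) (k i : Fin 2) : VV → A :=
  Rad zs (ee i) (ga1 a ε k)

/-- the curvature of `α` -/
def R1 (a : Fin 2 → VV → V) (i c : Fin 2) (y : VV) : ℂ :=
  DD (a 0) (ee 0) (al1 a 1 i c) y - DD (a 1) (ee 1) (al1 a 0 i c) y -
    ∑ e, (al1 a 0 i e y * al1 a 1 e c y - al1 a 1 i e y * al1 a 0 e c y)

/-- `κ` -/
def ka1 (a : Fin 2 → VV → V) (i : Fin 2) (y : VV) : ℂ := - Kos zs (R1 a i 0) (R1 a i 1) y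

/-- the left hand side of the equation for `Φ` -/
def X1 (a : Fin 2 → VV → V) (ε : Fin 2 → VV → A) (i : Fin 2) (y : VV) : A :=
  - wd (Pi.single i 1) (fun c => DD (a 0) (ee 0) (Ga1 a ε 1 c) y + Ga1 a ε 1 c y * gg a ε 0 y
        - DD (a 1) (ee 1) (Ga1 a ε 0 c) y - Ga1 a ε 0 c y * gg a ε 1 y)
      + wd (fun c => al1 a 0 i c y) (fun c => Ga1 a ε 1 c y)
      - wd (fun c => al1 a 1 i c y) (fun c => Ga1 a ε 0 c y) - ka1 a i y • (1 : A)

/-- `Φ` -/
def Ph1 (a : Fin 2 → VV → V) (ε : Fin 2 → VV → A) (y : VV) : A :=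
  - Kos zs (X1 a ε 1) (fun y => - X1 a ε 0 y) y

/-- the functions of the model -/
def td (a : Fin 2 → VV → V) (ε : Fin 2 → VV → A) : TData A where
  al := al1 a
  Ga := Ga1 a ε
  ka := ka1 a
  Ph := Ph1 a ε

namespace Flat

variable {Ω : Set VV} {a : Fin 2 → VV → V} {ε : Fin 2 → VV → A}

theorem shon {F : VV → W} {Ω : Set VV} (h : ∀ y ∈ Ω, SH F y) :
    ∀ x ∈ Ω, ContDiffAt ℝ ∞ F x ∧ HolW F x := fun x hx => (h x hx).self_of_nhds

theorem sh_of (h : Flat Ω a ε) {F : VV → W} (hF : ∀ x ∈ Ω, ContDiffAt ℝ ∞ F x ∧ HolW F x) :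
    ∀ y ∈ Ω, SH F y := fun y hy => h.star.sh_on hF hy

theorem base (h : Flat Ω a ε) {y : VV} (hy : y ∈ Ω) : (y.1, (0 : V)) ∈ Ω := h.star.base_mem hy

theorem sh_rad (h : Flat Ω a ε) {F : VV → W} (hF : ∀ y ∈ Ω, SH F y) (v : V) :
    ∀ y ∈ Ω, SH (Rad zs v F) y := h.sh_of (h.star.rad (shon hF) v)

theorem rad_eq2 [CompleteSpace W] (h : Flat Ω a ε) {F : VV → W} (hF : ∀ y ∈ Ω, SH F y) {y : VV}
    (hy : y ∈ Ω) :
    F y = F (y.1, 0) + (y.2 0 • Rad zs (ee 0) F y + y.2 1 • Rad zs (ee 1) F y) := by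
  have := h.star.rad_two (shon hF) hy
  simpa using this

theorem sh_al (h : Flat Ω a ε) (k i c : Fin 2) : ∀ y ∈ Ω, SH (al1 a k i c) y :=
  h.sh_rad (fun y hy => (h.sh_a y hy k).pi i) _

theorem sh_Ja (h : Flat Ω a ε) (k i c : Fin 2) : ∀ y ∈ Ω, SH (Ja a k i c) y :=
  fun y hy => ((h.sh_a y hy k).fderiv_apply (0, ee c)).pi i

theorem sh_dv (h : Flat Ω a ε) (k : Fin 2) : ∀ y ∈ Ω, SH (dv a k) y :=
  fun y hy => (h.sh_Ja k 0 0 y hy).add (h.sh_Ja k 1 1 y hy)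

theorem sh_gg (h : Flat Ω a ε) (k : Fin 2) : ∀ y ∈ Ω, SH (gg a ε k) y :=
  fun y hy => ((h.sh_dv k y hy).smul' (SH.const 1 y)).add (h.sh_e y hy k)

theorem sh_ga (h : Flat Ω a ε) (k : Fin 2) : ∀ y ∈ Ω, SH (ga1 a ε k) y :=
  fun y hy => (((h.sh_dv k y hy).sub ((h.sh_al k 0 0 y hy).add (h.sh_al k 1 1 y hy))).smul'
    (SH.const 1 y)).add (h.sh_e y hy k)

theorem sh_Ga (h : Flat Ω a ε) (k i : Fin 2) : ∀ y ∈ Ω, SH (Ga1 a ε k i) y :=
  h.sh_rad (h.sh_ga k) _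

theorem sh_DD (h : Flat Ω a ε) {F : VV → W} (hF : ∀ y ∈ Ω, SH F y) (k : Fin 2) :
    ∀ y ∈ Ω, SH (DD (a k) (ee k) F) y := by
  intro y hy
  have h1 : SH (fun y => dbv (ee k, 0) F y + (a k y 0 • fderiv ℝ F y (0, ee 0) +
      a k y 1 • fderiv ℝ F y (0, ee 1))) y :=
    ((hF y hy).dbar _).add ((((h.sh_a y hy k).pi 0).smul' ((hF y hy).fderiv_apply _)).add
      (((h.sh_a y hy k).pi 1).smul' ((hF y hy).fderiv_apply _)))
  refine h1.congr ?_
  filter_upwards [hF y hy] with z hz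
  rw [DD, hz.2.two (a k z)]

theorem sh_R (h : Flat Ω a ε) (i c : Fin 2) : ∀ y ∈ Ω, SH (R1 a i c) y := by
  intro y hy
  have hs : ∀ k i c, SH (al1 a k i c) y := fun k i c => h.sh_al k i c y hy
  exact ((h.sh_DD (h.sh_al 1 i c) 0 y hy).sub (h.sh_DD (h.sh_al 0 i c) 1 y hy)).sub
    (SH.sum fun e _ => ((hs 0 i e).mul (hs 1 e c)).sub ((hs 1 i e).mul (hs 0 e c)))

theorem sh_ka (h : Flat Ω a ε) (i : Fin 2) : ∀ y ∈ Ω, SH (ka1 a i) y := by
  intro y hy
  have := h.sh_of (h.star.kos (shon (h.sh_R i 0)) (shon (h.sh_R i 1))) y hy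
  exact this.neg

theorem sh_wd {x : Fin 2 → VV → ℂ} {c : Fin 2 → VV → A} {y : VV} (hx : ∀ i, SH (x i) y)
    (hc : ∀ i, SH (c i) y) : SH (fun y => wd (fun i => x i y) (fun i => c i y)) y :=
  ((hx 0).smul' (hc 1)).sub ((hx 1).smul' (hc 0))

theorem sh_X (h : Flat Ω a ε) (i : Fin 2) : ∀ y ∈ Ω, SH (X1 a ε i) y := by
  intro y hy
  have hal : ∀ k i c, SH (al1 a k i c) y := fun k i c => h.sh_al k i c y hy
  have hGa : ∀ k c, SH (Ga1 a ε k c) y := fun k c => h.sh_Ga k c y hy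
  have hg : ∀ k, SH (gg a ε k) y := fun k => h.sh_gg k y hy
  refine (((SH.neg ?_).add (sh_wd (fun c => hal 0 i c) fun c => hGa 1 c)).sub
    (sh_wd (fun c => hal 1 i c) fun c => hGa 0 c)).sub ((h.sh_ka i y hy).smul' (SH.const 1 y))
  refine sh_wd (x := fun j _ => (Pi.single i 1 : Fin 2 → ℂ) j) (fun j => SH.const _ y) fun c => ?_
  exact (((h.sh_DD (h.sh_Ga 1 c) 0 y hy).add ((hGa 1 c).mul (hg 0))).sub
    (h.sh_DD (h.sh_Ga 0 c) 1 y hy)).sub ((hGa 0 c).mul (hg 1))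

theorem sh_Ph (h : Flat Ω a ε) : ∀ y ∈ Ω, SH (Ph1 a ε) y := by
  intro y hy
  have := h.sh_of (h.star.kos (shon (h.sh_X 1)) (shon fun y hy => (h.sh_X 0 y hy).neg)) y hy
  exact this.neg

/-- `a_k = α_k s` -/
theorem a_eq (h : Flat Ω a ε) (k i : Fin 2) {y : VV} (hy : y ∈ Ω) :
    a k y i = al1 a k i 0 y * y.2 0 + al1 a k i 1 y * y.2 1 := by
  have h1 := h.rad_eq2 (F := fun y => a k y i) (fun y hy => (h.sh_a y hy k).pi i) hy
  have h2 : a k (y.1, 0) i = 0 := by rw [h.a0 _ (h.base hy)]; rfl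
  simp only [h2, zero_add, smul_eq_mul] at h1
  rw [h1]
  unfold al1
  ring

theorem rad_zero (F : VV → W) [CompleteSpace W] (v z : V) :
    Rad zs v F (z, 0) = fderiv ℝ F (z, 0) (0, v) := by
  unfold Rad
  have : ∀ t : ℝ, seg zs t ((z, 0) : VV) = (z, 0) := fun t => by simp [seg]
  simp only [this]
  simp

theorem al_zero (h : Flat Ω a ε) (k i c : Fin 2) {z : V} (hz : (z, (0 : V)) ∈ Ω) :
    al1 a k i c (z, 0) = 0 := by
  unfold al1
  rw [rad_zero, fderiv_pi2 (h.sh_a _ hz k).differentiableAt]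
  exact h.a1 z hz k i c

variable [CompleteSpace A]

/-- `g_k = tr α_k + Γ_k(s)` -/
theorem g_eq (h : Flat Ω a ε) (k : Fin 2) {y : VV} (hy : y ∈ Ω) :
    gg a ε k y = (al1 a k 0 0 y + al1 a k 1 1 y) • (1 : A) +
      (y.2 0 • Ga1 a ε k 0 y + y.2 1 • Ga1 a ε k 1 y) := by
  have h1 := h.rad_eq2 (h.sh_ga k) hy
  have hb := h.base hy
  have h2 : ga1 a ε k (y.1, 0) = 0 := by
    unfold ga1 dv
    rw [h.a1 _ hb, h.a1 _ hb, h.al_zero _ _ _ hb, h.al_zero _ _ _ hb, h.e0 _ hb]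
    simp
  rw [h2, zero_add] at h1
  unfold Ga1
  rw [← h1]
  unfold gg ga1
  module

theorem cong {F G : VV → W} (h : Flat Ω a ε) {y : VV} (hy : y ∈ Ω) (hFG : ∀ y ∈ Ω, F y = G y) :
    F =ᶠ[𝓝 y] G := by
  filter_upwards [h.star.isOpen.mem_nhds hy] with z hz using hFG z hz

/-- the derivative of `Σ f_c s_c` -/
theorem DD_pair {f₀ f₁ : VV → W} {b : VV → V} {v : V} {y : VV} (h0 : DifferentiableAt ℝ f₀ y)
    (h1 : DifferentiableAt ℝ f₁ y) :
    DD b v (fun y => y.2 0 • f₀ y + y.2 1 • f₁ y) y =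
      (b y 0 • f₀ y + b y 1 • f₁ y) + (y.2 0 • DD b v f₀ y + y.2 1 • DD b v f₁ y) := by
  have d0 : DifferentiableAt ℝ (fun y : VV => y.2 0) y := (SH.coord 0 y).differentiableAt
  have d1 : DifferentiableAt ℝ (fun y : VV => y.2 1) y := (SH.coord 1 y).differentiableAt
  have s0 : DifferentiableAt ℝ (fun y : VV => y.2 0 • f₀ y) y := d0.smul h0
  have s1 : DifferentiableAt ℝ (fun y : VV => y.2 1 • f₁ y) y := d1.smul h1
  rw [DD_add s0 s1, DD_smul d0 h0, DD_smul d1 h1, DD_coord, DD_coord]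
  abel

/-- `R s = 0` -/
theorem R_s (h : Flat Ω a ε) (i : Fin 2) {y : VV} (hy : y ∈ Ω) :
    y.2 0 * R1 a i 0 y + y.2 1 * R1 a i 1 y = 0 := by
  have d : ∀ k i c, DifferentiableAt ℝ (al1 a k i c) y :=
    fun k i c => (h.sh_al k i c y hy).differentiableAt
  have key : ∀ j k : Fin 2, DD (a j) (ee j) (a k) y i =
      (a j y 0 * al1 a k i 0 y + a j y 1 * al1 a k i 1 y) +
      (y.2 0 * DD (a j) (ee j) (al1 a k i 0) y + y.2 1 * DD (a j) (ee j) (al1 a k i 1) y) := by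
    intro j k
    rw [← DD_pi (h.sh_a y hy k).differentiableAt]
    have h1 : (fun y => a k y i) =ᶠ[𝓝 y] fun y => y.2 0 • al1 a k i 0 y + y.2 1 • al1 a k i 1 y :=
      h.cong hy fun z hz => by
        rw [h.a_eq k i hz]
        simp only [smul_eq_mul]
        ring
    rw [DD_congr h1, DD_pair (d k i 0) (d k i 1)]
    simp only [smul_eq_mul]
  have h1 := congrFun (h.flat_a y hy) i
  rw [key 0 1, key 1 0, h.a_eq 0 0 hy, h.a_eq 0 1 hy, h.a_eq 1 0 hy, h.a_eq 1 1 hy] at h1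
  unfold R1
  simp only [Fin.sum_univ_two]
  linear_combination h1

/-- the equation for `κ` -/
theorem R_eq (h : Flat Ω a ε) (i c : Fin 2) {y : VV} (hy : y ∈ Ω) :
    R1 a i c y = - ka1 a i y * (![- y.2 1, y.2 0] : Fin 2 → ℂ) c := by
  have h1 := h.star.kos_eq (shon (h.sh_R i 0)) (shon (h.sh_R i 1))
    (fun y hy => by simpa using h.R_s i hy) hy
  simp only [Pi.zero_apply, sub_zero, smul_eq_mul] at h1
  fin_cases c
  · show R1 a i 0 y = - ka1 a i y * (- y.2 1)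
    rw [h1.1, ka1]
    ring
  · show R1 a i 1 y = - ka1 a i y * (y.2 0)
    rw [h1.2, ka1]
    ring

/-- flatness of the divergences -/
theorem flat_dv (h : Flat Ω a ε) {y : VV} (hy : y ∈ Ω) :
    DD (a 0) (ee 0) (dv a 1) y = DD (a 1) (ee 1) (dv a 0) y := by
  have key : ∀ (j k i : Fin 2), fderiv ℝ (DD (a j) (ee j) (a k)) y (0, ee i) i =
      DD (a j) (ee j) (Ja a k i i) y + (Ja a j 0 i y * Ja a k i 0 y + Ja a j 1 i y * Ja a k i 1 y)
      := by
    intro j k i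
    rw [fderiv_DD (h.sh_a y hy j) (h.sh_a y hy k)]
    simp only [Pi.add_apply, Pi.smul_apply, smul_eq_mul]
    rw [← DD_pi ((h.sh_a y hy k).fderiv_apply _).differentiableAt]
    rfl
  have hfl : ∀ i : Fin 2, fderiv ℝ (DD (a 0) (ee 0) (a 1)) y (0, ee i) i =
      fderiv ℝ (DD (a 1) (ee 1) (a 0)) y (0, ee i) i := by
    intro i
    rw [(h.cong hy h.flat_a).fderiv_eq]
  have e0 := hfl 0
  have e1 := hfl 1
  rw [key 0 1, key 1 0] at e0 e1
  have hJ : ∀ k i c, DifferentiableAt ℝ (Ja a k i c) y :=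
    fun k i c => (h.sh_Ja k i c y hy).differentiableAt
  have h3 : ∀ j k : Fin 2, DD (a j) (ee j) (dv a k) y =
      DD (a j) (ee j) (Ja a k 0 0) y + DD (a j) (ee j) (Ja a k 1 1) y :=
    fun j k => DD_add (hJ k 0 0) (hJ k 1 1)
  rw [h3, h3]
  linear_combination e0 + e1

/-- flatness of `g` -/
theorem flat_g (h : Flat Ω a ε) {y : VV} (hy : y ∈ Ω) :
    DD (a 0) (ee 0) (gg a ε 1) y - DD (a 1) (ee 1) (gg a ε 0) y =
      gg a ε 0 y * gg a ε 1 y - gg a ε 1 y * gg a ε 0 y := by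
  have hd : ∀ k, DifferentiableAt ℝ (dv a k) y := fun k => (h.sh_dv k y hy).differentiableAt
  have he : ∀ k, DifferentiableAt ℝ (ε k) y := fun k => (h.sh_e y hy k).differentiableAt
  have key : ∀ j k : Fin 2, DD (a j) (ee j) (gg a ε k) y =
      DD (a j) (ee j) (dv a k) y • (1 : A) + DD (a j) (ee j) (ε k) y := by
    intro j k
    have h1 : DD (a j) (ee j) (gg a ε k) y = DD (a j) (ee j) (fun y => dv a k y • (1 : A)) y +
        DD (a j) (ee j) (ε k) y :=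
      DD_add ((hd k).smul (differentiableAt_const _)) (he k)
    rw [h1, DD_smul (hd k) (differentiableAt_const _), DD_const, smul_zero, add_zero]
  rw [key, key, h.flat_dv hy]
  have h2 := h.flat_e y hy
  have h3 : gg a ε 0 y * gg a ε 1 y - gg a ε 1 y * gg a ε 0 y =
      ε 0 y * ε 1 y - ε 1 y * ε 0 y := by
    unfold gg
    simp only [add_mul, mul_add, smul_mul_assoc, mul_smul_comm, one_mul, mul_one]
    module
  rw [h3, ← h2]
  abel

omit [NormedRing A] [NormedAlgebra ℂ A] [CompleteSpace A] in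
theorem alg_key [Ring A] [Algebra ℂ A] {u0 u1 k0 k1 T x00 x01 x10 x11 w00 w01 w10 w11 : ℂ}
    {p0 p1 q0 q1 G00 G01 G10 G11 g0 g1 : A}
    (hg0 : g0 = (x00 + x11) • (1 : A) + (u0 • G00 + u1 • G01))
    (hg1 : g1 = (w00 + w11) • (1 : A) + (u0 • G10 + u1 • G11))
    (hfl : (T + (k0 * u1 - k1 * u0)) • (1 : A) + (((x00 * u0 + x01 * u1) • G10 +
      (x10 * u0 + x11 * u1) • G11) + (u0 • p0 + u1 • p1)) - (T • (1 : A) +
      (((w00 * u0 + w01 * u1) • G00 + (w10 * u0 + w11 * u1) • G01) + (u0 • q0 + u1 • q1))) =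
      g0 * g1 - g1 * g0) :
    u0 • ((p0 + G10 * g0 - q0 - G00 * g1) + (x10 • G11 - x11 • G10) - (w10 • G01 - w11 • G00)
      - k1 • (1 : A)) - u1 • (- (p1 + G11 * g0 - q1 - G01 * g1) + (x00 • G11 - x01 • G10) -
      (w00 • G01 - w01 • G00) - k0 • (1 : A)) = 0 := by
  have e1 : u0 • (G10 * g0) + u1 • (G11 * g0) = g1 * g0 - (w00 + w11) • g0 := by
    have : u0 • G10 + u1 • G11 = g1 - (w00 + w11) • (1 : A) := by rw [hg1]; abel
    rw [← smul_mul_assoc, ← smul_mul_assoc, ← add_mul, this, sub_mul, smul_mul_assoc, one_mul]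
  have e2 : u0 • (G00 * g1) + u1 • (G01 * g1) = g0 * g1 - (x00 + x11) • g1 := by
    have : u0 • G00 + u1 • G01 = g0 - (x00 + x11) • (1 : A) := by rw [hg0]; abel
    rw [← smul_mul_assoc, ← smul_mul_assoc, ← add_mul, this, sub_mul, smul_mul_assoc, one_mul]
  linear_combination (norm := module) e1 - e2 + hfl - (w00 + w11) • hg0 +
    (x00 + x11) • hg1

/-- the equation which allows to divide -/
theorem X_s (h : Flat Ω a ε) {y : VV} (hy : y ∈ Ω) :
    y.2 0 • X1 a ε 1 y + y.2 1 • (- X1 a ε 0 y) = 0 := by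
  have dal : ∀ k i c, DifferentiableAt ℝ (al1 a k i c) y :=
    fun k i c => (h.sh_al k i c y hy).differentiableAt
  have dGa : ∀ k c, DifferentiableAt ℝ (Ga1 a ε k c) y :=
    fun k c => (h.sh_Ga k c y hy).differentiableAt
  have cn : ∀ j k : Fin 2, DD (a j) (ee j) (gg a ε k) y =
      (DD (a j) (ee j) (al1 a k 0 0) y + DD (a j) (ee j) (al1 a k 1 1) y) • (1 : A) +
      ((a j y 0 • Ga1 a ε k 0 y + a j y 1 • Ga1 a ε k 1 y) +
      (y.2 0 • DD (a j) (ee j) (Ga1 a ε k 0) y + y.2 1 • DD (a j) (ee j) (Ga1 a ε k 1) y)) := by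
    intro j k
    have h1 : gg a ε k =ᶠ[𝓝 y] fun y => (al1 a k 0 0 y + al1 a k 1 1 y) • (1 : A) +
      (y.2 0 • Ga1 a ε k 0 y + y.2 1 • Ga1 a ε k 1 y) := h.cong hy fun z hz => h.g_eq k hz
    have d0 : DifferentiableAt ℝ (fun y : VV => y.2 0) y := (SH.coord 0 y).differentiableAt
    have d1 : DifferentiableAt ℝ (fun y : VV => y.2 1) y := (SH.coord 1 y).differentiableAt
    have s0 : DifferentiableAt ℝ (fun y : VV => al1 a k 0 0 y + al1 a k 1 1 y) y :=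
      (dal k 0 0).add (dal k 1 1)
    have s1 : DifferentiableAt ℝ (fun y : VV => (al1 a k 0 0 y + al1 a k 1 1 y) • (1 : A)) y :=
      s0.smul (differentiableAt_const _)
    have s2 : DifferentiableAt ℝ
        (fun y : VV => y.2 0 • Ga1 a ε k 0 y + y.2 1 • Ga1 a ε k 1 y) y :=
      (d0.smul (dGa k 0)).add (d1.smul (dGa k 1))
    rw [DD_congr h1, DD_add s1 s2, DD_smul s0 (differentiableAt_const _), DD_const, smul_zero,
      add_zero, DD_add (dal k 0 0) (dal k 1 1), DD_pair (dGa k 0) (dGa k 1)]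
  have hfl := h.flat_g hy
  rw [cn 0 1, cn 1 0] at hfl
  have r0 := h.R_eq 0 0 hy
  have r1 := h.R_eq 1 1 hy
  have r0' : R1 a 0 0 y = ka1 a 0 y * y.2 1 := by rw [r0]; simp
  have r1' : R1 a 1 1 y = - (ka1 a 1 y * y.2 0) := by rw [r1]; simp
  unfold R1 at r0' r1'
  simp only [Fin.sum_univ_two] at r0' r1'
  -- the trace of the curvature
  have tr : (DD (a 0) (ee 0) (al1 a 1 0 0) y + DD (a 0) (ee 0) (al1 a 1 1 1) y) -
      (DD (a 1) (ee 1) (al1 a 0 0 0) y + DD (a 1) (ee 1) (al1 a 0 1 1) y) =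
      ka1 a 0 y * y.2 1 - ka1 a 1 y * y.2 0 := by
    linear_combination r0' + r1'
  have tr' : DD (a 0) (ee 0) (al1 a 1 0 0) y + DD (a 0) (ee 0) (al1 a 1 1 1) y =
      (DD (a 1) (ee 1) (al1 a 0 0 0) y + DD (a 1) (ee 1) (al1 a 0 1 1) y) +
      (ka1 a 0 y * y.2 1 - ka1 a 1 y * y.2 0) := by
    linear_combination tr
  rw [tr', h.a_eq 0 0 hy, h.a_eq 0 1 hy, h.a_eq 1 0 hy, h.a_eq 1 1 hy] at hfl
  unfold X1
  have g0 := h.g_eq 0 hy
  have g1 := h.g_eq 1 hy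
  have key := alg_key g0 g1 hfl
  rw [← key]
  simp only [wd, Pi.single_eq_same, ne_eq, one_ne_zero, zero_ne_one, not_false_eq_true,
    Pi.single_eq_of_ne, one_smul, zero_smul]
  module

/-- the equation for `Φ` -/
theorem X_eq (h : Flat Ω a ε) (i : Fin 2) {y : VV} (hy : y ∈ Ω) :
    X1 a ε i y = y.2 i • Ph1 a ε y := by
  have h1 := h.star.kos_eq (shon (h.sh_X 1)) (shon fun y hy => (h.sh_X 0 y hy).neg)
    (fun y hy => by simpa using h.X_s hy) hy
  simp only [Pi.zero_apply, sub_zero] at h1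
  fin_cases i
  · show X1 a ε 0 y = y.2 0 • Ph1 a ε y
    have h2 := h1.2
    rw [Ph1, smul_neg, ← h2, neg_neg]
  · show X1 a ε 1 y = y.2 1 • Ph1 a ε y
    rw [Ph1, smul_neg, ← h1.1]

/-- **the relations of the `(z,s)` model** -/
theorem trel (h : Flat Ω a ε) : TRel (td a ε) Ω a ε where
  sh_al := fun y hy k i c => h.sh_al k i c y hy
  sh_Ga := fun y hy k i => h.sh_Ga k i y hy
  sh_ka := fun y hy i => h.sh_ka i y hy
  sh_Ph := h.sh_Ph
  t1 := by
    intro y hy k i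
    rw [h.a_eq k i hy, Fin.sum_univ_two]
    rfl
  t2 := fun y hy k => h.g_eq k hy
  t3 := fun y hy i c => h.R_eq i c hy
  t4 := fun y hy i => h.X_eq i hy

end Flat

/-- the `(z,s)` model of `s`, `τ` -/
theorem Inp.flat [CompleteSpace A] {Ω : Set V} {s : VV → V} {τ : VV → A} (h : Inp Ω s τ) :
    Flat (dW1 Ω s τ) (aa Ω s τ) (ep1 Ω s τ) where
  star := h.star
  sh_a := fun y hy k => h.sh_aa k hy
  sh_e := fun y hy k => h.sh_ep1 k hy
  a0 := fun z hz k => h.aa_zero k (h.dW1_fst hz)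
  a1 := fun z hz k i c => h.Ja_zero k i c (h.dW1_fst hz)
  e0 := fun z hz k => h.ep1_zero k (h.dW1_fst hz)
  flat_a := fun y hy => h.flat_aa hy 0 1
  flat_e := fun y hy => h.flat_ep1 hy 0 1

/-- the canonical data in the coordinates `(z,w)` -/
def kdat (Ω : Set V) (s : VV → V) (τ : VV → A) (b : Fin 2 → VV → ℂ) : KData A :=
  kd Ω s τ (td (aa Ω s τ) (ep1 Ω s τ)) b

/-- **RRK-DATA in one chart** -/
theorem Inp.kdat_rel [CompleteSpace A] {Ω : Set V} {s : VV → V} {τ : VV → A} (h : Inp Ω s τ)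
    {b : Fin 2 → VV → ℂ} (hb : ∀ i, ContDiffOn ℝ ∞ (b i) (dU Ω s τ)) :
    (kdat Ω s τ b).Rel (dU Ω s τ) := h.rel h.flat.trel hb

end

end Vale.Agent.P267.H734
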