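import Vale.Agent.P267.H955.Near
import Vale.Agent.P267.H955.Dens
import Vale.Agent.P267.H734.Cov5
import Vale.Agent.P267.H734.LimD

/-!
# P267 / H734: the canonical data of a holomorphic bundle on a compact surface

`exists_glued`: for a finite atlas `A` and a holomorphic bundle `B` there are compatible data near
the diagonal in all charts (`H955.Glued`), and the trace of `Φ` on the diagonal is minus the
Riemann-Roch density.
-/

set_option linter.unusedSectionVars false
set_option linter.unusedVariables false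

open scoped Manifold ContDiff Topology ComplexConjugate Matrix
open Set Filter Metric Vale.Agent.P267.H315 Vale.Agent.P267.H734 Vale.Agent.P267.FL
  Vale.Agent.P267.RR Vale.Agent.P267.H156 Vale.Agent.P267.H955

noncomputable section

namespace Vale.Agent.P267.H734

variable {X : Type*} [TopologicalSpace X] [ChartedSpace C2 X] [IsManifold 𝓘(ℂ, C2) ω X]

/-- the Jacobian matrix of the change of coordinates -/
theorem jc_tau {A : FinAt X} {a b : Fin A.N} {z : V} (hz : z ∈ A.ov a b) :
    jc (A.tau a b) z = A.J a b z := by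
  funext p c
  exact Jm_eq A hz p c

theorem dt_J_ne {A : FinAt X} {a b : Fin A.N} {z : V} (hz : z ∈ A.ov a b) :
    dt (A.J a b z) ≠ 0 := by
  have h := congrArg Matrix.det (FinAt.J_mul_inv' hz)
  rw [Matrix.det_mul, Matrix.det_one] at h
  have h2 : dt (A.J a b z) = (A.J a b z).det := by
    rw [Matrix.det_fin_two]
    rfl
  rw [h2]
  exact right_ne_zero_of_mul_eq_one h

/-- smoothness of `b` -/
theorem sb_glued {A : FinAt X} {r : ℕ} (B : Bun A r) (a : Fin A.N) (i : Fin 2) :
    ContDiffOn ℝ ∞ (bb ((lat A).h a) ((lat A).s a) i)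
      (dU (A.ov a a) ((lat A).s a) ((lbun B).t a)) := by
  have hI : Inp (A.ov a a) ((lat A).s a) ((lbun B).t a) := (lbun B).inp a
  intro x hx
  have h1 : x.1 ∈ (lat A).ov a a := Inp.dO_fst (hI.dU_sub hx)
  exact (contDiffAt_bb (fun p c => LAt.h_smooth h1 p c)
    (Inp.dO_sh_s (hI.dU_sub hx)).contDiffAt i).contDiffWithinAt

/-- the data in two charts -/
theorem covB_glued {A : FinAt X} {r : ℕ} (B : Bun A r) {a b : Fin A.N} {z : V}
    (hz : z ∈ A.ov a b) :
    CovB (A.ov a a) ((lat A).s a) ((lbun B).t a) (bb ((lat A).h a) ((lat A).s a))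
      (A.ov b b) ((lat A).s b) ((lbun B).t b) (bb ((lat A).h b) ((lat A).s b))
      (A.tau a b) (fun z => mL (B.E a b z)) z := by
  have hz' : z ∈ (lat A).ov a b := hz
  have hnear : ∀ᶠ x : VV in 𝓝 (z, z), x.1 ∈ (lat A).ov a b ∧ x.2 ∈ (lat A).ov a b ∧
      (lat A).Nr a x := by
    filter_upwards [LAt.diag_mem hz', LAt.nr_near ((lat A).ov_sub hz')] with x h1 h2
    exact ⟨h1.1, h1.2, h2⟩
  exact
  { inp := (lbun B).inp a
    inp' := (lbun B).inp b
    mem := (lat A).ov_sub hz'
    mem' := LAt.ta_mem'' hz'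
    hψ := by
      filter_upwards [(A.isOpen_ov a b).mem_nhds hz] with w hw
      exact (lat A).hol hw
    he := by
      filter_upwards [(A.isOpen_ov a b).mem_nhds hz] with w hw
      exact (lbun B).hol hw
    dt_ne := by
      rw [jc_tau hz]
      exact dt_J_ne hz
    hs := by
      filter_upwards [hnear] with x hx p
      have h1 : (lat A).s b ((lat A).tt a b x) = (lat A).J a b x.1 ((lat A).s a x) :=
        LAt.s_trans hx.1 hx.2.1 hx.2.2
      have h2 : (lat A).s b (Ph2 (A.tau a b) x) p = (lat A).J a b x.1 ((lat A).s a x) p :=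
        congrFun h1 p
      rw [h2, LAt.J_apply]
      rfl
    ht := by
      filter_upwards [hnear] with x hx
      exact LBun.t_trans (B := lbun B) hx.1 hx.2.1 hx.2.2
    sb := sb_glued B a
    sb' := sb_glued B b
    hb := by
      filter_upwards [hnear] with x hx c
      exact LAt.b_trans hx.1 hx.2.1 hx.2.2 c }

/-- **the canonical data** -/
def glued {A : FinAt X} {r : ℕ} (B : Bun A r) : Glued A B where
  D a := kdat (A.ov a a) ((lat A).s a) ((lbun B).t a) (bb ((lat A).h a) ((lat A).s a))
  Ud a := dU (A.ov a a) ((lat A).s a) ((lbun B).t a)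
  h := (lat A).h
  lim a := by
    have hI : Inp (A.ov a a) ((lat A).s a) ((lbun B).t a) := (lbun B).inp a
    have h1 := hI.limHyp (h := (lat A).h a)
      (fun p c z hz => (LAt.h_smooth (T := lat A) hz p c).contDiffWithinAt)
      (fun z _ => LAt.h_herm a z)
      (fun z hz => LAt.h_pos (T := lat A) hz)
      (fun z hz => LAt.det_pos (T := lat A) hz)
    rw [← ov_self_eq A a]
    exact h1
  compat := by
    intro a b z hz
    have hz' : z ∈ (lat A).ov a b := hz
    filter_upwards [(covB_glued B hz).compat, LAt.diag_mem hz'] with x hx h2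
    have e1 : jc (A.tau a b) x.1 = A.J a b x.1 := jc_tau h2.1
    have e2 : jc (A.tau a b) x.2 = A.J a b x.2 := jc_tau h2.2
    rw [e1, e2] at hx
    exact hx

/-- **existence of compatible data, with the trace of `Φ` on the diagonal** -/
theorem exists_glued {A : FinAt X} {r : ℕ} (B : Bun A r) :
    ∃ G : Glued A B, ∀ a, ∀ z ∈ A.O a, trL ((G.D a).Ph (z, z)) =
      - H509.dens (fun b x => (A.rho b x : ℂ)) (A.e a) (A.J a) (B.E a) z := by
  refine ⟨glued B, fun a z hz => ?_⟩
  rw [← tr_Ph B hz]
  have hI : Inp (A.ov a a) ((lat A).s a) ((lbun B).t a) := (lbun B).inp a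
  have hz' : z ∈ A.ov a a := FinAt.mem_ov_self hz
  have h1 : ((glued B).D a).Ph (z, z) = Ph1 (aa (A.ov a a) ((lat A).s a) ((lbun B).t a))
      (ep1 (A.ov a a) ((lat A).s a) ((lbun B).t a)) (Xi ((lat A).s a) (z, z)) := rfl
  rw [h1, hI.Xi_diag hz']

end Vale.Agent.P267.H734
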