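import Vale.Agent.P267.H734.Rad
import Mathlib.Analysis.Calculus.InverseFunctionTheorem.ContDiff
import Mathlib.Analysis.Calculus.MeanValue

/-! P267 / H734: the fibrewise inverse `w = e(p,y)` of `y = s(p,w)` near a section `w = c(p)`,
smooth in `(p,y)` and holomorphic in `y`, on a neighbourhood of the zero section. -/

set_option linter.unusedSectionVars false

namespace Vale.Agent.P267.H734

open scoped ContDiff Topology NNReal
open Set Filter MeasureTheory

noncomputable section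

variable {P : Type} [NormedAddCommGroup P] [NormedSpace ℝ P]
  {E : Type} [NormedAddCommGroup E] [NormedSpace ℂ E]
  {W : Type} [NormedAddCommGroup W] [NormedSpace ℂ W]

/-- the partial derivative in the second variable -/
def dW (s : P × E → W) (x : P × E) : E →L[ℝ] W :=
  (fderiv ℝ s x).comp (ContinuousLinearMap.inr ℝ P E)

theorem dW_apply (s : P × E → W) (x : P × E) (v : E) : dW s x v = fderiv ℝ s x (0, v) := rfl

/-- near `p`, the balls of radius `r` around the section are in `O` -/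
def Good (c : P → E) (O : Set (P × E)) (r : ℝ) (p : P) : Prop :=
  ∀ᶠ q in 𝓝 p, ∀ w, ‖w - c q‖ < r → (q, w) ∈ O

/-- the tube around the section in `O` -/
def tub (c : P → E) (O : Set (P × E)) : Set (P × E) :=
  {x | ∃ r, ‖x.2 - c x.1‖ < r ∧ Good c O r x.1}

/-- the tube around the zero section on which the inverse is defined -/
def half (c : P → E) (O : Set (P × E)) : Set (P × E) :=
  {y | ∃ r, 2 * ‖y.2‖ < r ∧ Good c O r y.1}

theorem tub_subset {c : P → E} {O : Set (P × E)} {x : P × E} (hx : x ∈ tub c O) : x ∈ O := by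
  obtain ⟨r, hr, hg⟩ := hx
  exact hg.self_of_nhds x.2 hr

theorem Good.section_mem {c : P → E} {O : Set (P × E)} {r : ℝ} {p : P} (h : Good c O r p)
    (hr : 0 < r) : (p, c p) ∈ O := h.self_of_nhds (c p) (by simpa using hr)

/-- `O` is an open set on which `s` is smooth, holomorphic in `w`, with `∂_w s` near `1`, and `s`
vanishes on the section -/
structure IsSec (c : P → E) (s : P × E → E) (O : Set (P × E)) : Prop where
  isOpen : IsOpen O
  smooth_c : ∀ x ∈ O, ContDiffAt ℝ ∞ c x.1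
  sh : ∀ x ∈ O, ContDiffAt ℝ ∞ s x ∧ HolW s x
  small : ∀ x ∈ O, ‖dW s x - 1‖ ≤ 1 / 2
  zero : ∀ p, (p, c p) ∈ O → s (p, c p) = 0

namespace IsSec

variable {c : P → E} {s : P × E → E} {O : Set (P × E)}

theorem isOpen_tub (h : IsSec c s O) : IsOpen (tub c O) := by
  rw [isOpen_iff_mem_nhds]
  rintro x ⟨r, hr, hg⟩
  have hc : ContinuousAt c x.1 := (h.smooth_c x (tub_subset ⟨r, hr, hg⟩)).continuousAt
  have h1 : ContinuousAt (fun y : P × E => ‖y.2 - c y.1‖) x :=
    (continuousAt_snd.sub (ContinuousAt.comp (f := Prod.fst) hc continuousAt_fst)).norm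
  have h2 : ∀ᶠ y in 𝓝 x, ‖y.2 - c y.1‖ < r := h1.eventually (gt_mem_nhds hr)
  have h3 : ∀ᶠ y in 𝓝 x, Good c O r y.1 :=
    (continuousAt_fst (p := x)).eventually hg.eventually_nhds
  filter_upwards [h2, h3] with y h4 h5 using ⟨r, h4, h5⟩

theorem isOpen_half : IsOpen (half c O) := by
  rw [isOpen_iff_mem_nhds]
  rintro y ⟨r, hr, hg⟩
  have h1 : ContinuousAt (fun y : P × E => 2 * ‖y.2‖) y := by fun_prop
  have h2 : ∀ᶠ y in 𝓝 y, 2 * ‖y.2‖ < r := h1.eventually (gt_mem_nhds hr)
  have h3 : ∀ᶠ y in 𝓝 y, Good c O r y.1 :=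
    (continuousAt_fst (p := y)).eventually hg.eventually_nhds
  filter_upwards [h2, h3] with y h4 h5 using ⟨r, h4, h5⟩

theorem good (h : IsSec c s O) {p : P} (hp : (p, c p) ∈ O) : ∃ r, 0 < r ∧ Good c O r p := by
  have hc : ContinuousAt c p := (h.smooth_c (p, c p) hp).continuousAt
  have hO := h.isOpen.mem_nhds hp
  rw [nhds_prod_eq, Filter.mem_prod_iff] at hO
  obtain ⟨A, hA, B, hB, hAB⟩ := hO
  obtain ⟨r, hr, hrB⟩ := Metric.mem_nhds_iff.1 hB
  refine ⟨r / 2, half_pos hr, ?_⟩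
  have h1 : ∀ᶠ q in 𝓝 p, c q ∈ Metric.ball (c p) (r / 2) :=
    hc.eventually (Metric.ball_mem_nhds _ (half_pos hr))
  filter_upwards [hA, h1] with q hq1 hq2 w hw
  refine hAB ⟨hq1, hrB ?_⟩
  rw [Metric.mem_ball, dist_eq_norm] at hq2 ⊢
  calc ‖w - c p‖ = ‖(w - c q) + (c q - c p)‖ := by congr 1; abel
    _ ≤ ‖w - c q‖ + ‖c q - c p‖ := norm_add_le _ _
    _ < r / 2 + r / 2 := add_lt_add hw hq2
    _ = r := by ring

theorem mem_tub (h : IsSec c s O) {p : P} (hp : (p, c p) ∈ O) : (p, c p) ∈ tub c O := by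
  obtain ⟨r, hr, hg⟩ := h.good hp
  exact ⟨r, by simpa using hr, hg⟩

theorem mem_half (h : IsSec c s O) {p : P} (hp : (p, c p) ∈ O) : (p, (0 : E)) ∈ half c O := by
  obtain ⟨r, hr, hg⟩ := h.good hp
  exact ⟨r, by simpa using hr, hg⟩

theorem half_section {y : P × E} (hy : y ∈ half c O) : (y.1, c y.1) ∈ O := by
  obtain ⟨r, hr, hg⟩ := hy
  exact hg.section_mem (lt_of_le_of_lt (by positivity) hr)

theorem tub_section {y : P × E} (hy : y ∈ tub c O) : (y.1, c y.1) ∈ O := by
  obtain ⟨r, hr, hg⟩ := hy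
  exact hg.section_mem (lt_of_le_of_lt (norm_nonneg _) hr)

/-- `half` is star shaped around the zero section -/
theorem star_half : Star (fun _ : P => (0 : E)) (half c O) where
  isOpen := isOpen_half
  smooth := fun _ _ => contDiffAt_const
  seg_mem := by
    rintro y ⟨r, hr, hg⟩ t ht
    refine ⟨r, ?_, hg⟩
    have h1 : (seg (fun _ : P => (0 : E)) t y).2 = t • y.2 := by simp [seg]
    rw [h1, norm_smul, Real.norm_of_nonneg ht.1]
    have h2 : t * ‖y.2‖ ≤ 1 * ‖y.2‖ := mul_le_mul_of_nonneg_right ht.2 (norm_nonneg _)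
    linarith

theorem hasFDerivAt_fib (h : IsSec c s O) {p : P} {w : E} (hw : (p, w) ∈ O) :
    HasFDerivAt (fun w => s (p, w)) (dW s (p, w)) w :=
  HasFDerivAt.comp w (((h.sh _ hw).1.differentiableAt (by simp)).hasFDerivAt)
    (hasFDerivAt_prodMk_right p w)

theorem approx (h : IsSec c s O) {p : P} {r : ℝ} (hr : ∀ w, ‖w - c p‖ < r → (p, w) ∈ O) :
    ApproximatesLinearOn (fun w => s (p, w)) (ContinuousLinearMap.id ℝ E)
      (Metric.ball (c p) r) (1 / 2 : ℝ≥0) := by
  intro x hx y hy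
  have hmem : ∀ w ∈ Metric.ball (c p) r, (p, w) ∈ O := fun w hw =>
    hr w (by rwa [Metric.mem_ball, dist_eq_norm] at hw)
  have := (convex_ball (c p) r).norm_image_sub_le_of_norm_hasFDerivWithin_le'
    (f := fun w => s (p, w)) (f' := fun w => dW s (p, w)) (φ := ContinuousLinearMap.id ℝ E)
    (C := 1 / 2) (fun w hw => (h.hasFDerivAt_fib (hmem w hw)).hasFDerivWithinAt)
    (fun w hw => h.small _ (hmem w hw)) hy hx
  simpa using this

theorem inj (h : IsSec c s O) {p : P} {w w' : E} (hw : (p, w) ∈ tub c O)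
    (hw' : (p, w') ∈ tub c O) (hs : s (p, w) = s (p, w')) : w = w' := by
  obtain ⟨r, hr, hg⟩ := hw
  obtain ⟨r', hr', hg'⟩ := hw'
  have key : ∀ R, Good c O R p → ‖w - c p‖ < R → ‖w' - c p‖ < R → w = w' := by
    intro R hR h1 h2
    have h3 := h.approx (hR.self_of_nhds) w (by rwa [Metric.mem_ball, dist_eq_norm]) w'
      (by rwa [Metric.mem_ball, dist_eq_norm])
    beta_reduce at h3
    rw [hs] at h3
    simp only [sub_self, ContinuousLinearMap.coe_id', id_eq, zero_sub, norm_neg] at h3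
    have h4 : ‖w - w'‖ ≤ 1 / 2 * ‖w - w'‖ := by simpa using h3
    have h5 : ‖w - w'‖ = 0 := by
      have := norm_nonneg (w - w')
      linarith
    exact sub_eq_zero.1 (norm_eq_zero.1 h5)
  rcases le_total r r' with h1 | h1
  · exact key r' hg' (lt_of_lt_of_le hr h1) hr'
  · exact key r hg hr (lt_of_lt_of_le hr' h1)

end IsSec

open Classical in
/-- the fibrewise inverse of `s` -/
def inv (c : P → E) (s : P × E → E) (O : Set (P × E)) (y : P × E) : E :=
  if h : ∃ w, (y.1, w) ∈ tub c O ∧ s (y.1, w) = y.2 then h.choose else 0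

namespace IsSec

variable {c : P → E} {s : P × E → E} {O : Set (P × E)}

theorem inv_eq (h : IsSec c s O) {x : P × E} (hx : x ∈ tub c O) :
    inv c s O (x.1, s x) = x.2 := by
  have hex : ∃ w, ((x.1, s x).1, w) ∈ tub c O ∧ s ((x.1, s x).1, w) = (x.1, s x).2 :=
    ⟨x.2, hx, rfl⟩
  unfold inv
  rw [dif_pos hex]
  exact h.inj hex.choose_spec.1 hx hex.choose_spec.2

variable [CompleteSpace E]

theorem exists_sol (h : IsSec c s O) {y : P × E} (hy : y ∈ half c O) :
    ∃ w, (y.1, w) ∈ tub c O ∧ s (y.1, w) = y.2 ∧ ‖w - c y.1‖ ≤ 2 * ‖y.2‖ := by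
  obtain ⟨r, hr, hg⟩ := hy
  let N : (ContinuousLinearMap.id ℝ E).NonlinearRightInverse :=
    { toFun := id
      nnnorm := 1
      bound' := fun y => by simp
      right_inv' := fun y => by simp }
  have h1 := (h.approx hg.self_of_nhds).surjOn_closedBall_of_nonlinearRightInverse N
    (ε := 2 * ‖y.2‖) (b := c y.1) (by positivity) (Metric.closedBall_subset_ball hr)
  have h2 : y.2 ∈ Metric.closedBall ((fun w => s (y.1, w)) (c y.1))
      (((N.nnnorm : ℝ)⁻¹ - ((1 / 2 : ℝ≥0) : ℝ)) * (2 * ‖y.2‖)) := by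
    have h3 : s (y.1, c y.1) = 0 := h.zero _ (hg.section_mem (lt_of_le_of_lt (by positivity) hr))
    simp only [h3, Metric.mem_closedBall, dist_zero_right]
    have h4 : (((N.nnnorm : ℝ)⁻¹ - ((1 / 2 : ℝ≥0) : ℝ)) * (2 * ‖y.2‖)) = ‖y.2‖ := by
      simp only [N, NNReal.coe_one, inv_one, NNReal.coe_div, NNReal.coe_ofNat]
      ring
    rw [h4]
  obtain ⟨w, hw, hsw⟩ := h1 h2
  rw [Metric.mem_closedBall, dist_eq_norm] at hw
  exact ⟨w, ⟨r, lt_of_le_of_lt hw hr, hg⟩, hsw, hw⟩

theorem inv_spec (h : IsSec c s O) {y : P × E} (hy : y ∈ half c O) :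
    (y.1, inv c s O y) ∈ tub c O ∧ s (y.1, inv c s O y) = y.2 ∧
      ‖inv c s O y - c y.1‖ ≤ 2 * ‖y.2‖ := by
  obtain ⟨w, hw, hsw, hn⟩ := h.exists_sol hy
  have h1 : inv c s O y = w := by
    have := h.inv_eq hw
    simpa only [hsw] using this
  rw [h1]
  exact ⟨hw, hsw, hn⟩

theorem inv_zero (h : IsSec c s O) {p : P} (hp : (p, c p) ∈ O) :
    inv c s O (p, 0) = c p := by
  have := h.inv_eq (h.mem_tub hp)
  simpa only [h.zero p hp] using this

/-- `∂_w s` as an invertible map -/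
theorem exists_equiv (h : IsSec c s O) {x : P × E} (hx : x ∈ O) :
    ∃ L : E ≃L[ℝ] E, ∀ v, L v = fderiv ℝ s x (0, v) := by
  have h1 : ‖(1 : E →L[ℝ] E) - dW s x‖ < 1 := by
    rw [← norm_neg, neg_sub]
    exact lt_of_le_of_lt (h.small x hx) (by norm_num)
  let u : (E →L[ℝ] E)ˣ := Units.oneSub (1 - dW s x) h1
  have h2 : (u : E →L[ℝ] E) = dW s x := by
    simp [u]
  refine ⟨ContinuousLinearEquiv.unitsEquiv ℝ E u, fun v => ?_⟩
  rw [ContinuousLinearEquiv.unitsEquiv_apply, h2, dW_apply]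

/-- the inverse is smooth and holomorphic in the second variable -/
theorem inv_sh [CompleteSpace P] (h : IsSec c s O) :
    ∀ y ∈ half c O, ContDiffAt ℝ ∞ (inv c s O) y ∧ HolW (inv c s O) y := by
  intro y hy
  obtain ⟨hx, hsx, -⟩ := h.inv_spec hy
  set x : P × E := (y.1, inv c s O y) with hxdef
  have hxO : x ∈ O := tub_subset hx
  obtain ⟨L, hL⟩ := h.exists_equiv hxO
  have hs := h.sh x hxO
  have hcd : ContDiffAt ℝ ∞ (fun x : P × E => (x.1, s x)) x := contDiffAt_fst.prodMk hs.1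
  have hsd : HasFDerivAt s (fderiv ℝ s x) x := (hs.1.differentiableAt (by simp)).hasFDerivAt
  -- the derivative of `(p,w) ↦ (p, s(p,w))`
  let A : P →L[ℝ] E := (fderiv ℝ s x).comp (ContinuousLinearMap.inl ℝ P E)
  have hsplit : ∀ u v, fderiv ℝ s x (u, v) = A u + L v := by
    intro u v
    rw [hL]
    have : ((u, v) : P × E) = (u, 0) + (0, v) := by simp
    rw [this, map_add]
    rfl
  let T : (P × E) ≃L[ℝ] (P × E) := ContinuousLinearEquiv.equivOfInverse
    ((ContinuousLinearMap.fst ℝ P E).prod (fderiv ℝ s x))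
    ((ContinuousLinearMap.fst ℝ P E).prod
      ((L.symm : E →L[ℝ] E).comp (ContinuousLinearMap.snd ℝ P E -
        A.comp (ContinuousLinearMap.fst ℝ P E))))
    (by
      rintro ⟨u, v⟩
      ext1
      · simp
      · simp [hsplit])
    (by
      rintro ⟨u, v⟩
      ext1
      · simp
      · simp [hsplit])
  have hT : HasFDerivAt (fun x : P × E => (x.1, s x)) (T : (P × E) →L[ℝ] (P × E)) x :=
    hasFDerivAt_fst.prodMk hsd
  have hst := hcd.hasStrictFDerivAt' hT (by simp)
  have hyx : (x.1, s x) = y := Prod.ext rfl hsx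
  have hsm : ContDiffAt ℝ ∞ (hcd.localInverse hT (by simp)) y := by
    have := hcd.to_localInverse hT (by simp)
    rwa [hyx] at this
  have hri : ∀ᶠ z in 𝓝 y, (fun x : P × E => (x.1, s x)) (hcd.localInverse hT (by simp) z) = z := by
    have := hst.eventually_right_inverse
    rwa [hyx] at this
  have htd : Tendsto (hcd.localInverse hT (by simp)) (𝓝 y) (𝓝 x) := by
    have := hst.localInverse_tendsto
    rwa [hyx] at this
  have hmem : ∀ᶠ z in 𝓝 y, hcd.localInverse hT (by simp) z ∈ tub c O :=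
    htd.eventually (h.isOpen_tub.mem_nhds hx)
  have heq : (fun z => (hcd.localInverse hT (by simp) z).2) =ᶠ[𝓝 y] inv c s O := by
    filter_upwards [hri, hmem] with z h1 h2
    have h3 := h.inv_eq h2
    have h4 : ((hcd.localInverse hT (by simp) z).1, s (hcd.localInverse hT (by simp) z)) = z := h1
    rw [h4] at h3
    exact h3.symm
  have hcda : ContDiffAt ℝ ∞ (inv c s O) y := (contDiffAt_snd.comp y hsm).congr_of_eventuallyEq
    heq.symm
  refine ⟨hcda, fun v => ?_⟩
  -- differentiate `s (y.1, e y) = y.2`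
  have hed : HasFDerivAt (inv c s O) (fderiv ℝ (inv c s O) y) y :=
    (hcda.differentiableAt (by simp)).hasFDerivAt
  have h1 : HasFDerivAt (fun z : P × E => s (z.1, inv c s O z))
      ((fderiv ℝ s x).comp ((ContinuousLinearMap.fst ℝ P E).prod
        (fderiv ℝ (inv c s O) y))) y :=
    HasFDerivAt.comp (f := fun z : P × E => (z.1, inv c s O z)) y hsd (hasFDerivAt_fst.prodMk hed)
  have h2 : (fun z : P × E => s (z.1, inv c s O z)) =ᶠ[𝓝 y] fun z => z.2 := by
    filter_upwards [isOpen_half.mem_nhds hy] with z hz using (h.inv_spec hz).2.1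
  have h3 : ∀ v : E, L (fderiv ℝ (inv c s O) y (0, v)) = v := by
    intro v
    have h4 := (h1.congr_of_eventuallyEq h2.symm).unique (hasFDerivAt_snd (p := y))
    have h5 := congrArg (fun l : P × E →L[ℝ] E => l (0, v)) h4
    simp only [ContinuousLinearMap.comp_apply, ContinuousLinearMap.prod_apply,
      ContinuousLinearMap.coe_fst', ContinuousLinearMap.coe_snd'] at h5
    rw [hL]
    exact h5
  apply L.injective
  rw [h3]
  have h6 : L (Complex.I • fderiv ℝ (inv c s O) y (0, v)) =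
      Complex.I • L (fderiv ℝ (inv c s O) y (0, v)) := by
    rw [hL, hL]
    exact hs.2 _
  rw [h6, h3]

/-- the inverse image of `half` -/
def _root_.Vale.Agent.P267.H734.dom (c : P → E) (s : P × E → E) (O : Set (P × E)) : Set (P × E) :=
  {x | x ∈ tub c O ∧ (x.1, s x) ∈ half c O}

theorem isOpen_dom (h : IsSec c s O) : IsOpen (dom c s O) := by
  rw [isOpen_iff_mem_nhds]
  rintro x ⟨h1, h2⟩
  have h3 : ContinuousAt (fun x : P × E => (x.1, s x)) x :=
    continuousAt_fst.prodMk (h.sh x (tub_subset h1)).1.continuousAt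
  filter_upwards [h.isOpen_tub.mem_nhds h1, h3.eventually (isOpen_half.mem_nhds h2)] with y h4 h5
  exact ⟨h4, h5⟩

theorem mem_dom (h : IsSec c s O) {p : P} (hp : (p, c p) ∈ O) : (p, c p) ∈ dom c s O :=
  ⟨h.mem_tub hp, by simpa only [h.zero p hp] using h.mem_half hp⟩

theorem inv_mem_dom (h : IsSec c s O) {y : P × E} (hy : y ∈ half c O) :
    (y.1, inv c s O y) ∈ dom c s O := by
  obtain ⟨h1, h2, -⟩ := h.inv_spec hy
  exact ⟨h1, by simpa only [h2] using hy⟩

end IsSec

/-! ### existence of the open set `O` -/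

/-- the set of the points near which `s` is smooth, holomorphic in `w`, with `∂_w s` near `1` -/
def secDom (O₁ : Set (P × E)) (s : P × E → E) : Set (P × E) :=
  {x | x ∈ O₁ ∧ SH s x ∧ ‖dW s x - 1‖ < 1 / 2}

theorem isSec_secDom {c : P → E} {V : Set P} (hc : ∀ p ∈ V, ContDiffAt ℝ ∞ c p)
    {O₁ : Set (P × E)} (hO₁ : IsOpen O₁) (hOV : ∀ x ∈ O₁, x.1 ∈ V) {s : P × E → E}
    (hs0 : ∀ p ∈ V, s (p, c p) = 0) : IsSec c s (secDom O₁ s) where
  isOpen := by
    rw [isOpen_iff_mem_nhds]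
    rintro x ⟨h1, h2, h3⟩
    have h4 : ContinuousAt (fun x => ‖dW s x - 1‖) x := by
      have : ContinuousAt (fderiv ℝ s) x :=
        (h2.contDiffAt.fderiv_right (m := ∞) (by simp)).continuousAt
      exact ((this.clm_comp continuousAt_const).sub continuousAt_const).norm
    filter_upwards [hO₁.mem_nhds h1, h2.eventually, h4.eventually (gt_mem_nhds h3)] with y h5 h6 h7
    exact ⟨h5, h6, h7⟩
  smooth_c := fun x hx => hc _ (hOV x hx.1)
  sh := fun x hx => ⟨hx.2.1.contDiffAt, hx.2.1.hol⟩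
  small := fun x hx => hx.2.2.le
  zero := fun p hp => hs0 p (hOV _ hp.1)

theorem mem_secDom {c : P → E} {O₁ : Set (P × E)} {s : P × E → E} {p : P}
    (hO₁ : (p, c p) ∈ O₁) (hs : SH s (p, c p)) (hs1 : ∀ v, fderiv ℝ s (p, c p) (0, v) = v) :
    (p, c p) ∈ secDom O₁ s := by
  refine ⟨hO₁, hs, ?_⟩
  have h1 : dW s (p, c p) = 1 := by
    ext v
    rw [dW_apply, hs1]
    rfl
  rw [h1, sub_self, norm_zero]
  norm_num

end

end Vale.Agent.P267.H734
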