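import Vale.Agent.P267.H734.Div

/-! P267 / H734: radial primitives and Koszul division near a section `w = c(p)`. -/

set_option linter.unusedSectionVars false

namespace Vale.Agent.P267.H734

open scoped ContDiff Topology
open Set Filter MeasureTheory

noncomputable section

variable {P : Type} [NormedAddCommGroup P] [NormedSpace ℝ P]
  {E : Type} [NormedAddCommGroup E] [NormedSpace ℂ E]
  {W : Type} [NormedAddCommGroup W] [NormedSpace ℂ W]

/-- the point `c(p) + t (w - c(p))` of the segment from `c(p)` to `w` -/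
def seg (c : P → E) (t : ℝ) (x : P × E) : P × E := (x.1, c x.1 + t • (x.2 - c x.1))

@[simp] theorem seg_fst (c : P → E) (t : ℝ) (x : P × E) : (seg c t x).1 = x.1 := rfl

@[simp] theorem seg_one (c : P → E) (x : P × E) : seg c 1 x = x := by
  ext1 <;> simp [seg]

theorem seg_zero (c : P → E) (x : P × E) : seg c 0 x = (x.1, c x.1) := by
  simp [seg]

theorem seg_sub (c : P → E) (t : ℝ) (x : P × E) :
    (seg c t x).2 - c (seg c t x).1 = t • (x.2 - c x.1) := by
  simp [seg]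

/-- an open set which is star shaped around the section `c` -/
structure Star (c : P → E) (D : Set (P × E)) : Prop where
  isOpen : IsOpen D
  smooth : ∀ x ∈ D, ContDiffAt ℝ ∞ c x.1
  seg_mem : ∀ x ∈ D, ∀ t ∈ Icc (0 : ℝ) 1, seg c t x ∈ D

theorem Star.base_mem {c : P → E} {D : Set (P × E)} (h : Star c D) {x : P × E} (hx : x ∈ D) :
    (x.1, c x.1) ∈ D := by
  have := h.seg_mem x hx 0 ⟨le_rfl, zero_le_one⟩
  rwa [seg_zero] at this

theorem exists_star {c : P → E} {p₀ : P} (hc : ∀ᶠ p in 𝓝 p₀, ContDiffAt ℝ ∞ c p)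
    {O : Set (P × E)} (hO : O ∈ 𝓝 (p₀, c p₀)) : ∃ D, Star c D ∧ (p₀, c p₀) ∈ D ∧ D ⊆ O := by
  rw [nhds_prod_eq, Filter.mem_prod_iff] at hO
  obtain ⟨A, hA, B, hB, hAB⟩ := hO
  obtain ⟨r, hr, hrB⟩ := Metric.mem_nhds_iff.1 hB
  have hcc : ContinuousAt c p₀ := hc.self_of_nhds.continuousAt
  have h1 : ∀ᶠ p in 𝓝 p₀, p ∈ A ∧ ContDiffAt ℝ ∞ c p ∧ c p ∈ Metric.ball (c p₀) r :=
    (Filter.eventually_mem_set.2 hA).and (hc.and (hcc.eventually (Metric.ball_mem_nhds _ hr)))
  obtain ⟨T, hT, hTo, hpT⟩ := eventually_nhds_iff.1 h1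
  refine ⟨T ×ˢ Metric.ball (c p₀) r, ⟨hTo.prod Metric.isOpen_ball, ?_, ?_⟩,
    ⟨hpT, Metric.mem_ball_self hr⟩, ?_⟩
  · exact fun x hx => (hT x.1 hx.1).2.1
  · intro x hx t ht
    refine ⟨hx.1, ?_⟩
    have h2 : c x.1 ∈ Metric.ball (c p₀) r := (hT x.1 hx.1).2.2
    have h3 := (convex_ball (c p₀) r).add_smul_sub_mem h2 hx.2 ht
    exact h3
  · exact fun x hx => hAB ⟨(hT x.1 hx.1).1, hrB hx.2⟩

/-- `seg` is smooth in `(x,t)` -/
theorem contDiffAt_seg {c : P → E} {x : P × E} (hc : ContDiffAt ℝ ∞ c x.1) (t : ℝ) :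
    ContDiffAt ℝ ∞ (fun z : (P × E) × ℝ => seg c z.2 z.1) (x, t) := by
  unfold seg
  have h1 : ContDiffAt ℝ ∞ (fun z : (P × E) × ℝ => c z.1.1) (x, t) :=
    ContDiffAt.comp (g := c) (f := fun z : (P × E) × ℝ => z.1.1) (x, t) hc
      (contDiffAt_fst.comp _ contDiffAt_fst)
  have h2 : ContDiffAt ℝ ∞ (fun z : (P × E) × ℝ => z.1.2) (x, t) :=
    contDiffAt_snd.comp _ contDiffAt_fst
  exact (contDiffAt_fst.comp _ contDiffAt_fst).prodMk (h1.add (contDiffAt_snd.smul (h2.sub h1)))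

/-- the set on which the integrands are smooth -/
def segDom (c : P → E) (D : Set (P × E)) : Set ((P × E) × ℝ) :=
  {z | z.1 ∈ D ∧ seg c z.2 z.1 ∈ D}

theorem Star.isOpen_segDom {c : P → E} {D : Set (P × E)} (h : Star c D) :
    IsOpen (segDom c D) := by
  rw [isOpen_iff_mem_nhds]
  rintro ⟨x, t⟩ ⟨hx, hxt⟩
  have h1 := (contDiffAt_seg (h.smooth x hx) t).continuousAt
  have h2 : ∀ᶠ z in 𝓝 ((x, t) : (P × E) × ℝ), seg c z.2 z.1 ∈ D :=
    h1.eventually (h.isOpen.mem_nhds hxt)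
  have h3 : ∀ᶠ z in 𝓝 ((x, t) : (P × E) × ℝ), z.1 ∈ D :=
    (continuousAt_fst (p := ((x, t) : (P × E) × ℝ))).eventually (h.isOpen.mem_nhds hx)
  filter_upwards [h2, h3] with z h4 h5 using ⟨h5, h4⟩

theorem Star.mem_segDom {c : P → E} {D : Set (P × E)} (h : Star c D) :
    ∀ x ∈ D, ∀ t ∈ Icc (0 : ℝ) 1, (x, t) ∈ segDom c D :=
  fun x hx t ht => ⟨hx, h.seg_mem x hx t ht⟩

theorem Star.contDiffOn_comp {c : P → E} {D : Set (P × E)} (h : Star c D) {G : P × E → W}
    (hG : ∀ x ∈ D, ContDiffAt ℝ ∞ G x) {k : ℝ → ℝ} (hk : ContDiff ℝ ∞ k) :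
    ContDiffOn ℝ ∞ (fun z : (P × E) × ℝ => k z.2 • G (seg c z.2 z.1)) (segDom c D) := by
  rintro ⟨x, t⟩ ⟨hx, hxt⟩
  refine ContDiffAt.contDiffWithinAt ?_
  exact (hk.contDiffAt.comp _ contDiffAt_snd).smul
    (ContDiffAt.comp (g := G) (f := fun z : (P × E) × ℝ => seg c z.2 z.1) (x, t)
      (hG _ hxt) (contDiffAt_seg (h.smooth x hx) t))

/-- integrals along the segments are smooth and holomorphic in `w` -/
theorem Star.sh_integral {c : P → E} {D : Set (P × E)} (h : Star c D) {G : P × E → W}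
    (hG : ∀ x ∈ D, ContDiffAt ℝ ∞ G x ∧ HolW G x) {k : ℝ → ℝ} (hk : ContDiff ℝ ∞ k) :
    ∀ x ∈ D, ContDiffAt ℝ ∞ (fun x => ∫ t in (0 : ℝ)..1, k t • G (seg c t x)) x ∧
      HolW (fun x => ∫ t in (0 : ℝ)..1, k t • G (seg c t x)) x := by
  have h1 := h.contDiffOn_comp (fun x hx => (hG x hx).1) hk
  have h2 := contDiffOn_integral h.isOpen_segDom h.isOpen h.mem_segDom h1
  intro x hx
  refine ⟨h2.contDiffAt (h.isOpen.mem_nhds hx), ?_⟩
  have h3 := hasFDerivAt_integral h.isOpen_segDom (h1.of_le (by simp)) (h.mem_segDom x hx)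
  have h4 : ContinuousOn (fun z : (P × E) × ℝ =>
      (fderiv ℝ (fun z : (P × E) × ℝ => k z.2 • G (seg c z.2 z.1)) z).comp
        (ContinuousLinearMap.inl ℝ (P × E) ℝ)) (segDom c D) :=
    (h1.continuousOn_fderiv_of_isOpen h.isOpen_segDom (by simp)).clm_comp continuousOn_const
  have h5 := intervalIntegrable_section h4 (h.mem_segDom x hx)
  have key : ∀ t ∈ Icc (0 : ℝ) 1, ∀ v : E,
      ((fderiv ℝ (fun z : (P × E) × ℝ => k z.2 • G (seg c z.2 z.1)) (x, t)).comp
        (ContinuousLinearMap.inl ℝ (P × E) ℝ)) (0, v) =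
        k t • fderiv ℝ G (seg c t x) (0, t • v) := by
    intro t ht v
    have e1 : HasFDerivAt (fun z : (P × E) × ℝ => k z.2 • G (seg c z.2 z.1))
        (fderiv ℝ (fun z : (P × E) × ℝ => k z.2 • G (seg c z.2 z.1)) (x, t)) (x, t) :=
      ((h1.contDiffAt (h.isOpen_segDom.mem_nhds (h.mem_segDom x hx t ht))).differentiableAt
        (by simp)).hasFDerivAt
    have e2 : HasFDerivAt (fun y : P × E => k t • G (seg c t y))
        ((fderiv ℝ (fun z : (P × E) × ℝ => k z.2 • G (seg c z.2 z.1)) (x, t)).comp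
        (ContinuousLinearMap.inl ℝ (P × E) ℝ)) x :=
      HasFDerivAt.comp (f := fun y : P × E => ((y, t) : (P × E) × ℝ)) x e1
        (hasFDerivAt_prodMk_left x t)
    -- restrict to the line `w + r v`
    have e3 : HasDerivAt (fun r : ℝ => x + r • ((0 : P), v)) ((0 : P), v) 0 := by
      simpa using ((hasDerivAt_id (0 : ℝ)).smul_const ((0 : P), v)).const_add x
    have e4 : HasDerivAt (fun r : ℝ => k t • G (seg c t (x + r • ((0 : P), v))))
        (((fderiv ℝ (fun z : (P × E) × ℝ => k z.2 • G (seg c z.2 z.1)) (x, t)).comp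
        (ContinuousLinearMap.inl ℝ (P × E) ℝ)) (0, v)) 0 := by
      have e2' : HasFDerivAt (fun y : P × E => k t • G (seg c t y))
        ((fderiv ℝ (fun z : (P × E) × ℝ => k z.2 • G (seg c z.2 z.1)) (x, t)).comp
        (ContinuousLinearMap.inl ℝ (P × E) ℝ)) (x + (0 : ℝ) • ((0 : P), v)) := by
        simpa using e2
      exact e2'.comp_hasDerivAt (0 : ℝ) e3
    have e5 : HasDerivAt (fun r : ℝ => seg c t (x + r • ((0 : P), v))) ((0 : P), t • v) 0 := by
      have : (fun r : ℝ => seg c t (x + r • ((0 : P), v))) =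
          fun r : ℝ => seg c t x + r • ((0 : P), t • v) := by
        funext r
        ext1
        · simp [seg]
        · simp only [seg, Prod.fst_add, Prod.snd_add, Prod.smul_mk, smul_zero, add_zero]
          module
      rw [this]
      simpa using ((hasDerivAt_id (0 : ℝ)).smul_const ((0 : P), t • v)).const_add (seg c t x)
    have e6 : HasFDerivAt G (fderiv ℝ G (seg c t x)) (seg c t (x + (0 : ℝ) • ((0 : P), v))) := by
      have := ((hG _ (h.seg_mem x hx t ht)).1.differentiableAt (by simp)).hasFDerivAt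
      simpa using this
    have e7 : HasDerivAt (fun r : ℝ => k t • G (seg c t (x + r • ((0 : P), v))))
        (k t • fderiv ℝ G (seg c t x) (0, t • v)) 0 :=
      (e6.comp_hasDerivAt (0 : ℝ) e5).const_smul (k t)
    exact e4.unique e7
  intro v
  rw [h3.fderiv, ContinuousLinearMap.intervalIntegral_apply h5,
    ContinuousLinearMap.intervalIntegral_apply h5]
  have h6 : ∀ t ∈ uIcc (0 : ℝ) 1,
      ((fderiv ℝ (fun z : (P × E) × ℝ => k z.2 • G (seg c z.2 z.1)) (x, t)).comp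
        (ContinuousLinearMap.inl ℝ (P × E) ℝ)) (0, Complex.I • v) =
      Complex.I • ((fderiv ℝ (fun z : (P × E) × ℝ => k z.2 • G (seg c z.2 z.1)) (x, t)).comp
        (ContinuousLinearMap.inl ℝ (P × E) ℝ)) (0, v) := by
    intro t ht
    rw [uIcc_of_le zero_le_one] at ht
    rw [key t ht, key t ht, smul_comm t Complex.I v, (hG _ (h.seg_mem x hx t ht)).2,
      smul_comm (k t) Complex.I]
  rw [intervalIntegral.integral_congr h6, intervalIntegral.integral_smul]

/-- the fundamental theorem of calculus along the segment -/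
theorem Star.integral_deriv [CompleteSpace W] {c : P → E} {D : Set (P × E)} (h : Star c D)
    {G : P × E → W} (hG : ∀ x ∈ D, ContDiffAt ℝ ∞ G x) {k k' : ℝ → ℝ}
    (hk : ∀ t, HasDerivAt k (k' t) t) (hk' : Continuous k') {x : P × E} (hx : x ∈ D) :
    ∫ t in (0 : ℝ)..1, (k' t • G (seg c t x) +
      k t • fderiv ℝ G (seg c t x) (0, x.2 - c x.1)) =
      k 1 • G x - k 0 • G (x.1, c x.1) := by
  have hd : ∀ t ∈ Icc (0 : ℝ) 1, HasDerivAt (fun t => G (seg c t x))
      (fderiv ℝ G (seg c t x) (0, x.2 - c x.1)) t := by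
    intro t ht
    have e1 : HasFDerivAt G (fderiv ℝ G (seg c t x)) (seg c t x) :=
      ((hG _ (h.seg_mem x hx t ht)).differentiableAt (by simp)).hasFDerivAt
    have e2 : HasDerivAt (fun t : ℝ => seg c t x) ((0 : P), x.2 - c x.1) t := by
      have e3 : HasDerivAt (fun t : ℝ => c x.1 + t • (x.2 - c x.1)) (x.2 - c x.1) t := by
        simpa using ((hasDerivAt_id t).smul_const (x.2 - c x.1)).const_add (c x.1)
      exact (hasDerivAt_const t x.1).prodMk e3
    exact e1.comp_hasDerivAt t e2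
  have hcont : ContinuousOn (fun t => fderiv ℝ G (seg c t x) (0, x.2 - c x.1))
      (Icc (0 : ℝ) 1) := by
    intro t ht
    have e1 : ContinuousAt (fderiv ℝ G) (seg c t x) :=
      ((hG _ (h.seg_mem x hx t ht)).fderiv_right (m := ∞) (by simp)).continuousAt
    have e2 : ContinuousAt (fun t : ℝ => seg c t x) t := by
      unfold seg; fun_prop
    exact ((ContinuousAt.comp (f := fun t : ℝ => seg c t x) e1 e2).clm_apply
      continuousAt_const).continuousWithinAt
  have hGc : ContinuousOn (fun t => G (seg c t x)) (Icc (0 : ℝ) 1) :=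
    fun t ht => (hd t ht).continuousAt.continuousWithinAt
  have hkc : Continuous k := continuous_iff_continuousAt.2 fun t => (hk t).continuousAt
  have e := intervalIntegral.integral_eq_sub_of_hasDerivAt
    (f := fun t => k t • G (seg c t x))
    (f' := fun t => k' t • G (seg c t x) + k t • fderiv ℝ G (seg c t x) (0, x.2 - c x.1))
    (a := 0) (b := 1) ?_ ?_
  · rw [e]
    simp only [seg_one, seg_zero]
  · intro t ht
    rw [uIcc_of_le zero_le_one] at ht
    have := (hk t).fun_smul (hd t ht)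
    rw [add_comm]
    exact this
  · refine ContinuousOn.intervalIntegrable ?_
    rw [uIcc_of_le zero_le_one]
    exact (hk'.continuousOn.smul hGc).add (hkc.continuousOn.smul hcont)

/-! ### the radial derivative -/

/-- `∫₀¹ ∂_v F (c(p) + t (w - c(p))) dt` -/
def Rad (c : P → E) (v : E) (F : P × E → W) (x : P × E) : W :=
  ∫ t in (0 : ℝ)..1, fderiv ℝ F (seg c t x) (0, v)

theorem Star.sh_on {c : P → E} {D : Set (P × E)} (h : Star c D) {F : P × E → W}
    (hF : ∀ x ∈ D, ContDiffAt ℝ ∞ F x ∧ HolW F x) {x : P × E} (hx : x ∈ D) : SH F x := by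
  filter_upwards [h.isOpen.mem_nhds hx] with y hy using hF y hy

theorem Star.rad {c : P → E} {D : Set (P × E)} (h : Star c D) {F : P × E → W}
    (hF : ∀ x ∈ D, ContDiffAt ℝ ∞ F x ∧ HolW F x) (v : E) :
    ∀ x ∈ D, ContDiffAt ℝ ∞ (Rad c v F) x ∧ HolW (Rad c v F) x := by
  have h1 : ∀ x ∈ D, ContDiffAt ℝ ∞ (fun y => fderiv ℝ F y (0, v)) x ∧
      HolW (fun y => fderiv ℝ F y (0, v)) x := fun x hx =>
    ((h.sh_on hF hx).fderiv_apply (0, v)).self_of_nhds
  have h2 := h.sh_integral h1 (k := fun _ => 1) contDiff_const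
  intro x hx
  have h3 := h2 x hx
  simp only [one_smul] at h3
  exact h3

theorem Star.rad_eq [CompleteSpace W] {c : P → E} {D : Set (P × E)} (h : Star c D)
    {F : P × E → W} (hF : ∀ x ∈ D, ContDiffAt ℝ ∞ F x) {x : P × E} (hx : x ∈ D) :
    F x = F (x.1, c x.1) + Rad c (x.2 - c x.1) F x := by
  have := h.integral_deriv hF (k := fun _ => 1) (k' := fun _ => 0)
    (fun t => hasDerivAt_const t 1) continuous_const hx
  simp only [zero_smul, zero_add, one_smul] at this
  unfold Rad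
  rw [this]
  abel

/-- `SH` version -/
theorem SH.rad {c : P → E} {p₀ : P} (hc : ∀ᶠ p in 𝓝 p₀, ContDiffAt ℝ ∞ c p) {F : P × E → W}
    (hF : SH F (p₀, c p₀)) (v : E) : SH (Rad c v F) (p₀, c p₀) := by
  obtain ⟨D, hD, hp, hDO⟩ := exists_star hc hF
  filter_upwards [hD.isOpen.mem_nhds hp] with x hx using hD.rad (fun x hx => hDO hx) v x hx

theorem SH.rad_eq [CompleteSpace W] {c : P → E} {p₀ : P}
    (hc : ∀ᶠ p in 𝓝 p₀, ContDiffAt ℝ ∞ c p) {F : P × E → W} (hF : SH F (p₀, c p₀)) :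
    ∀ᶠ x in 𝓝 (p₀, c p₀), F x = F (x.1, c x.1) + Rad c (x.2 - c x.1) F x := by
  obtain ⟨D, hD, hp, hDO⟩ := exists_star hc hF
  filter_upwards [hD.isOpen.mem_nhds hp] with x hx using hD.rad_eq (fun x hx => (hDO hx).1) hx

/-! ### linearity in the direction -/

theorem Star.rad_lin [CompleteSpace W] {c : P → E} {D : Set (P × E)} (h : Star c D)
    {F : P × E → W} (hF : ∀ x ∈ D, ContDiffAt ℝ ∞ F x ∧ HolW F x) {x : P × E} (hx : x ∈ D)
    (a b : ℂ) (u v : E) : Rad c (a • u + b • v) F x = a • Rad c u F x + b • Rad c v F x := by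
  have hint : ∀ v : E, IntervalIntegrable (fun t => fderiv ℝ F (seg c t x) (0, v))
      volume 0 1 := by
    intro v
    refine ContinuousOn.intervalIntegrable ?_
    rw [uIcc_of_le zero_le_one]
    intro t ht
    have e1 : ContinuousAt (fderiv ℝ F) (seg c t x) :=
      ((hF _ (h.seg_mem x hx t ht)).1.fderiv_right (m := ∞) (by simp)).continuousAt
    have e2 : ContinuousAt (fun t : ℝ => seg c t x) t := by
      unfold seg; fun_prop
    exact ((ContinuousAt.comp (f := fun t : ℝ => seg c t x) e1 e2).clm_apply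
      continuousAt_const).continuousWithinAt
  unfold Rad
  have i1 : IntervalIntegrable (fun t => a • fderiv ℝ F (seg c t x) (0, u)) volume 0 1 :=
    (hint u).smul a
  have i2 : IntervalIntegrable (fun t => b • fderiv ℝ F (seg c t x) (0, v)) volume 0 1 :=
    (hint v).smul b
  rw [← intervalIntegral.integral_smul, ← intervalIntegral.integral_smul,
    ← intervalIntegral.integral_add i1 i2]
  refine intervalIntegral.integral_congr fun t ht => ?_
  rw [uIcc_of_le zero_le_one] at ht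
  have hh := (hF _ (h.seg_mem x hx t ht)).2
  have e1 : ((0 : P), a • u + b • v) = ((0 : P), a • u) + ((0 : P), b • v) := by simp
  rw [e1, map_add, hh.smul, hh.smul]

/-! ### division in two variables -/

section two

/-- the two unit vectors -/
def ee (i : Fin 2) : Fin 2 → ℂ := Pi.single i 1

theorem eq_ee (y : Fin 2 → ℂ) : y = y 0 • ee 0 + y 1 • ee 1 := by
  funext i
  fin_cases i <;> simp [ee]

variable {c : P → Fin 2 → ℂ}

theorem HolW.two {F : P × (Fin 2 → ℂ) → W} {x : P × (Fin 2 → ℂ)} (h : HolW F x)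
    (y : Fin 2 → ℂ) :
    fderiv ℝ F x (0, y) = y 0 • fderiv ℝ F x (0, ee 0) + y 1 • fderiv ℝ F x (0, ee 1) := by
  have e1 : ((0 : P), y) = ((0 : P), y 0 • ee 0) + ((0 : P), y 1 • ee 1) := by
    conv_lhs => rw [eq_ee y]
    simp
  rw [e1, map_add, h.smul, h.smul]

theorem Star.rad_two [CompleteSpace W] {D : Set (P × (Fin 2 → ℂ))} (h : Star c D)
    {F : P × (Fin 2 → ℂ) → W} (hF : ∀ x ∈ D, ContDiffAt ℝ ∞ F x ∧ HolW F x)
    {x : P × (Fin 2 → ℂ)} (hx : x ∈ D) :
    F x = F (x.1, c x.1) + ((x.2 0 - c x.1 0) • Rad c (ee 0) F x +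
      (x.2 1 - c x.1 1) • Rad c (ee 1) F x) := by
  rw [← h.rad_lin hF hx, h.rad_eq (fun x hx => (hF x hx).1) hx]
  congr 2
  rw [← Pi.sub_apply, ← Pi.sub_apply]
  exact eq_ee _

/-- **(T1)** radial primitive -/
theorem SH.rad_two [CompleteSpace W] {p₀ : P} (hc : ∀ᶠ p in 𝓝 p₀, ContDiffAt ℝ ∞ c p)
    {F : P × (Fin 2 → ℂ) → W} (hF : SH F (p₀, c p₀)) :
    ∀ᶠ x in 𝓝 (p₀, c p₀), F x = F (x.1, c x.1) + ((x.2 0 - c x.1 0) • Rad c (ee 0) F x +
      (x.2 1 - c x.1 1) • Rad c (ee 1) F x) := by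
  obtain ⟨D, hD, hp, hDO⟩ := exists_star hc hF
  filter_upwards [hD.isOpen.mem_nhds hp] with x hx using hD.rad_two (fun x hx => hDO hx) hx

/-- `∫₀¹ t (∂₀ G - ∂₁ F)(c(p) + t (w - c(p))) dt` -/
def Kos (c : P → Fin 2 → ℂ) (F G : P × (Fin 2 → ℂ) → W) (x : P × (Fin 2 → ℂ)) : W :=
  ∫ t in (0 : ℝ)..1, t • (fderiv ℝ G (seg c t x) (0, ee 0) - fderiv ℝ F (seg c t x) (0, ee 1))

theorem Star.kos {D : Set (P × (Fin 2 → ℂ))} (h : Star c D)
    {F G : P × (Fin 2 → ℂ) → W} (hF : ∀ x ∈ D, ContDiffAt ℝ ∞ F x ∧ HolW F x)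
    (hG : ∀ x ∈ D, ContDiffAt ℝ ∞ G x ∧ HolW G x) :
    ∀ x ∈ D, ContDiffAt ℝ ∞ (Kos c F G) x ∧ HolW (Kos c F G) x := by
  have h1 : ∀ x ∈ D, ContDiffAt ℝ ∞
      (fun y => fderiv ℝ G y (0, ee 0) - fderiv ℝ F y (0, ee 1)) x ∧
      HolW (fun y => fderiv ℝ G y (0, ee 0) - fderiv ℝ F y (0, ee 1)) x := fun x hx =>
    (((h.sh_on hG hx).fderiv_apply (0, ee 0)).sub
      ((h.sh_on hF hx).fderiv_apply (0, ee 1))).self_of_nhds
  exact h.sh_integral h1 (k := fun t => t) contDiff_id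

/-- the derivative of the relation `y₀ F + y₁ G = 0` -/
theorem rel_deriv {D : Set (P × (Fin 2 → ℂ))} (hD : IsOpen D)
    {F G : P × (Fin 2 → ℂ) → W} (hF : ∀ x ∈ D, ContDiffAt ℝ ∞ F x)
    (hG : ∀ x ∈ D, ContDiffAt ℝ ∞ G x)
    (hrel : ∀ x ∈ D, (x.2 0 - c x.1 0) • F x + (x.2 1 - c x.1 1) • G x = 0)
    {x : P × (Fin 2 → ℂ)} (hx : x ∈ D) (v : Fin 2 → ℂ) :
    v 0 • F x + v 1 • G x + ((x.2 0 - c x.1 0) • fderiv ℝ F x (0, v) +
      (x.2 1 - c x.1 1) • fderiv ℝ G x (0, v)) = 0 := by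
  have e3 : HasDerivAt (fun r : ℝ => x + r • ((0 : P), v)) ((0 : P), v) 0 := by
    simpa using ((hasDerivAt_id (0 : ℝ)).smul_const ((0 : P), v)).const_add x
  have line : ∀ {F : P × (Fin 2 → ℂ) → W}, (∀ x ∈ D, ContDiffAt ℝ ∞ F x) →
      HasDerivAt (fun r : ℝ => F (x + r • ((0 : P), v))) (fderiv ℝ F x (0, v)) 0 := by
    intro F hF
    have e : HasFDerivAt F (fderiv ℝ F x) (x + (0 : ℝ) • ((0 : P), v)) := by
      simpa using ((hF x hx).differentiableAt (by simp)).hasFDerivAt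
    exact e.comp_hasDerivAt (0 : ℝ) e3
  have hy : ∀ i : Fin 2, HasDerivAt (fun r : ℝ => ((x.2 i - c x.1 i + r * v i : ℂ))) (v i) 0 := by
    intro i
    have h1 : HasDerivAt (fun r : ℝ => (r : ℂ) * v i) (1 * v i) 0 :=
      (Complex.ofRealCLM.hasDerivAt (x := (0 : ℝ))).mul_const (v i)
    simpa using h1.const_add (x.2 i - c x.1 i)
  have h1 := ((hy 0).smul (line hF)).add ((hy 1).smul (line hG))
  have h2 : HasDerivAt (fun r : ℝ => ((x.2 0 - c x.1 0 + r * v 0 : ℂ)) • F (x + r • ((0 : P), v)) +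
      ((x.2 1 - c x.1 1 + r * v 1 : ℂ)) • G (x + r • ((0 : P), v))) (0 : W) 0 := by
    have h3 : ∀ᶠ r : ℝ in 𝓝 0, ((x.2 0 - c x.1 0 + r * v 0 : ℂ)) • F (x + r • ((0 : P), v)) +
      ((x.2 1 - c x.1 1 + r * v 1 : ℂ)) • G (x + r • ((0 : P), v)) = 0 := by
      have h4 : ∀ᶠ r : ℝ in 𝓝 0, x + r • ((0 : P), v) ∈ D := by
        have h5 : ContinuousAt (fun r : ℝ => x + r • ((0 : P), v)) 0 := e3.continuousAt
        exact h5.eventually (hD.mem_nhds (by simpa using hx))
      filter_upwards [h4] with r hr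
      have := hrel _ hr
      simp only [Prod.fst_add, Prod.snd_add, Prod.smul_mk, smul_zero, add_zero, Pi.add_apply,
        Pi.smul_apply, Complex.real_smul] at this
      have e0 : ∀ i : Fin 2, x.2 i - c x.1 i + r * v i = x.2 i + r * v i - c x.1 i := by
        intro i; ring
      rw [e0, e0]
      simpa using this
    exact (hasDerivAt_const (0 : ℝ) (0 : W)).congr_of_eventuallyEq h3
  have h3 := h1.unique h2
  simp only [Complex.ofReal_zero, zero_mul, add_zero, zero_smul] at h3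
  rw [← h3]
  abel

/-- **(T2)** Koszul division: if `y₀ F + y₁ G = 0` then `F = - y₁ L`, `G = y₀ L` -/
theorem Star.kos_eq [CompleteSpace W] {D : Set (P × (Fin 2 → ℂ))} (h : Star c D)
    {F G : P × (Fin 2 → ℂ) → W} (hF : ∀ x ∈ D, ContDiffAt ℝ ∞ F x ∧ HolW F x)
    (hG : ∀ x ∈ D, ContDiffAt ℝ ∞ G x ∧ HolW G x)
    (hrel : ∀ x ∈ D, (x.2 0 - c x.1 0) • F x + (x.2 1 - c x.1 1) • G x = 0)
    {x : P × (Fin 2 → ℂ)} (hx : x ∈ D) :
    F x = - ((x.2 1 - c x.1 1) • Kos c F G x) ∧ G x = (x.2 0 - c x.1 0) • Kos c F G x := by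
  have hD := h.isOpen
  have hF' := fun x hx => (hF x hx).1
  have hG' := fun x hx => (hG x hx).1
  have hseg : ∀ (t : ℝ) (i : Fin 2), (seg c t x).2 i - c (seg c t x).1 i =
      (t : ℂ) * (x.2 i - c x.1 i) := by
    intro t i
    have := congrFun (seg_sub c t x) i
    simpa using this
  constructor
  · have h1 := h.integral_deriv hF' (k := fun t => t) (k' := fun _ => 1)
      (fun t => hasDerivAt_id t) continuous_const hx
    simp only [one_smul, zero_smul, sub_zero] at h1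
    rw [← h1, Kos, ← intervalIntegral.integral_smul, ← intervalIntegral.integral_neg]
    refine intervalIntegral.integral_congr fun t ht => ?_
    rw [uIcc_of_le zero_le_one] at ht
    have hm := h.seg_mem x hx t ht
    have h2 := rel_deriv hD hF' hG' hrel hm (ee 0)
    have h3 := (hF _ hm).2.two (x.2 - c x.1)
    simp only [hseg, ee, Pi.single_eq_same, one_smul, ne_eq, one_ne_zero, not_false_eq_true,
      Pi.single_eq_of_ne, zero_smul, add_zero, Pi.sub_apply] at h2 h3 ⊢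
    rw [h3]
    have h4 : F (seg c t x) = - (((t : ℂ) * (x.2 0 - c x.1 0)) •
        fderiv ℝ F (seg c t x) (0, Pi.single 0 1) + ((t : ℂ) * (x.2 1 - c x.1 1)) •
        fderiv ℝ G (seg c t x) (0, Pi.single 0 1)) := eq_neg_of_add_eq_zero_left h2
    rw [h4]
    simp only [← Complex.coe_smul]
    module
  · have h1 := h.integral_deriv hG' (k := fun t => t) (k' := fun _ => 1)
      (fun t => hasDerivAt_id t) continuous_const hx
    simp only [one_smul, zero_smul, sub_zero] at h1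
    rw [← h1, Kos, ← intervalIntegral.integral_smul]
    refine intervalIntegral.integral_congr fun t ht => ?_
    rw [uIcc_of_le zero_le_one] at ht
    have hm := h.seg_mem x hx t ht
    have h2 := rel_deriv hD hF' hG' hrel hm (ee 1)
    have h3 := (hG _ hm).2.two (x.2 - c x.1)
    simp only [hseg, ee, Pi.single_eq_same, one_smul, ne_eq, zero_ne_one, not_false_eq_true,
      Pi.single_eq_of_ne, zero_smul, zero_add, Pi.sub_apply] at h2 h3 ⊢
    rw [h3]
    have h4 : G (seg c t x) = - (((t : ℂ) * (x.2 0 - c x.1 0)) •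
        fderiv ℝ F (seg c t x) (0, Pi.single 1 1) + ((t : ℂ) * (x.2 1 - c x.1 1)) •
        fderiv ℝ G (seg c t x) (0, Pi.single 1 1)) := eq_neg_of_add_eq_zero_left h2
    rw [h4]
    simp only [← Complex.coe_smul]
    module

end two

end

end Vale.Agent.P267.H734
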